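import Vale.Agent.P127.Fam

open MeasureTheory Set Metric Module
open scoped NNReal ENNReal Topology Pointwise

namespace Vale.Agent.P127.Asm

variable {E : Type*} [NormedAddCommGroup E] [InnerProductSpace ℝ E] [FiniteDimensional ℝ E]
  [MeasurableSpace E] [BorelSpace E]
variable {P : Type*} [NormedAddCommGroup P] [NormedSpace ℝ P] [FiniteDimensional ℝ P]
  [MeasurableSpace P] [BorelSpace P]

/-- One Lipschitz piece of a family of lines. -/
theorem piece (hdim : finrank ℝ E = finrank ℝ P + 1) (μ : Measure E) [μ.IsAddHaarMeasure]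
    (φ : P → E × sphere (0 : E) 1) (Q : Set P) {C : ℝ≥0} (hφ : LipschitzOnWith C φ Q)
    {N : Set E} (hN : μ N = 0) :
    μ.toSphere {e | ∃ x, (x, e) ∈ φ '' Q ∧
      (volume : Measure ℝ) {t : ℝ | x + t • (e : E) ∈ N} ≠ 0} = 0 := by
  -- a Haar measure on the parameter space
  let ν : Measure P := μH[finrank ℝ P]
  have hb0 : LipschitzOnWith C (fun p => (φ p).1) Q := by
    have := (LipschitzWith.prod_fst (α := E) (β := sphere (0 : E) 1)).comp_lipschitzOnWith hφ
    rw [one_mul] at this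
    exact this
  have hv0 : LipschitzOnWith C (fun p => ((φ p).2 : E)) Q := by
    have h1 := (LipschitzWith.prod_snd (α := E) (β := sphere (0 : E) 1)).comp_lipschitzOnWith hφ
    have h2 := (LipschitzWith.subtype_val (sphere (0 : E) 1)).comp_lipschitzOnWith h1
    rw [one_mul, one_mul] at h2
    exact h2
  obtain ⟨b, hb, hbe⟩ := hb0.extend_finite_dimension
  obtain ⟨v, hv, hve⟩ := hv0.extend_finite_dimension
  have h1 := Fam.ae_param hdim μ ν (b := b) (v := v) hN
  have h2 := hb.ae_differentiableAt (μ := ν)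
  have h3 := hv.ae_differentiableAt (μ := ν)
  set Z : Set P := {p | ¬ ((DifferentiableAt ℝ b p ∧ DifferentiableAt ℝ v p) ∧
    ((DifferentiableAt ℝ b p ∧ DifferentiableAt ℝ v p) →
      Function.Injective (Fam.DG (0 : P →L[ℝ] E) (fderiv ℝ v p) (v p) 1) →
      (volume : Measure ℝ) {t : ℝ | b p + t • v p ∈ N} = 0))} with hZ
  have hZ0 : ν Z = 0 := by
    have : ∀ᵐ p ∂ν, ((DifferentiableAt ℝ b p ∧ DifferentiableAt ℝ v p) ∧
    ((DifferentiableAt ℝ b p ∧ DifferentiableAt ℝ v p) →
      Function.Injective (Fam.DG (0 : P →L[ℝ] E) (fderiv ℝ v p) (v p) 1) →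
      (volume : Measure ℝ) {t : ℝ | b p + t • v p ∈ N} = 0)) := by
      filter_upwards [h1, h2, h3] with p hp1 hp2 hp3
      exact ⟨⟨hp2, hp3⟩, hp1⟩
    exact this
  have hnorm : ∀ p ∈ Q, ‖v p‖ = 1 := by
    intro p hp
    rw [← hve hp]
    exact norm_eq_of_mem_sphere _
  have hc1 : μ ((fun q : P × ℝ => q.2 • v q.1) '' ((Q ∩ Z) ×ˢ Ioo (0 : ℝ) 1)) = 0 :=
    Fam.null_cone hdim μ ν (hv.lipschitzOnWith (s := Q ∩ Z)) (fun p hp => hnorm p hp.1)
      (measure_mono_null inter_subset_right hZ0)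
  have hc2 := Fam.sard hdim μ (v := v)
  refine Fam.dir_null μ (measure_union_null hc1 hc2) _ ?_
  rintro e ⟨x, ⟨p, hpQ, hpe⟩, hne⟩ t ht
  have hx : b p = x := by
    rw [← hbe hpQ]
    show (φ p).1 = x
    rw [hpe]
  have hve' : v p = (e : E) := by
    rw [← hve hpQ]
    show ((φ p).2 : E) = e
    rw [hpe]
  by_cases hpZ : p ∈ Z
  · left
    exact ⟨(p, t), ⟨⟨hpQ, hpZ⟩, ht⟩, by show t • v p = t • (e : E); rw [hve']⟩
  · right
    have hp' : (DifferentiableAt ℝ b p ∧ DifferentiableAt ℝ v p) ∧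
      ((DifferentiableAt ℝ b p ∧ DifferentiableAt ℝ v p) →
      Function.Injective (Fam.DG (0 : P →L[ℝ] E) (fderiv ℝ v p) (v p) 1) →
      (volume : Measure ℝ) {t : ℝ | b p + t • v p ∈ N} = 0) := by
      by_contra hcon
      exact hpZ hcon
    refine ⟨(p, t), ⟨hp'.1.2, ?_, ht.1.ne'⟩, by show t • v p = t • (e : E); rw [hve']⟩
    intro hinj
    apply hne
    have := hp'.2 hp'.1 hinj
    rw [hx, hve'] at this
    exact this

/-- A subset of the sphere of Hausdorff measure zero, in the dimension of the sphere, is null. -/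
theorem haus_dir (hE : 1 ≤ finrank ℝ E) (μ : Measure E) [μ.IsAddHaarMeasure]
    (W : Set (sphere (0 : E) 1))
    (hW : (μH[(finrank ℝ E : ℝ) - 1] : Measure (sphere (0 : E) 1)) W = 0) :
    μ.toSphere W = 0 := by
  -- one cap
  have hcap : ∀ c : sphere (0 : E) 1,
      μ.toSphere (W ∩ {e | (1 : ℝ) / 2 < inner ℝ (c : E) (e : E)}) = 0 := by
    intro c
    set W' : Set (sphere (0 : E) 1) := W ∩ {e | (1 : ℝ) / 2 < inner ℝ (c : E) (e : E)} with hW'
    have hc : ‖(c : E)‖ = 1 := norm_eq_of_mem_sphere c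
    let P' : Submodule ℝ E := (ℝ ∙ (c : E))ᗮ
    have hP : finrank ℝ E = finrank ℝ P' + 1 := by
      have h1 := Submodule.finrank_add_finrank_orthogonal (K := (ℝ ∙ (c : E)))
      have h2 : finrank ℝ (ℝ ∙ (c : E)) = 1 := finrank_span_singleton (by
        rw [← norm_ne_zero_iff, hc]; exact one_ne_zero)
      have h3 : finrank ℝ P' = finrank ℝ (ℝ ∙ (c : E))ᗮ := rfl
      rw [h3]
      omega
    let ν : Measure P' := μH[finrank ℝ P']
    -- the projection along `c`
    let π₀ : E → E := fun x => x - (inner ℝ (c : E) x) • (c : E)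
    have hπ₀ : ∀ x, π₀ x ∈ P' := by
      intro x
      rw [Submodule.mem_orthogonal_singleton_iff_inner_right]
      simp [π₀, inner_sub_right, inner_smul_right, real_inner_self_eq_norm_sq, hc]
    let π : sphere (0 : E) 1 → P' := fun e => ⟨π₀ e, hπ₀ e⟩
    have hpyth : ∀ x : E, ‖x‖ ^ 2 = (inner ℝ (c : E) x) ^ 2 + ‖π₀ x‖ ^ 2 := by
      intro x
      have : ‖π₀ x‖ ^ 2 = ‖x‖ ^ 2 - (inner ℝ (c : E) x) ^ 2 := by
        simp only [π₀]
        rw [@norm_sub_sq_real, inner_smul_right, norm_smul, hc, real_inner_comm,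
          Real.norm_eq_abs, mul_one, sq_abs]
        ring
      linarith
    have hsub : ∀ x y : E, π₀ x - π₀ y = π₀ (x - y) := by
      intro x y
      simp only [π₀, inner_sub_right, sub_smul]
      abel
    have hlip : LipschitzWith 1 π := by
      apply LipschitzWith.of_dist_le_mul
      intro e f
      have h1 : dist (π e) (π f) = ‖π₀ (e - f : E)‖ := by
        rw [Subtype.dist_eq, dist_eq_norm]
        show ‖π₀ e - π₀ f‖ = _
        rw [hsub]
      have h2 : dist e f = ‖(e : E) - f‖ := by rw [Subtype.dist_eq, dist_eq_norm]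
      rw [h1, h2, NNReal.coe_one, one_mul]
      apply le_of_sq_le_sq _ (norm_nonneg _)
      rw [hpyth ((e : E) - f)]
      nlinarith [sq_nonneg (inner ℝ (c : E) ((e : E) - f))]
    have hanti : ∀ e ∈ W', ∀ f ∈ W', dist e f ≤ 3 * dist (π e) (π f) := by
      rintro e ⟨-, he⟩ f ⟨-, hf⟩
      have he' : (1 : ℝ) / 2 < inner ℝ (c : E) (e : E) := he
      have hf' : (1 : ℝ) / 2 < inner ℝ (c : E) (f : E) := hf
      have h1 : dist (π e) (π f) = ‖π₀ (e - f : E)‖ := by
        rw [Subtype.dist_eq, dist_eq_norm]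
        show ‖π₀ e - π₀ f‖ = _
        rw [hsub]
      have h2 : dist e f = ‖(e : E) - f‖ := by rw [Subtype.dist_eq, dist_eq_norm]
      rw [h1, h2]
      have hne : ‖(e : E)‖ = 1 := norm_eq_of_mem_sphere e
      have hnf : ‖(f : E)‖ = 1 := norm_eq_of_mem_sphere f
      have p1 := hpyth (e : E)
      have p2 := hpyth (f : E)
      have p3 := hpyth ((e : E) - f)
      rw [hne] at p1
      rw [hnf] at p2
      rw [inner_sub_right] at p3
      set u := inner ℝ (c : E) (e : E) with hu
      set w := inner ℝ (c : E) (f : E) with hw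
      set X := ‖π₀ (e : E)‖ with hX
      set Y := ‖π₀ (f : E)‖ with hY
      set D := ‖π₀ ((e : E) - f)‖ with hD
      have hD0 : 0 ≤ D := norm_nonneg _
      have hX0 : 0 ≤ X := norm_nonneg _
      have hY0 : 0 ≤ Y := norm_nonneg _
      have hXY : |X - Y| ≤ D := by
        rw [hD, ← hsub]; exact abs_norm_sub_norm_le _ _
      have hX1 : X ≤ 1 := by nlinarith [sq_nonneg u]
      have hY1 : Y ≤ 1 := by nlinarith [sq_nonneg w]
      have h3 : |u - w| ≤ 2 * D := by
        have h4 : (u - w) * (u + w) = (Y - X) * (X + Y) := by nlinarith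
        have h5 : |u - w| * (u + w) = |X - Y| * (X + Y) := by
          have h6 := congrArg abs h4
          rw [abs_mul, abs_mul, abs_of_pos (by linarith : 0 < u + w),
            abs_of_nonneg (by linarith : 0 ≤ X + Y), abs_sub_comm Y X] at h6
          exact h6
        have h7 : |X - Y| * (X + Y) ≤ D * 2 := by
          apply mul_le_mul hXY (by linarith) (by linarith) hD0
        nlinarith [abs_nonneg (u - w)]
      apply le_of_sq_le_sq _ (by positivity)
      have h8 : (u - w) ^ 2 ≤ (2 * D) ^ 2 := by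
        rw [← sq_abs (u - w)]
        exact pow_le_pow_left₀ (abs_nonneg _) h3 2
      rw [p3]
      nlinarith [sq_nonneg D]
    -- the inverse
    have hinj : InjOn π W' := by
      intro e he f hf hef
      have := hanti e he f hf
      rw [hef, dist_self, mul_zero] at this
      exact dist_le_zero.1 this
    have : Nonempty (sphere (0 : E) 1) := ⟨c⟩
    let inv : P' → sphere (0 : E) 1 := Function.invFunOn π W'
    have hinv : ∀ e ∈ W', inv (π e) = e := fun e he => hinj.leftInvOn_invFunOn he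
    have hvl : LipschitzOnWith 3 (fun p => ((inv p : sphere (0 : E) 1) : E)) (π '' W') := by
      apply LipschitzOnWith.of_dist_le_mul
      rintro _ ⟨e, he, rfl⟩ _ ⟨f, hf, rfl⟩
      rw [hinv e he, hinv f hf]
      exact hanti e he f hf
    have hν : ν (π '' W') = 0 := by
      have h1 := hlip.hausdorffMeasure_image_le (d := (finrank ℝ P' : ℝ)) (by positivity) W'
      have h2 : ((finrank ℝ P' : ℕ) : ℝ) = (finrank ℝ E : ℝ) - 1 := by
        rw [hP]; push_cast; ring
      have h3 : (μH[(finrank ℝ P' : ℝ)] : Measure (sphere (0 : E) 1)) W' = 0 := by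
        rw [h2]
        exact measure_mono_null inter_subset_left hW
      rw [h3, mul_zero, nonpos_iff_eq_zero] at h1
      exact h1
    have hcone := Fam.null_cone hP μ ν hvl (by
      rintro _ ⟨e, he, rfl⟩
      exact norm_eq_of_mem_sphere _) hν
    refine Fam.dir_null μ hcone W' ?_
    intro e he t ht
    refine ⟨(π e, t), ⟨⟨e, he, rfl⟩, ht⟩, ?_⟩
    show t • ((inv (π e) : sphere (0 : E) 1) : E) = t • (e : E)
    rw [hinv e he]
  -- countably many caps
  obtain ⟨s, hs, hsd⟩ := TopologicalSpace.exists_countable_dense (sphere (0 : E) 1)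
  have hcov : W ⊆ ⋃ c ∈ s, (W ∩ {e | (1 : ℝ) / 2 < inner ℝ (c : E) (e : E)}) := by
    intro e he
    obtain ⟨c, hcs, hce⟩ := hsd.exists_dist_lt e (show (0 : ℝ) < 1 from one_pos)
    simp only [mem_iUnion]
    refine ⟨c, hcs, he, ?_⟩
    show (1 : ℝ) / 2 < inner ℝ (c : E) (e : E)
    have h1 : ‖(e : E) - c‖ < 1 := by
      rw [← dist_eq_norm, ← Subtype.dist_eq]; exact hce
    have h2 : ‖(e : E) - c‖ ^ 2 = 2 - 2 * inner ℝ (c : E) (e : E) := by
      rw [@norm_sub_sq_real, norm_eq_of_mem_sphere e, norm_eq_of_mem_sphere c, real_inner_comm]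
      ring
    nlinarith [norm_nonneg ((e : E) - c)]
  exact measure_mono_null hcov ((measure_biUnion_null_iff hs).2 fun c _ => hcap c)

end Vale.Agent.P127.Asm
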