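import Vale.Agent.P127.Lam

open MeasureTheory Set Metric Module
open scoped NNReal ENNReal Topology

namespace Vale.Agent.P127.Col

/-- The space `ℝ^(k+1)`. -/
abbrev V (k : ℕ) : Type := EuclideanSpace ℝ (Fin (k + 1))

variable {k : ℕ}

/-- The linear map with columns `θ j`. -/
noncomputable def lin (θ : Fin (k + 1) → V k) (u : V k) : V k := ∑ j, u j • θ j

theorem big_coord (u : V k) : ∃ j, ‖u‖ₑ ≤ ((k : ℝ≥0∞) + 1) * ‖u j‖ₑ := by
  obtain ⟨j, hj⟩ := Finite.exists_max (fun i => ‖u i‖)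
  refine ⟨j, ?_⟩
  have h1 : ‖u‖ ≤ ((k : ℝ) + 1) * ‖u j‖ := by
    have h2 : ‖u‖ ^ 2 = ∑ i, ‖u i‖ ^ 2 := EuclideanSpace.norm_sq_eq u
    have h3 : ∑ i, ‖u i‖ ^ 2 ≤ ∑ _i : Fin (k + 1), ‖u j‖ ^ 2 := by
      apply Finset.sum_le_sum
      intro i _
      exact pow_le_pow_left₀ (norm_nonneg _) (hj i) 2
    rw [Finset.sum_const, Finset.card_univ, Fintype.card_fin, nsmul_eq_mul] at h3
    push_cast at h3
    have hk : (0 : ℝ) ≤ k := Nat.cast_nonneg k
    apply le_of_sq_le_sq _ (by positivity)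
    rw [h2]
    have h4 : (((k : ℝ) + 1) * ‖u j‖) ^ 2 = ((k : ℝ) + 1) * (((k : ℝ) + 1) * ‖u j‖ ^ 2) := by ring
    rw [h4]
    have h5 : 0 ≤ ((k : ℝ) + 1) * ‖u j‖ ^ 2 := by positivity
    nlinarith
  have h6 := ENNReal.ofReal_le_ofReal h1
  rw [ENNReal.ofReal_mul (by positivity), ofReal_norm, ofReal_norm,
    ENNReal.ofReal_add (Nat.cast_nonneg k) zero_le_one, ENNReal.ofReal_natCast,
    ENNReal.ofReal_one] at h6
  exact h6

theorem lin_insert (j : Fin (k + 1)) (x : V k) (η : Fin k → V k) (u : V k) :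
    lin (j.insertNth x η) u = u j • x + ∑ i, u (j.succAbove i) • η i := by
  unfold lin
  rw [Fin.sum_univ_succAbove _ j]
  simp

theorem measurable_lin (u : V k) : Measurable (fun θ : Fin (k + 1) → V k => lin θ u) := by
  unfold lin
  exact Finset.measurable_sum _ fun j _ => (measurable_pi_apply j).const_smul (u j)

/-- Integration over all columns and over the segment. -/
theorem col (a b : ℝ) (ha0 : 0 < a) (ha1 : a < 1) (hb0 : 0 < b) (hs : a + b < (k : ℝ) + 1)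
    (R : ℝ) (hR : 0 < R) :
    ∃ C : ℝ≥0∞, C ≠ ⊤ ∧ ∀ w e u : V k, ‖e‖ = 1 →
      ∫⁻ t in Icc (0 : ℝ) 1, ∫⁻ θ, ‖w + t • e + lin θ u‖ₑ ^ (-(a + b))
        ∂(Measure.pi fun _ : Fin (k + 1) => (volume : Measure (V k)).restrict (ball 0 R)) ≤
      C * ‖u‖ₑ ^ (-b) := by
  have hfr : (finrank ℝ (V k) : ℝ) = (k : ℝ) + 1 := by
    simp
  obtain ⟨C₁, hC₁, h1⟩ := Lam.one_param (volume : Measure (V k)) a b ha0 hb0 (by rw [hfr]; exact hs)
    R hR
  obtain ⟨C₂, hC₂, h2⟩ := Ker.ker_bound (volume : Measure ℝ) a ha0.le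
    (by rw [Module.finrank_self]; simpa using ha1)
  set l₀ : Measure (V k) := (volume : Measure (V k)).restrict (ball 0 R) with hl₀
  have hfin : IsFiniteMeasure l₀ := ⟨by
    rw [hl₀, Measure.restrict_apply_univ]; exact measure_ball_lt_top⟩
  set L' : Measure (Fin k → V k) := Measure.pi fun _ : Fin k => l₀ with hL'
  have hL't : L' univ ≠ ⊤ := measure_ne_top _ _
  set c₀ : ℝ≥0∞ := ((k : ℝ≥0∞) + 1) ^ b with hc₀
  have hc₀t : c₀ ≠ ⊤ := ENNReal.rpow_ne_top_of_nonneg hb0.le (by simp)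
  refine ⟨C₁ * c₀ * (C₂ + 1) * L' univ + 1, ?_, ?_⟩
  · apply ENNReal.add_ne_top.2 ⟨?_, ENNReal.one_ne_top⟩
    exact ENNReal.mul_ne_top (ENNReal.mul_ne_top (ENNReal.mul_ne_top hC₁ hc₀t)
      (ENNReal.add_ne_top.2 ⟨hC₂, ENNReal.one_ne_top⟩)) hL't
  intro w e u he
  by_cases hu : u = 0
  · have : ‖u‖ₑ ^ (-b) = ⊤ := by
      rw [hu, enorm_zero, ENNReal.zero_rpow_of_neg (by linarith)]
    rw [this, ENNReal.mul_top (by simp)]
    exact le_top
  obtain ⟨j, hj⟩ := big_coord u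
  have huj : u j ≠ 0 := by
    intro h0
    rw [h0, enorm_zero, mul_zero, nonpos_iff_eq_zero, enorm_eq_zero] at hj
    exact hu hj
  let q : (Fin k → V k) → V k := fun η => ∑ i, u (j.succAbove i) • η i
  have hq : Measurable q :=
    Finset.measurable_sum _ fun i _ => (measurable_pi_apply i).const_smul (u (j.succAbove i))
  have step1 : ∀ z : V k, ∫⁻ θ, ‖z + lin θ u‖ₑ ^ (-(a + b))
      ∂(Measure.pi fun _ : Fin (k + 1) => l₀) ≤
      ∫⁻ η, C₁ * ‖u j‖ₑ ^ (-b) * ‖z + q η‖ₑ ^ (-a) ∂L' := by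
    intro z
    have mp := measurePreserving_piFinSuccAbove (fun _ : Fin (k + 1) => l₀) j
    have hf : Measurable (fun θ : Fin (k + 1) → V k => ‖z + lin θ u‖ₑ ^ (-(a + b))) :=
      ((measurable_lin u).const_add z).enorm.pow_const _
    have hrw : ∫⁻ θ, ‖z + lin θ u‖ₑ ^ (-(a + b)) ∂(Measure.pi fun _ : Fin (k + 1) => l₀) =
        ∫⁻ η, ∫⁻ x, ‖z + lin ((MeasurableEquiv.piFinSuccAbove (fun _ : Fin (k + 1) => V k)
        j).symm (x, η)) u‖ₑ ^ (-(a + b)) ∂l₀ ∂L' := by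
      rw [← (mp.symm).lintegral_comp hf]
      exact lintegral_prod_symm' _ (hf.comp (MeasurableEquiv.measurable _))
    rw [hrw]
    apply lintegral_mono
    intro η
    have h3 : ∀ x : V k, ‖z + lin ((MeasurableEquiv.piFinSuccAbove (fun _ : Fin (k + 1) => V k)
        j).symm (x, η)) u‖ₑ ^ (-(a + b)) = ‖(z + q η) + u j • x‖ₑ ^ (-(a + b)) := by
      intro x
      have h4 : (MeasurableEquiv.piFinSuccAbove (fun _ : Fin (k + 1) => V k) j).symm (x, η) =
        j.insertNth x η := rfl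
      rw [h4, lin_insert]
      congr 2
      show z + (u j • x + q η) = z + q η + u j • x
      abel
    show ∫⁻ x, ‖z + lin ((MeasurableEquiv.piFinSuccAbove (fun _ : Fin (k + 1) => V k)
        j).symm (x, η)) u‖ₑ ^ (-(a + b)) ∂l₀ ≤ _
    rw [lintegral_congr h3]
    exact h1 (z + q η) (u j) huj
  have hmeas : Measurable (fun p : ℝ × (Fin k → V k) =>
      C₁ * ‖u j‖ₑ ^ (-b) * ‖w + p.1 • e + q p.2‖ₑ ^ (-a)) := by
    apply Measurable.const_mul
    apply Measurable.pow_const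
    apply Measurable.enorm
    exact (measurable_fst.smul_const e).const_add w |>.add (hq.comp measurable_snd)
  calc ∫⁻ t in Icc (0 : ℝ) 1, ∫⁻ θ, ‖w + t • e + lin θ u‖ₑ ^ (-(a + b))
        ∂(Measure.pi fun _ : Fin (k + 1) => l₀)
      ≤ ∫⁻ t in Icc (0 : ℝ) 1, ∫⁻ η, C₁ * ‖u j‖ₑ ^ (-b) * ‖w + t • e + q η‖ₑ ^ (-a) ∂L' :=
        lintegral_mono fun t => step1 (w + t • e)
    _ = ∫⁻ η, (∫⁻ t in Icc (0 : ℝ) 1, C₁ * ‖u j‖ₑ ^ (-b) * ‖w + t • e + q η‖ₑ ^ (-a)) ∂L' :=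
        lintegral_lintegral_swap hmeas.aemeasurable
    _ ≤ ∫⁻ _η, C₁ * ‖u j‖ₑ ^ (-b) * (C₂ + 1) ∂L' := by
        apply lintegral_mono
        intro η
        have hm2 : Measurable (fun t : ℝ => ‖w + t • e + q η‖ₑ ^ (-a)) := by
          apply Measurable.pow_const
          apply Measurable.enorm
          exact ((measurable_id.smul_const e).const_add w).add_const _
        simp only
        rw [lintegral_const_mul _ hm2]
        gcongr
        calc ∫⁻ t in Icc (0 : ℝ) 1, ‖w + t • e + q η‖ₑ ^ (-a)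
            ≤ ∫⁻ t in Icc (0 : ℝ) 1, ‖inner ℝ e (w + q η) + t‖ₑ ^ (-a) := by
              apply lintegral_mono
              intro t
              apply Lam.anti_rpow _ ha0.le
              rw [← ofReal_norm, ← ofReal_norm]
              apply ENNReal.ofReal_le_ofReal
              have h5 : inner ℝ e (w + t • e + q η) = inner ℝ e (w + q η) + t := by
                simp only [inner_add_right, inner_smul_right, real_inner_self_eq_norm_sq, he]
                ring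
              rw [← h5]
              calc ‖inner ℝ e (w + t • e + q η)‖ ≤ ‖e‖ * ‖w + t • e + q η‖ :=
                    norm_inner_le_norm _ _
                _ = ‖w + t • e + q η‖ := by rw [he, one_mul]
          _ ≤ C₂ + volume (Icc (0 : ℝ) 1) := h2 _ _
          _ = C₂ + 1 := by simp
    _ = C₁ * ‖u j‖ₑ ^ (-b) * (C₂ + 1) * L' univ := by rw [lintegral_const]
    _ ≤ C₁ * (c₀ * ‖u‖ₑ ^ (-b)) * (C₂ + 1) * L' univ := by
        gcongr
        have h6 := Lam.anti_rpow hj hb0.le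
        have hk0 : ((k : ℝ≥0∞) + 1) ≠ 0 := by simp
        have hkt : ((k : ℝ≥0∞) + 1) ≠ ⊤ := by simp
        rw [ENNReal.mul_rpow_of_ne_top hkt enorm_ne_top] at h6
        calc ‖u j‖ₑ ^ (-b) = c₀ * (((k : ℝ≥0∞) + 1) ^ (-b) * ‖u j‖ₑ ^ (-b)) := by
              rw [hc₀, ← mul_assoc, ← ENNReal.rpow_add _ _ hk0 hkt, add_neg_cancel,
                ENNReal.rpow_zero, one_mul]
          _ ≤ c₀ * ‖u‖ₑ ^ (-b) := by gcongr
    _ = (C₁ * c₀ * (C₂ + 1) * L' univ) * ‖u‖ₑ ^ (-b) := by ring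
    _ ≤ (C₁ * c₀ * (C₂ + 1) * L' univ + 1) * ‖u‖ₑ ^ (-b) := by
        gcongr
        exact le_self_add

end Vale.Agent.P127.Col
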