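import Vale.Agent.P127.Ray

open MeasureTheory Set Metric Module
open scoped NNReal ENNReal Topology Pointwise

namespace Vale.Agent.P127.Fam

variable {E : Type*} [NormedAddCommGroup E] [InnerProductSpace ℝ E] [FiniteDimensional ℝ E]
  [MeasurableSpace E] [BorelSpace E]
variable {P : Type*} [NormedAddCommGroup P] [NormedSpace ℝ P] [FiniteDimensional ℝ P]
  [MeasurableSpace P] [BorelSpace P]

/-- The derivative of `(p, t) ↦ b p + t v p`, where `B`, `A` are the derivatives of `b`, `v` at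
`p` and `u = v p`. -/
noncomputable def DG (B A : P →L[ℝ] E) (u : E) (t : ℝ) : P × ℝ →L[ℝ] E :=
  B.comp (ContinuousLinearMap.fst ℝ P ℝ) + (t • A.comp (ContinuousLinearMap.fst ℝ P ℝ) +
    (ContinuousLinearMap.snd ℝ P ℝ).smulRight u)

omit [FiniteDimensional ℝ E] [MeasurableSpace E] [BorelSpace E] [FiniteDimensional ℝ P]
  [MeasurableSpace P] [BorelSpace P] in
theorem DG_apply (B A : P →L[ℝ] E) (u : E) (t : ℝ) (z : P × ℝ) :
    DG B A u t z = B z.1 + (t • A z.1 + z.2 • u) := by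
  simp [DG]

omit [FiniteDimensional ℝ E] [MeasurableSpace E] [BorelSpace E] [FiniteDimensional ℝ P]
  [MeasurableSpace P] [BorelSpace P] in
theorem hasFDerivAt_G {b v : P → E} {p : P} {B A : P →L[ℝ] E} (hb : HasFDerivAt b B p)
    (hv : HasFDerivAt v A p) (t : ℝ) :
    HasFDerivAt (fun q : P × ℝ => b q.1 + q.2 • v q.1) (DG B A (v p) t) (p, t) := by
  have h1 : HasFDerivAt (fun q : P × ℝ => b q.1) (B.comp (ContinuousLinearMap.fst ℝ P ℝ)) (p, t) :=
    HasFDerivAt.comp (p, t) (f := Prod.fst) (g := b) hb hasFDerivAt_fst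
  have h2 : HasFDerivAt (fun q : P × ℝ => v q.1) (A.comp (ContinuousLinearMap.fst ℝ P ℝ)) (p, t) :=
    HasFDerivAt.comp (p, t) (f := Prod.fst) (g := v) hv hasFDerivAt_fst
  have h3 : HasFDerivAt (fun q : P × ℝ => q.2) (ContinuousLinearMap.snd ℝ P ℝ) (p, t) :=
    hasFDerivAt_snd
  exact h1.add (h3.smul h2)

omit [MeasurableSpace E] [BorelSpace E] [MeasurableSpace P] [BorelSpace P] in
/-- On a line whose direction moves non-degenerately the singular parameters are finite. -/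
theorem finite_sing (hdim : finrank ℝ E = finrank ℝ P + 1) (B A : P →L[ℝ] E) (u : E)
    (hinj : Function.Injective (DG (0 : P →L[ℝ] E) A u 1)) :
    {t : ℝ | t ≠ 0 ∧ ¬ Function.Injective (DG B A u t)}.Finite := by
  have hfr : finrank ℝ (P × ℝ) = finrank ℝ E := by
    rw [finrank_prod, finrank_self, hdim]
  let M : (P × ℝ) ≃ₗ[ℝ] E := LinearMap.linearEquivOfInjective
    (DG (0 : P →L[ℝ] E) A u 1 : P × ℝ →ₗ[ℝ] E) hinj hfr
  have hM : ∀ z, M z = A z.1 + z.2 • u := by
    intro z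
    have : M z = DG (0 : P →L[ℝ] E) A u 1 z := rfl
    rw [this, DG_apply]
    simp
  let L : Module.End ℝ (P × ℝ) := (M.symm : E →ₗ[ℝ] P × ℝ) ∘ₗ (B : P →ₗ[ℝ] E) ∘ₗ
    LinearMap.fst ℝ P ℝ
  have hL : ∀ z, L z = M.symm (B z.1) := fun z => rfl
  have hfin : {s : ℝ | L.HasEigenvalue s}.Finite := Module.End.finite_hasEigenvalue _
  refine Finite.subset (hfin.preimage (f := fun t : ℝ => -t) (neg_injective.injOn)) ?_
  rintro t ⟨ht, hnot⟩
  have h1 : ∃ z : P × ℝ, z ≠ 0 ∧ DG B A u t z = 0 := by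
    by_contra hcon
    push Not at hcon
    apply hnot
    rw [injective_iff_map_eq_zero]
    intro z hz
    by_contra hz0
    exact hcon z hz0 hz
  obtain ⟨z, hz0, hz⟩ := h1
  rw [DG_apply] at hz
  show L.HasEigenvalue (-t)
  apply Module.End.hasEigenvalue_of_hasEigenvector (x := ((t • z.1, z.2) : P × ℝ))
  refine ⟨?_, ?_⟩
  · rw [Module.End.mem_eigenspace_iff, hL, LinearEquiv.symm_apply_eq]
    rw [map_smul, hM]
    have h2 : B z.1 = -(t • A z.1 + z.2 • u) := eq_neg_of_add_eq_zero_left hz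
    rw [h2]
    have h6 : ((-t) • ((t • z.1, z.2) : P × ℝ)) = (-(t • t • z.1), -(t * z.2)) := by
      ext <;> simp
    rw [h6]
    simp only [map_neg, map_smul, smul_neg, smul_add, neg_smul, smul_smul, neg_add_rev]
    abel
  · intro h0
    apply hz0
    have h3 : t • z.1 = 0 := congrArg Prod.fst h0
    have h4 : z.2 = 0 := congrArg Prod.snd h0
    have h5 : z.1 = 0 := (smul_eq_zero.1 h3).resolve_left ht
    exact Prod.ext h5 h4

/-- For a pair of maps `b`, `v`, differentiable almost everywhere, almost every line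
`{b p + t v p}`, whose direction moves non-degenerately, meets a null set in a null set. -/
theorem ae_param (hdim : finrank ℝ E = finrank ℝ P + 1) (μ : Measure E) [μ.IsAddHaarMeasure]
    (ν : Measure P) [ν.IsAddHaarMeasure] {b v : P → E}
    {N : Set E} (hN : μ N = 0) :
    ∀ᵐ p ∂ν, (DifferentiableAt ℝ b p ∧ DifferentiableAt ℝ v p) →
      Function.Injective (DG (0 : P →L[ℝ] E) (fderiv ℝ v p) (v p) 1) →
      (volume : Measure ℝ) {t : ℝ | b p + t • v p ∈ N} = 0 := by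
  have hfr : finrank ℝ E = finrank ℝ (P × ℝ) := by
    rw [finrank_prod, finrank_self, hdim]
  let ψ : E ≃L[ℝ] P × ℝ := ContinuousLinearEquiv.ofFinrankEq hfr
  let T : Set (P × ℝ) := {q | (DifferentiableAt ℝ b q.1 ∧ DifferentiableAt ℝ v q.1) ∧
    Function.Injective (DG (fderiv ℝ b q.1) (fderiv ℝ v q.1) (v q.1) q.2) ∧
    b q.1 + q.2 • v q.1 ∈ N}
  have h1 : μ (ψ ⁻¹' T) = 0 := by
    by_contra hcon
    apply Hom.image_ne_zero μ (fun x => b (ψ x).1 + (ψ x).2 • v (ψ x).1)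
      (fun x => (DG (fderiv ℝ b (ψ x).1) (fderiv ℝ v (ψ x).1) (v (ψ x).1) (ψ x).2).comp
        (ψ : E →L[ℝ] P × ℝ)) _ hcon
    · intro x hx
      have h2 := hasFDerivAt_G hx.1.1.hasFDerivAt hx.1.2.hasFDerivAt (ψ x).2
      exact (HasFDerivAt.comp x (f := ψ) (g := fun q : P × ℝ => b q.1 + q.2 • v q.1) h2
        ψ.hasFDerivAt).hasFDerivWithinAt
    · intro x hx hdet
      have h3 := LinearMap.bot_lt_ker_of_det_eq_zero (f := (((DG (fderiv ℝ b (ψ x).1)
        (fderiv ℝ v (ψ x).1) (v (ψ x).1) (ψ x).2).comp (ψ : E →L[ℝ] P × ℝ) : E →L[ℝ] E) :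
          E →ₗ[ℝ] E)) hdet
      obtain ⟨w, hw, hw0⟩ := Submodule.exists_mem_ne_zero_of_ne_bot h3.ne'
      apply hw0
      have h4 : DG (fderiv ℝ b (ψ x).1) (fderiv ℝ v (ψ x).1) (v (ψ x).1) (ψ x).2 (ψ w) = 0 := hw
      have h5 : ψ w = 0 := hx.2.1 (by rw [h4, map_zero])
      exact (map_eq_zero_iff ψ ψ.injective).1 h5
    · refine measure_mono_null ?_ hN
      rintro _ ⟨x, hx, rfl⟩
      exact hx.2.2
  have h2 : (ν.prod (volume : Measure ℝ)) T = 0 := by
    have hac : (ν.prod (volume : Measure ℝ)) ≪ Measure.map ψ μ :=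
      Measure.absolutelyContinuous_isAddHaarMeasure _ _
    apply hac
    have h3 : Measure.map ψ μ T = μ (ψ ⁻¹' T) :=
      ψ.toHomeomorph.toMeasurableEquiv.map_apply T
    rw [h3, h1]
  filter_upwards [Measure.measure_ae_null_of_prod_null h2] with p hp hd hinj
  have h3 := finite_sing hdim (fderiv ℝ b p) (fderiv ℝ v p) (v p) hinj
  have hsub : {t : ℝ | b p + t • v p ∈ N} ⊆ {0} ∪
      ({t : ℝ | t ≠ 0 ∧ ¬ Function.Injective (DG (fderiv ℝ b p) (fderiv ℝ v p) (v p) t)} ∪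
        (Prod.mk p ⁻¹' T)) := by
    intro t ht
    by_cases ht0 : t = 0
    · left; exact ht0
    · right
      by_cases hi : Function.Injective (DG (fderiv ℝ b p) (fderiv ℝ v p) (v p) t)
      · right; exact ⟨hd, hi, ht⟩
      · left; exact ⟨ht0, hi⟩
  refine measure_mono_null hsub (measure_union_null (by simp) (measure_union_null ?_ hp))
  exact h3.measure_zero _

/-- A set of directions whose cone is null is null. -/
theorem dir_null (μ : Measure E) [μ.IsAddHaarMeasure] {N : Set E} (hN : μ N = 0)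
    (W : Set (sphere (0 : E) 1)) (hW : ∀ e ∈ W, ∀ t ∈ Ioo (0 : ℝ) 1, t • (e : E) ∈ N) :
    μ.toSphere W = 0 := by
  have h1 := Ray.ray_null μ (LipschitzWith.const (0 : E) : LipschitzWith 0 fun _ : E => (0 : E)) hN
  refine measure_mono_null ?_ h1
  intro e he h0
  have h2 : (volume : Measure ℝ) (Ioo (0 : ℝ) 1) = 0 := by
    refine measure_mono_null ?_ h0
    intro t ht
    refine ⟨ht.1, ?_⟩
    rw [zero_add]
    exact hW e he t ht
  simp at h2

/-- Sard: the directions at which the direction map is degenerate form a null cone. -/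
theorem sard (hdim : finrank ℝ E = finrank ℝ P + 1) (μ : Measure E) [μ.IsAddHaarMeasure]
    {v : P → E} :
    μ ((fun q : P × ℝ => q.2 • v q.1) '' {q | DifferentiableAt ℝ v q.1 ∧
      ¬ Function.Injective (DG (0 : P →L[ℝ] E) (fderiv ℝ v q.1) (v q.1) 1) ∧ q.2 ≠ 0}) = 0 := by
  have hfr : finrank ℝ E = finrank ℝ (P × ℝ) := by
    rw [finrank_prod, finrank_self, hdim]
  let ψ : E ≃L[ℝ] P × ℝ := ContinuousLinearEquiv.ofFinrankEq hfr
  set S : Set (P × ℝ) := {q | DifferentiableAt ℝ v q.1 ∧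
      ¬ Function.Injective (DG (0 : P →L[ℝ] E) (fderiv ℝ v q.1) (v q.1) 1) ∧ q.2 ≠ 0} with hS
  have h1 : μ ((fun x => (0 : P → E) (ψ x).1 + (ψ x).2 • v (ψ x).1) '' (ψ ⁻¹' S)) = 0 := by
    apply addHaar_image_eq_zero_of_det_fderivWithin_eq_zero μ
      (f' := fun x => (DG (0 : P →L[ℝ] E) (fderiv ℝ v (ψ x).1) (v (ψ x).1) (ψ x).2).comp
        (ψ : E →L[ℝ] P × ℝ))
    · intro x hx
      have h2 := hasFDerivAt_G (b := (0 : P → E)) (B := 0) (hasFDerivAt_const (0 : E) (ψ x).1)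
        hx.1.hasFDerivAt (ψ x).2
      exact (HasFDerivAt.comp x (f := ψ) (g := fun q : P × ℝ => (0 : P → E) q.1 + q.2 • v q.1) h2
        ψ.hasFDerivAt).hasFDerivWithinAt
    · intro x hx
      by_contra hdet
      apply hx.2.1
      have hnz : (ψ x).2 ≠ 0 := hx.2.2
      rw [injective_iff_map_eq_zero]
      intro z hz
      rw [DG_apply] at hz
      have hz' : fderiv ℝ v (ψ x).1 z.1 + z.2 • v (ψ x).1 = 0 := by simpa using hz
      -- the vector `(z.1 / t, z.2)` is in the kernel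
      have hinj : Function.Injective ((DG (0 : P →L[ℝ] E) (fderiv ℝ v (ψ x).1) (v (ψ x).1)
          (ψ x).2).comp (ψ : E →L[ℝ] P × ℝ) : E →L[ℝ] E) := by
        exact (ContinuousLinearMap.toContinuousLinearEquivOfDetNeZero _ hdet).injective
      have h4 : ((DG (0 : P →L[ℝ] E) (fderiv ℝ v (ψ x).1) (v (ψ x).1)
          (ψ x).2).comp (ψ : E →L[ℝ] P × ℝ) : E →L[ℝ] E)
          (ψ.symm (((ψ x).2)⁻¹ • z.1, z.2)) = 0 := by
        rw [ContinuousLinearMap.comp_apply]
        show DG (0 : P →L[ℝ] E) (fderiv ℝ v (ψ x).1) (v (ψ x).1) (ψ x).2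
          (ψ (ψ.symm (((ψ x).2)⁻¹ • z.1, z.2))) = 0
        rw [ψ.apply_symm_apply, DG_apply]
        simp only [_root_.zero_apply, map_smul, smul_smul]
        rw [mul_inv_cancel₀ hnz, one_smul, smul_zero, zero_add]
        exact hz'
      have h5 : ψ.symm (((ψ x).2)⁻¹ • z.1, z.2) = 0 := hinj (by rw [h4, map_zero])
      have h6 : ((((ψ x).2)⁻¹ • z.1, z.2) : P × ℝ) = 0 := (map_eq_zero_iff ψ.symm
        ψ.symm.injective).1 h5
      have h7 : ((ψ x).2)⁻¹ • z.1 = 0 := congrArg Prod.fst h6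
      have h8 : z.2 = 0 := congrArg Prod.snd h6
      have h9 : z.1 = 0 := (smul_eq_zero.1 h7).resolve_left (inv_ne_zero hnz)
      exact Prod.ext h9 h8
  refine measure_mono_null ?_ h1
  rintro _ ⟨q, hq, rfl⟩
  refine ⟨ψ.symm q, ?_, ?_⟩
  · show ψ (ψ.symm q) ∈ S
    rw [ψ.apply_symm_apply]; exact hq
  · simp

/-- The cone over the directions of a null set of parameters is null. -/
theorem null_cone (hdim : finrank ℝ E = finrank ℝ P + 1) (μ : Measure E) [μ.IsAddHaarMeasure]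
    (ν : Measure P) [ν.IsAddHaarMeasure] {v : P → E} {C : ℝ≥0}
    {Q : Set P} (hv : LipschitzOnWith C v Q) (hQ : ∀ p ∈ Q, ‖v p‖ = 1) (hQ0 : ν Q = 0) :
    μ ((fun q : P × ℝ => q.2 • v q.1) '' (Q ×ˢ Ioo (0 : ℝ) 1)) = 0 := by
  have hfr : finrank ℝ (P × ℝ) = finrank ℝ E := by
    rw [finrank_prod, finrank_self, hdim]
  have h1 : (μH[finrank ℝ (P × ℝ)] : Measure (P × ℝ)) (Q ×ˢ Ioo (0 : ℝ) 1) = 0 := by
    have hac : (μH[finrank ℝ (P × ℝ)] : Measure (P × ℝ)) ≪ ν.prod (volume : Measure ℝ) :=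
      Measure.absolutelyContinuous_isAddHaarMeasure _ _
    apply hac
    rw [Measure.prod_prod, hQ0, zero_mul]
  have h2 : LipschitzOnWith (1 + C) (fun q : P × ℝ => q.2 • v q.1) (Q ×ˢ Ioo (0 : ℝ) 1) := by
    apply LipschitzOnWith.of_dist_le_mul
    rintro ⟨p, s⟩ ⟨hp, hs⟩ ⟨q, t⟩ ⟨hq, ht⟩
    rw [dist_eq_norm]
    simp only at hp hs hq ht ⊢
    have h3 : s • v p - t • v q = (s - t) • v p + t • (v p - v q) := by
      rw [sub_smul, smul_sub]; abel
    have h4 : dist s t ≤ dist ((p, s) : P × ℝ) (q, t) := by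
      rw [Prod.dist_eq]; exact le_max_right _ _
    have h5 : dist p q ≤ dist ((p, s) : P × ℝ) (q, t) := by
      rw [Prod.dist_eq]; exact le_max_left _ _
    have h6 : ‖v p - v q‖ ≤ C * dist p q := by
      rw [← dist_eq_norm]; exact hv.dist_le_mul p hp q hq
    calc ‖s • v p - t • v q‖ ≤ ‖(s - t) • v p‖ + ‖t • (v p - v q)‖ := by
          rw [h3]; exact norm_add_le _ _
      _ = |s - t| + |t| * ‖v p - v q‖ := by
          rw [norm_smul, norm_smul, hQ p hp, Real.norm_eq_abs, Real.norm_eq_abs, mul_one]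
      _ ≤ dist s t + 1 * (C * dist p q) := by
          have h7 : |t| ≤ 1 := by
            rw [abs_of_pos ht.1]; exact ht.2.le
          have h8 : |s - t| = dist s t := (Real.dist_eq s t).symm
          rw [h8]
          gcongr
      _ ≤ dist ((p, s) : P × ℝ) (q, t) + C * dist ((p, s) : P × ℝ) (q, t) := by
          rw [one_mul]
          gcongr
      _ = ((1 + C : ℝ≥0) : ℝ) * dist ((p, s) : P × ℝ) (q, t) := by
          push_cast; ring
  have h3 := h2.hausdorffMeasure_image_le (d := (finrank ℝ (P × ℝ) : ℝ)) (by positivity)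
  rw [h1, mul_zero, nonpos_iff_eq_zero, hfr] at h3
  have hac : μ ≪ (μH[finrank ℝ E] : Measure E) :=
    Measure.absolutelyContinuous_isAddHaarMeasure _ _
  exact hac h3

end Vale.Agent.P127.Fam
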