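import Vale.Agent.P127.Asm

open MeasureTheory Set Metric Module
open scoped NNReal ENNReal Topology

namespace Vale.Agent.P127.Fin

variable {E : Type*} [NormedAddCommGroup E] [InnerProductSpace ℝ E] [FiniteDimensional ℝ E]
  [MeasurableSpace E] [BorelSpace E]
variable {P : Type*} [NormedAddCommGroup P] [NormedSpace ℝ P] [FiniteDimensional ℝ P]
  [MeasurableSpace P] [BorelSpace P]

/-- A null set meets almost every line of a rectifiable family in a null set. -/
theorem rect_null (hdim : finrank ℝ E = finrank ℝ P + 1) (μ : Measure E) [μ.IsAddHaarMeasure]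
    (F : Set (E × sphere (0 : E) 1)) (Q : ℕ → Set P) (φ : ℕ → P → E × sphere (0 : E) 1)
    (hφ : ∀ i, ∃ C : ℝ≥0, LipschitzOnWith C (φ i) (Q i))
    (hF : (μH[(finrank ℝ E : ℝ) - 1] : Measure (E × sphere (0 : E) 1)) (F \ ⋃ i, φ i '' Q i) = 0)
    {N : Set E} (hN : μ N = 0) :
    μ.toSphere {e | ∃ x, (x, e) ∈ F ∧
      (volume : Measure ℝ) {t : ℝ | x + t • (e : E) ∈ N} ≠ 0} = 0 := by
  have h1 : ∀ i, μ.toSphere {e | ∃ x, (x, e) ∈ φ i '' Q i ∧
      (volume : Measure ℝ) {t : ℝ | x + t • (e : E) ∈ N} ≠ 0} = 0 := by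
    intro i
    obtain ⟨C, hC⟩ := hφ i
    exact Asm.piece hdim μ (φ i) (Q i) hC hN
  have h2 : μ.toSphere (Prod.snd '' (F \ ⋃ i, φ i '' Q i)) = 0 := by
    apply Asm.haus_dir (by omega)
    have h3 := (LipschitzWith.prod_snd (α := E) (β := sphere (0 : E) 1)).hausdorffMeasure_image_le
      (d := (finrank ℝ E : ℝ) - 1) (by
        rw [hdim]; push_cast; simp) (F \ ⋃ i, φ i '' Q i)
    rw [hF, mul_zero, nonpos_iff_eq_zero] at h3
    exact h3
  refine measure_mono_null ?_ (measure_union_null h2 (measure_iUnion_null h1))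
  rintro e ⟨x, hx, hne⟩
  by_cases h : (x, e) ∈ ⋃ i, φ i '' Q i
  · right
    obtain ⟨i, hi⟩ := mem_iUnion.1 h
    exact mem_iUnion.2 ⟨i, x, hi, hne⟩
  · left
    exact ⟨(x, e), ⟨hx, h⟩, rfl⟩

/-- Positive outer measure implies full Hausdorff dimension. -/
theorem dim_full (μ : Measure E) [μ.IsAddHaarMeasure] {K : Set E} (hK : μ K ≠ 0) :
    dimH K = (finrank ℝ E : ℝ≥0∞) := by
  apply le_antisymm
  · calc dimH K ≤ dimH (univ : Set E) := dimH_mono (subset_univ K)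
      _ = (finrank ℝ E : ℝ≥0∞) := Real.dimH_univ_eq_finrank E
  · by_contra hcon
    rw [not_le] at hcon
    apply hK
    have hac : μ ≪ (μH[finrank ℝ E] : Measure E) :=
      Measure.absolutelyContinuous_isAddHaarMeasure _ _
    apply hac
    have h1 : dimH K < ((finrank ℝ E : ℝ≥0) : ℝ≥0∞) := by simpa using hcon
    have h2 := hausdorffMeasure_of_dimH_lt h1
    simpa using h2

/-- If the traces are positive on a non-null set of directions then `K` is not null. -/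
theorem rect_pos (hdim : finrank ℝ E = finrank ℝ P + 1) (μ : Measure E) [μ.IsAddHaarMeasure]
    (F : Set (E × sphere (0 : E) 1)) (Q : ℕ → Set P) (φ : ℕ → P → E × sphere (0 : E) 1)
    (hφ : ∀ i, ∃ C : ℝ≥0, LipschitzOnWith C (φ i) (Q i))
    (hF : (μH[(finrank ℝ E : ℝ) - 1] : Measure (E × sphere (0 : E) 1)) (F \ ⋃ i, φ i '' Q i) = 0)
    (hpos : μ.toSphere (Prod.snd '' F) ≠ 0) (K : Set E)
    (hK : ∀ q ∈ F, ∃ s : ℝ, ∀ t ∈ Icc s (s + 1), q.1 + t • (q.2 : E) ∈ K) : μ K ≠ 0 := by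
  intro h0
  apply hpos
  refine measure_mono_null ?_ (rect_null hdim μ F Q φ hφ hF h0)
  rintro _ ⟨⟨x, e⟩, hq, rfl⟩
  refine ⟨x, hq, ?_⟩
  intro hz
  obtain ⟨s, hs⟩ := hK _ hq
  have h2 : (volume : Measure ℝ) (Icc s (s + 1)) = 0 := measure_mono_null (fun t ht => hs t ht) hz
  simp at h2

/-- The case of a choice which is Lipschitz on countably many sets. -/
theorem sel_pos (μ : Measure E) [μ.IsAddHaarMeasure] (a : sphere (0 : E) 1 → E)
    (D : ℕ → Set (sphere (0 : E) 1)) (hL : ∀ i, ∃ C : ℝ≥0, LipschitzOnWith C a (D i))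
    (hpos : μ.toSphere (⋃ i, D i) ≠ 0) (K : Set E)
    (hK : ∀ e ∈ ⋃ i, D i, ∀ t ∈ Icc (0 : ℝ) 1, a e + t • (e : E) ∈ K) : μ K ≠ 0 := by
  intro h0
  apply hpos
  refine measure_mono_null ?_ (Ray.sigma_null μ a D hL h0)
  intro e he hcon
  have h1 := hcon he
  have h2 : (volume : Measure ℝ) (Icc (0 : ℝ) 1) = 0 :=
    measure_mono_null (fun t ht => hK e he t ht) h1
  simp at h2

end Vale.Agent.P127.Fin
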