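import Mathlib

/-!
# P127, row M: the energy method for the Hausdorff dimension
-/

open MeasureTheory Set Metric Module
open scoped NNReal ENNReal Topology

namespace Vale.Agent.P127

variable {E : Type*} [NormedAddCommGroup E] [InnerProductSpace ℝ E] [FiniteDimensional ℝ E]
  [MeasurableSpace E] [BorelSpace E]

/-- ROW M (Mass.lean): energy method. -/
theorem Mass.dim_of_energy {X : Type*} [MeasurableSpace X] (m : Measure X) [IsFiniteMeasure m]
    (hm : m ≠ 0) (G : X → E) (hG : Measurable G) (s : ℝ) (hs : 0 < s)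
    (hen : ∫⁻ x, ∫⁻ y, ‖G x - G y‖ₑ ^ (-s) ∂m ∂m ≠ ⊤) (Y : Set X) (hY : m Yᶜ = 0) :
    ENNReal.ofReal s ≤ dimH (G '' Y) := by
  set φ : X → ℝ≥0∞ := fun x => ∫⁻ y, ‖G x - G y‖ₑ ^ (-s) ∂m with hφ
  have hφm : Measurable φ := by
    have h1 : Measurable fun p : X × X => ‖G p.1 - G p.2‖ₑ ^ (-s) := by
      have h2 : Measurable fun p : X × X => G p.1 - G p.2 :=
        (hG.comp measurable_fst).sub (hG.comp measurable_snd)
      exact h2.enorm.pow_const _
    exact h1.lintegral_prod_right'
  -- a level set of positive measure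
  obtain ⟨M, hM⟩ : ∃ M : ℕ, m {x | φ x ≤ M} ≠ 0 := by
    by_contra! hcon
    have h1 : ∀ᵐ x ∂m, φ x < ⊤ := ae_lt_top hφm hen
    have h2 : m (⋃ M : ℕ, {x | φ x ≤ M}) = 0 := measure_iUnion_null hcon
    have h3 : m {x | ¬ φ x < ⊤} = 0 := h1
    have h4 : m univ ≤ m (⋃ M : ℕ, {x | φ x ≤ M}) + m {x | ¬ φ x < ⊤} := by
      refine le_trans (measure_mono ?_) (measure_union_le _ _)
      intro x _
      by_cases hx : φ x < ⊤
      · left
        obtain ⟨n, hn⟩ := ENNReal.exists_nat_gt hx.ne
        exact mem_iUnion.2 ⟨n, hn.le⟩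
      · exact Or.inr hx
    rw [h2, h3, add_zero] at h4
    exact hm (Measure.measure_univ_eq_zero.1 (le_antisymm h4 zero_le))
  set F : Set X := {x | φ x ≤ M} with hF
  have hFm : MeasurableSet F := measurableSet_le hφm measurable_const
  set ν : Measure E := (m.restrict F).map G with hν
  -- the mass bound
  have hmass : ∀ t : Set E, ediam t ≤ 1 → ν t ≤ (M : ℝ≥0∞) * ediam t ^ s := by
    intro t ht
    have htc : ediam (closure t) = ediam t := ediam_closure t
    have htm : MeasurableSet (closure t) := isClosed_closure.measurableSet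
    have h0 : ν t ≤ ν (closure t) := measure_mono subset_closure
    refine h0.trans ?_
    rw [hν, Measure.map_apply hG htm, Measure.restrict_apply (hG htm)]
    rcases (G ⁻¹' closure t ∩ F).eq_empty_or_nonempty with he | ⟨x0, hx0, hx0F⟩
    · rw [he, measure_empty]
      exact zero_le
    · have h1 : m (G ⁻¹' closure t) * (ediam t ^ (-s)) ≤ M := by
        calc m (G ⁻¹' closure t) * (ediam t ^ (-s))
            = ∫⁻ _ in G ⁻¹' closure t, ediam t ^ (-s) ∂m := by
              rw [setLIntegral_const, mul_comm]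
          _ ≤ ∫⁻ y in G ⁻¹' closure t, ‖G x0 - G y‖ₑ ^ (-s) ∂m := by
              refine setLIntegral_mono' (hG htm) fun y hy => ?_
              have h2 : ‖G x0 - G y‖ₑ ≤ ediam t := by
                rw [← edist_eq_enorm_sub, ← htc]
                exact edist_le_ediam_of_mem hx0 hy
              rw [ENNReal.rpow_neg, ENNReal.rpow_neg]
              exact ENNReal.inv_le_inv.2 (ENNReal.rpow_le_rpow h2 hs.le)
          _ ≤ φ x0 := setLIntegral_le_lintegral _ _
          _ ≤ M := hx0F
      rw [ENNReal.rpow_neg, ← div_eq_mul_inv] at h1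
      have hd : ediam t ^ s ≠ ⊤ := by
        refine ENNReal.rpow_ne_top_of_nonneg hs.le ?_
        exact ne_top_of_le_ne_top ENNReal.one_ne_top ht
      have h3 := (ENNReal.div_le_iff_le_mul (Or.inr (ENNReal.natCast_ne_top M))
        (Or.inl hd)).1 h1
      exact (measure_mono inter_subset_left).trans h3
  -- compare with the Hausdorff measure
  have hνH : ((M : ℝ≥0∞) + 1)⁻¹ • ν ≤ μH[s] := by
    refine Measure.le_hausdorffMeasure s _ 1 one_pos fun t ht => ?_
    rw [Measure.smul_apply, smul_eq_mul]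
    have hM0 : (M : ℝ≥0∞) + 1 ≠ 0 := by simp
    have hM1 : (M : ℝ≥0∞) + 1 ≠ ⊤ := by simp
    calc ((M : ℝ≥0∞) + 1)⁻¹ * ν t ≤ ((M : ℝ≥0∞) + 1)⁻¹ * (((M : ℝ≥0∞) + 1) * ediam t ^ s) := by
          gcongr
          exact (hmass t ht).trans (by gcongr; exact le_self_add)
      _ = ediam t ^ s := by
          rw [← mul_assoc, ENNReal.inv_mul_cancel hM0 hM1, one_mul]
  have hpos : ν (G '' Y) ≠ 0 := by
    have h1 : (m.restrict F) (G ⁻¹' (G '' Y)) ≤ ν (G '' Y) :=
      Measure.le_map_apply hG.aemeasurable _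
    have h2 : (m.restrict F) Y ≤ (m.restrict F) (G ⁻¹' (G '' Y)) :=
      measure_mono (subset_preimage_image G Y)
    have h3 : (m.restrict F) univ ≤ (m.restrict F) Y + (m.restrict F) Yᶜ := by
      rw [← union_compl_self Y]
      exact measure_union_le _ _
    have h4 : (m.restrict F) Yᶜ = 0 :=
      le_antisymm ((Measure.restrict_apply_le F Yᶜ).trans hY.le) zero_le
    rw [h4, add_zero, Measure.restrict_apply_univ] at h3
    intro h0
    apply hM
    exact le_antisymm (((h3.trans h2).trans h1).trans h0.le) zero_le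
  have hH : μH[((⟨s, hs.le⟩ : ℝ≥0) : ℝ)] (G '' Y) ≠ 0 := by
    intro h0
    apply hpos
    have h1 := hνH (G '' Y)
    rw [Measure.smul_apply, smul_eq_mul] at h1
    have h2 : ((M : ℝ≥0∞) + 1)⁻¹ * ν (G '' Y) = 0 := le_antisymm (h1.trans h0.le) zero_le
    rcases mul_eq_zero.1 h2 with h3 | h3
    · rw [ENNReal.inv_eq_zero] at h3
      simp at h3
    · exact h3
  have h5 := le_dimH_of_hausdorffMeasure_ne_zero hH
  refine le_trans (le_of_eq ?_) h5
  rw [ENNReal.ofReal]
  congr 1
  exact Real.toNNReal_of_nonneg hs.le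

end Vale.Agent.P127
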