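import Vale.Agent.P127.Ker

open MeasureTheory Set Metric Module
open scoped NNReal ENNReal Topology Pointwise

namespace Vale.Agent.P127.Sph

variable {E : Type*} [NormedAddCommGroup E] [InnerProductSpace ℝ E] [FiniteDimensional ℝ E]
  [MeasurableSpace E] [BorelSpace E]

/-- Polar coordinates. -/
theorem polar_le (μ : Measure E) [μ.IsAddHaarMeasure] (f : E → ℝ≥0∞) (hf : Measurable f) :
    ∫⁻ e : sphere (0 : E) 1, ∫⁻ r : Ioi (0 : ℝ), f ((r : ℝ) • (e : E))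
      ∂(Measure.volumeIoiPow (finrank ℝ E - 1)) ∂μ.toSphere ≤ ∫⁻ x, f x ∂μ := by
  have hmp := μ.measurePreserving_homeomorphUnitSphereProd
  have hm : Measurable (fun p : sphere (0 : E) 1 × Ioi (0 : ℝ) => f ((p.2 : ℝ) • (p.1 : E))) := by
    apply hf.comp
    exact (measurable_subtype_coe.comp measurable_snd).smul
      (measurable_subtype_coe.comp measurable_fst)
  rw [← lintegral_prod _ hm.aemeasurable, ← hmp.lintegral_comp hm]
  have h1 : ∀ x : ({0}ᶜ : Set E), f (((homeomorphUnitSphereProd E x).2 : ℝ) •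
      ((homeomorphUnitSphereProd E x).1 : E)) = f x := by
    intro x
    rw [homeomorphUnitSphereProd_apply_fst_coe, homeomorphUnitSphereProd_apply_snd_coe]
    have hne : ‖(x : E)‖ ≠ 0 := norm_ne_zero_iff.2 x.2
    rw [smul_smul, mul_inv_cancel₀ hne, one_smul]
  simp_rw [h1]
  rw [lintegral_subtype_comap (measurableSet_singleton _).compl f]
  exact setLIntegral_le_lintegral _ _

/-- The radial measure dominates Lebesgue measure on `(1, 2)`. -/
theorem radial_le (k : ℕ) (h : ℝ → ℝ≥0∞) (hh : Measurable h) :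
    ∫⁻ r in Ioo (1 : ℝ) 2, h r ≤ ∫⁻ r : Ioi (0 : ℝ), h r ∂(Measure.volumeIoiPow k) := by
  have hm : Measurable (fun r : Ioi (0 : ℝ) => ENNReal.ofReal ((r : ℝ) ^ k)) :=
    (measurable_subtype_coe.pow_const _).ennreal_ofReal
  have e1 : ∫⁻ r : Ioi (0 : ℝ), h r ∂(Measure.volumeIoiPow k) =
      ∫⁻ r in Ioi (0 : ℝ), ENNReal.ofReal (r ^ k) * h r := by
    rw [← lintegral_subtype_comap measurableSet_Ioi (fun r : ℝ => ENNReal.ofReal (r ^ k) * h r),
      Measure.volumeIoiPow]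
    exact lintegral_withDensity_eq_lintegral_mul _ hm (hh.comp measurable_subtype_coe)
  rw [e1]
  calc ∫⁻ r in Ioo (1 : ℝ) 2, h r ≤ ∫⁻ r in Ioo (1 : ℝ) 2, ENNReal.ofReal (r ^ k) * h r := by
        apply setLIntegral_mono' measurableSet_Ioo
        intro r hr
        have : (1 : ℝ≥0∞) ≤ ENNReal.ofReal (r ^ k) := by
          rw [← ENNReal.ofReal_one]
          exact ENNReal.ofReal_le_ofReal (one_le_pow₀ hr.1.le)
        exact le_mul_of_one_le_left zero_le this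
    _ ≤ ∫⁻ r in Ioi (0 : ℝ), ENNReal.ofReal (r ^ k) * h r := by
        apply lintegral_mono_set
        intro r hr
        exact lt_trans one_pos hr.1

theorem ae_ne (μ : Measure E) [μ.IsAddHaarMeasure] (hd : 2 ≤ finrank ℝ E)
    (e₀ : sphere (0 : E) 1) : ∀ᵐ e : sphere (0 : E) 1 ∂μ.toSphere, e ≠ e₀ := by
  rw [ae_iff]
  have h1 : {a : sphere (0 : E) 1 | ¬ a ≠ e₀} = {e₀} := by ext; simp
  rw [h1, μ.toSphere_apply' (measurableSet_singleton _)]
  have h2 : μ (Ioo (0 : ℝ) 1 • ((↑) '' ({e₀} : Set (sphere (0 : E) 1)) : Set E)) = 0 := by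
    have hs : Submodule.span ℝ {(e₀ : E)} ≠ ⊤ := by
      intro hcon
      have h3 := finrank_span_le_card (R := ℝ) ({(e₀ : E)} : Set E)
      rw [hcon, finrank_top] at h3
      simp at h3
      omega
    refine measure_mono_null ?_ (Measure.addHaar_submodule μ _ hs)
    intro x hx
    obtain ⟨r, hr, y, hy, rfl⟩ := Set.mem_smul.1 hx
    obtain ⟨z, hz, rfl⟩ := hy
    rw [mem_singleton_iff] at hz
    subst hz
    exact Submodule.smul_mem _ _ (Submodule.mem_span_singleton_self _)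
  rw [h2, mul_zero]

omit [FiniteDimensional ℝ E] [MeasurableSpace E] [BorelSpace E] in
/-- Lower bound for the radial integral. -/
theorem pt_le (b : ℝ) (hb0 : 0 < b) (e e₀ : E) (he : ‖e‖ = 1) (he₀ : ‖e₀‖ = 1) (hne : e ≠ e₀) :
    ‖e - e₀‖ₑ ^ (-b) ≤ ENNReal.ofReal (2 ^ (b + 2)) *
      ∫⁻ r in Ioo (1 : ℝ) 2, ‖-((3 / 2 : ℝ) • e₀) + r • e‖ₑ ^ (-(b + 1)) := by
  set δ : ℝ := ‖e - e₀‖ with hδ
  have hδ0 : 0 < δ := norm_pos_iff.2 (sub_ne_zero.2 hne)
  have hδ2 : δ ≤ 2 := by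
    calc δ ≤ ‖e‖ + ‖e₀‖ := norm_sub_le _ _
      _ = 2 := by rw [he, he₀]; norm_num
  have h1 : ∀ r ∈ Ioo (3 / 2 - δ / 4) (3 / 2 + δ / 4),
      ENNReal.ofReal ((2 * δ) ^ (-(b + 1))) ≤ ‖-((3 / 2 : ℝ) • e₀) + r • e‖ₑ ^ (-(b + 1)) := by
    intro r hr
    have h2 : -((3 / 2 : ℝ) • e₀) + r • e = (r - 3 / 2) • e + (3 / 2 : ℝ) • (e - e₀) := by
      rw [smul_sub, sub_smul]; abel
    have h3 : ‖-((3 / 2 : ℝ) • e₀) + r • e‖ ≤ 2 * δ := by
      rw [h2]
      refine (norm_add_le _ _).trans ?_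
      rw [norm_smul, norm_smul, he, Real.norm_eq_abs, Real.norm_eq_abs, ← hδ,
        abs_of_pos (by norm_num : (0 : ℝ) < 3 / 2)]
      have : |r - 3 / 2| ≤ δ / 4 := abs_le.2 ⟨by linarith [hr.1], by linarith [hr.2]⟩
      linarith
    have h4 : ‖-((3 / 2 : ℝ) • e₀) + r • e‖ₑ ≤ ENNReal.ofReal (2 * δ) := by
      rw [← ofReal_norm]
      exact ENNReal.ofReal_le_ofReal h3
    rw [← ENNReal.ofReal_rpow_of_pos (by positivity), ENNReal.rpow_neg, ENNReal.rpow_neg,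
      ENNReal.inv_le_inv]
    exact ENNReal.rpow_le_rpow h4 (by linarith)
  have h5 : ENNReal.ofReal ((2 * δ) ^ (-(b + 1))) * ENNReal.ofReal (δ / 2) ≤
      ∫⁻ r in Ioo (1 : ℝ) 2, ‖-((3 / 2 : ℝ) • e₀) + r • e‖ₑ ^ (-(b + 1)) := by
    calc ENNReal.ofReal ((2 * δ) ^ (-(b + 1))) * ENNReal.ofReal (δ / 2)
        = ∫⁻ r in Ioo (3 / 2 - δ / 4) (3 / 2 + δ / 4),
            ENNReal.ofReal ((2 * δ) ^ (-(b + 1))) := by
          rw [setLIntegral_const, Real.volume_Ioo]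
          congr 2
          ring
      _ ≤ ∫⁻ r in Ioo (3 / 2 - δ / 4) (3 / 2 + δ / 4),
            ‖-((3 / 2 : ℝ) • e₀) + r • e‖ₑ ^ (-(b + 1)) :=
          setLIntegral_mono' measurableSet_Ioo h1
      _ ≤ _ := by
          apply lintegral_mono_set
          apply Ioo_subset_Ioo <;> linarith
  have h6 : ‖e - e₀‖ₑ ^ (-b) = ENNReal.ofReal (2 ^ (b + 2)) *
      (ENNReal.ofReal ((2 * δ) ^ (-(b + 1))) * ENNReal.ofReal (δ / 2)) := by
    rw [← ofReal_norm, ← hδ, ENNReal.ofReal_rpow_of_pos hδ0,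
      ← ENNReal.ofReal_mul (by positivity), ← ENNReal.ofReal_mul (by positivity)]
    congr 1
    rw [Real.mul_rpow (by norm_num) hδ0.le, Real.rpow_neg hδ0.le (b + 1), Real.rpow_add hδ0,
      Real.rpow_one, Real.rpow_neg hδ0.le b]
    have e2 : (2 : ℝ) ^ (b + 2) = 2 ^ (b + 1) * 2 := by
      rw [show b + 2 = (b + 1) + 1 by ring, Real.rpow_add (by norm_num), Real.rpow_one]
    rw [e2, Real.rpow_neg (by norm_num)]
    have h7 : (2 : ℝ) ^ (b + 1) ≠ 0 := by positivity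
    have h8 : δ ^ b ≠ 0 := by positivity
    field_simp
  rw [h6]
  gcongr

/-- ROW S: energy of the surface measure. -/
theorem sphere_energy (μ : Measure E) [μ.IsAddHaarMeasure] (b : ℝ) (hb0 : 0 < b)
    (hb : b < (finrank ℝ E : ℝ) - 1) :
    ∃ C : ℝ≥0∞, C ≠ ⊤ ∧ ∀ e₀ : sphere (0 : E) 1,
      ∫⁻ e : sphere (0 : E) 1, ‖(e : E) - e₀‖ₑ ^ (-b) ∂μ.toSphere ≤ C := by
  obtain ⟨C, hC, hK⟩ := Ker.ker_bound μ (b + 1) (by linarith) (by linarith)
  have hd : 2 ≤ finrank ℝ E := by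
    by_contra hcon
    have : (finrank ℝ E : ℝ) ≤ 1 := by
      have : finrank ℝ E ≤ 1 := by omega
      exact_mod_cast this
    linarith
  refine ⟨ENNReal.ofReal (2 ^ (b + 2)) * (C + μ (ball 0 2)), ENNReal.mul_ne_top
    ENNReal.ofReal_ne_top (ENNReal.add_ne_top.2 ⟨hC, measure_ball_lt_top.ne⟩), ?_⟩
  intro e₀
  set q : E := -((3 / 2 : ℝ) • (e₀ : E)) with hq
  set F : E → ℝ≥0∞ := fun x => ‖q + x‖ₑ ^ (-(b + 1)) with hF
  have hFm : Measurable F := (measurable_const.add measurable_id).enorm.pow_const _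
  set f : E → ℝ≥0∞ := (ball (0 : E) 2).indicator F with hf
  have hfm : Measurable f := hFm.indicator measurableSet_ball
  have he : ∀ e : sphere (0 : E) 1, ‖(e : E)‖ = 1 := fun e => by simp
  have h1 : ∀ e : sphere (0 : E) 1, ∫⁻ r in Ioo (1 : ℝ) 2, F (r • (e : E)) ≤
      ∫⁻ r : Ioi (0 : ℝ), f ((r : ℝ) • (e : E)) ∂(Measure.volumeIoiPow (finrank ℝ E - 1)) := by
    intro e
    refine le_trans ?_ (radial_le (finrank ℝ E - 1) (fun r : ℝ => f (r • (e : E)))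
      (hfm.comp (measurable_id.smul_const _)))
    apply setLIntegral_mono' measurableSet_Ioo
    intro r hr
    have h2 : r • (e : E) ∈ ball (0 : E) 2 := by
      rw [mem_ball_zero_iff, norm_smul, he e, Real.norm_eq_abs, abs_of_pos (by linarith [hr.1])]
      linarith [hr.2]
    simp only [hf]
    rw [indicator_of_mem h2]
  calc ∫⁻ e : sphere (0 : E) 1, ‖(e : E) - e₀‖ₑ ^ (-b) ∂μ.toSphere
      ≤ ∫⁻ e : sphere (0 : E) 1, ENNReal.ofReal (2 ^ (b + 2)) *
          ∫⁻ r : Ioi (0 : ℝ), f ((r : ℝ) • (e : E)) ∂(Measure.volumeIoiPow (finrank ℝ E - 1))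
          ∂μ.toSphere := by
        apply lintegral_mono_ae
        filter_upwards [ae_ne μ hd e₀] with e hne
        refine (pt_le b hb0 (e : E) (e₀ : E) (he e) (he e₀)
          (fun h => hne (Subtype.ext h))).trans ?_
        gcongr
        exact h1 e
    _ = ENNReal.ofReal (2 ^ (b + 2)) * ∫⁻ e : sphere (0 : E) 1,
          ∫⁻ r : Ioi (0 : ℝ), f ((r : ℝ) • (e : E)) ∂(Measure.volumeIoiPow (finrank ℝ E - 1))
          ∂μ.toSphere := by
        rw [lintegral_const_mul' _ _ ENNReal.ofReal_ne_top]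
    _ ≤ ENNReal.ofReal (2 ^ (b + 2)) * ∫⁻ x, f x ∂μ := by
        gcongr
        exact polar_le μ f hfm
    _ = ENNReal.ofReal (2 ^ (b + 2)) * ∫⁻ x in ball (0 : E) 2, F x ∂μ := by
        rw [hf, lintegral_indicator measurableSet_ball]
    _ ≤ ENNReal.ofReal (2 ^ (b + 2)) * (C + μ (ball 0 2)) := by
        gcongr
        exact hK q (ball 0 2)

end Vale.Agent.P127.Sph
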