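import Vale.Agent.P127.Col
import Vale.Agent.P127.Mass
import Vale.Agent.P127.Sph

open MeasureTheory Set Metric Module
open scoped NNReal ENNReal Topology

namespace Vale.Agent.P127.Gen

open Col

variable {k : ℕ}

/-- The sphere. -/
abbrev Sp (k : ℕ) : Type := sphere (0 : V k) 1

/-- The map `(e, t) ↦ a e + A e + t e`. -/
noncomputable def G (a : Sp k → V k) (θ : Fin (k + 1) → V k) (x : Sp k × ℝ) : V k :=
  a x.1 + lin θ (x.1 : V k) + x.2 • (x.1 : V k)

theorem lin_sub (θ : Fin (k + 1) → V k) (u v : V k) : lin θ u - lin θ v = lin θ (u - v) := by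
  unfold lin
  rw [← Finset.sum_sub_distrib]
  apply Finset.sum_congr rfl
  intro j _
  rw [← sub_smul]
  rfl

theorem measurable_lin2 : Measurable (fun p : (Fin (k + 1) → V k) × V k => lin p.1 p.2) := by
  unfold lin
  apply Finset.measurable_sum
  intro j _
  have h1 : Measurable (fun u : V k => u j) := by fun_prop
  have h2 : Measurable (fun p : (Fin (k + 1) → V k) × V k => p.2 j) := h1.comp measurable_snd
  have h3 : Measurable (fun p : (Fin (k + 1) → V k) × V k => p.1 j) :=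
    (measurable_pi_apply j).comp measurable_fst
  exact h2.smul h3

theorem measurable_G2 {a : Sp k → V k} (ha : Measurable a) :
    Measurable (fun p : (Fin (k + 1) → V k) × (Sp k × ℝ) => G a p.1 p.2) := by
  unfold G
  apply Measurable.add
  · apply Measurable.add
    · exact ha.comp (measurable_fst.comp measurable_snd)
    · exact measurable_lin2.comp (measurable_fst.prodMk
        (measurable_subtype_coe.comp (measurable_fst.comp measurable_snd)))
  · exact (measurable_snd.comp measurable_snd).smul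
      (measurable_subtype_coe.comp (measurable_fst.comp measurable_snd))

/-- The measure on parameters `(e, t)`. -/
noncomputable def mm (D : Set (Sp k)) : Measure (Sp k × ℝ) :=
  (((volume : Measure (V k)).toSphere).restrict D).prod ((volume : Measure ℝ).restrict (Icc 0 1))

instance (D : Set (Sp k)) : IsFiniteMeasure (mm D) := by
  unfold mm
  infer_instance

/-- The law of the columns. -/
noncomputable def LL (k : ℕ) (R : ℝ) : Measure (Fin (k + 1) → V k) :=
  Measure.pi fun _ : Fin (k + 1) => (volume : Measure (V k)).restrict (ball 0 R)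

instance (R : ℝ) : IsFiniteMeasure (LL k R) := by
  unfold LL
  have : IsFiniteMeasure ((volume : Measure (V k)).restrict (ball 0 R)) := ⟨by
    rw [Measure.restrict_apply_univ]; exact measure_ball_lt_top⟩
  infer_instance

/-- Tonelli for three variables. -/
theorem tri {T X : Type*} [MeasurableSpace T] [MeasurableSpace X] (L : Measure T) [SFinite L]
    (m : Measure X) [SFinite m] (f : T → X → X → ℝ≥0∞)
    (hf : Measurable (fun p : T × (X × X) => f p.1 p.2.1 p.2.2)) (c : ℝ≥0∞)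
    (h : ∀ y, ∫⁻ x, (∫⁻ θ, f θ x y ∂L) ∂m ≤ c) :
    ∫⁻ θ, (∫⁻ x, ∫⁻ y, f θ x y ∂m ∂m) ∂L ≤ c * m univ := by
  have h1 : ∫⁻ θ, (∫⁻ x, ∫⁻ y, f θ x y ∂m ∂m) ∂L =
      ∫⁻ z : X × X, (∫⁻ θ, f θ z.1 z.2 ∂L) ∂(m.prod m) := by
    rw [← lintegral_lintegral_swap (f := fun θ (z : X × X) => f θ z.1 z.2) hf.aemeasurable]
    apply lintegral_congr
    intro θ
    have hfθ : Measurable (fun z : X × X => f θ z.1 z.2) :=
      hf.comp (measurable_const.prodMk measurable_id)
    exact (lintegral_prod (fun z : X × X => f θ z.1 z.2) hfθ.aemeasurable).symm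
  have hF : Measurable (fun p : (X × X) × T => f p.2 p.1.1 p.1.2) :=
    hf.comp (measurable_snd.prodMk measurable_fst)
  have hg : Measurable (fun z : X × X => ∫⁻ θ, f θ z.1 z.2 ∂L) := hF.lintegral_prod_right'
  rw [h1, lintegral_prod_symm' _ hg]
  calc ∫⁻ y, ∫⁻ x, (∫⁻ θ, f θ x y ∂L) ∂m ∂m ≤ ∫⁻ _y, c ∂m := lintegral_mono h
    _ = c * m univ := by rw [lintegral_const]

theorem meas2 {T X : Type*} [MeasurableSpace T] [MeasurableSpace X] (L : Measure T) [SFinite L]
    (f : T → X → X → ℝ≥0∞)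
    (hf : Measurable (fun p : T × (X × X) => f p.1 p.2.1 p.2.2)) (y : X) :
    Measurable (fun x : X => ∫⁻ θ, f θ x y ∂L) := by
  have hF : Measurable (fun p : X × T => f p.2 p.1 y) :=
    hf.comp (measurable_snd.prodMk (measurable_fst.prodMk measurable_const))
  exact hF.lintegral_prod_right'

theorem meas3 {T X : Type*} [MeasurableSpace T] [MeasurableSpace X] (m : Measure X) [SFinite m]
    (f : T → X → X → ℝ≥0∞)
    (hf : Measurable (fun p : T × (X × X) => f p.1 p.2.1 p.2.2)) :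
    Measurable (fun θ : T => ∫⁻ x, ∫⁻ y, f θ x y ∂m ∂m) := by
  have hF : Measurable (fun p : (T × X) × X => f p.1.1 p.1.2 p.2) :=
    hf.comp ((measurable_fst.comp measurable_fst).prodMk
      ((measurable_snd.comp measurable_fst).prodMk measurable_snd))
  have h1 : Measurable (fun p : T × X => ∫⁻ y, f p.1 p.2 y ∂m) := hF.lintegral_prod_right'
  exact h1.lintegral_prod_right'

theorem meas_f {a : Sp k → V k} (ha : Measurable a) (s : ℝ) :
    Measurable (fun p : (Fin (k + 1) → V k) × ((Sp k × ℝ) × (Sp k × ℝ)) =>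
      ‖G a p.1 p.2.1 - G a p.1 p.2.2‖ₑ ^ (-s)) := by
  apply Measurable.pow_const
  apply Measurable.enorm
  have h1 : Measurable (fun p : (Fin (k + 1) → V k) × ((Sp k × ℝ) × (Sp k × ℝ)) =>
      G a p.1 p.2.1) :=
    (measurable_G2 ha).comp (measurable_fst.prodMk (measurable_fst.comp measurable_snd))
  have h2 : Measurable (fun p : (Fin (k + 1) → V k) × ((Sp k × ℝ) × (Sp k × ℝ)) =>
      G a p.1 p.2.2) :=
    (measurable_G2 ha).comp (measurable_fst.prodMk (measurable_snd.comp measurable_snd))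
  exact h1.sub h2

/-- The averaged energy is finite. -/
theorem energy (a : Sp k → V k) (ha : Measurable a) (D : Set (Sp k)) (al b : ℝ) (hal0 : 0 < al)
    (hal1 : al < 1) (hb0 : 0 < b) (hb : b < k) (R : ℝ) (hR : 0 < R) :
    ∫⁻ θ, (∫⁻ x, ∫⁻ y, ‖G a θ x - G a θ y‖ₑ ^ (-(al + b)) ∂(mm D) ∂(mm D)) ∂(LL k R) ≠ ⊤ := by
  obtain ⟨C, hC, hcol⟩ := col (k := k) al b hal0 hal1 hb0 (by linarith) R hR
  obtain ⟨C', hC', hsph⟩ := Sph.sphere_energy (volume : Measure (V k)) b hb0 (by simpa using hb)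
  have hf := meas_f ha (al + b)
  have h3 : ∀ y : Sp k × ℝ, ∫⁻ x, (∫⁻ θ, ‖G a θ x - G a θ y‖ₑ ^ (-(al + b)) ∂(LL k R)) ∂(mm D)
      ≤ C * C' := by
    intro y
    have hgy := meas2 (LL k R) (fun θ x y => ‖G a θ x - G a θ y‖ₑ ^ (-(al + b))) hf y
    have h4 : ∫⁻ x, (∫⁻ θ, ‖G a θ x - G a θ y‖ₑ ^ (-(al + b)) ∂(LL k R)) ∂(mm D) =
        ∫⁻ e in D, (∫⁻ t in Icc (0 : ℝ) 1, (∫⁻ θ, ‖G a θ (e, t) - G a θ y‖ₑ ^ (-(al + b))
          ∂(LL k R)) ∂volume) ∂((volume : Measure (V k)).toSphere) :=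
      lintegral_prod _ hgy.aemeasurable
    rw [h4]
    calc ∫⁻ e in D, (∫⁻ t in Icc (0 : ℝ) 1, (∫⁻ θ, ‖G a θ (e, t) - G a θ y‖ₑ ^ (-(al + b))
          ∂(LL k R)) ∂volume) ∂((volume : Measure (V k)).toSphere)
        ≤ ∫⁻ e in D, C * ‖(e : V k) - (y.1 : V k)‖ₑ ^ (-b) ∂((volume : Measure (V k)).toSphere) := by
          apply lintegral_mono
          intro e
          have h5 := hcol (a e - a y.1 - y.2 • (y.1 : V k)) (e : V k) ((e : V k) - (y.1 : V k))
            (norm_eq_of_mem_sphere e)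
          refine le_trans (le_of_eq ?_) h5
          apply lintegral_congr
          intro t
          apply lintegral_congr
          intro θ
          have h6 : G a θ (e, t) - G a θ y = a e - a y.1 - y.2 • (y.1 : V k) + t • (e : V k) +
              lin θ ((e : V k) - (y.1 : V k)) := by
            rw [← lin_sub]
            unfold G
            abel
          rw [h6]
      _ ≤ ∫⁻ e, C * ‖(e : V k) - (y.1 : V k)‖ₑ ^ (-b) ∂((volume : Measure (V k)).toSphere) :=
          lintegral_mono' Measure.restrict_le_self le_rfl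
      _ = C * ∫⁻ e, ‖(e : V k) - (y.1 : V k)‖ₑ ^ (-b) ∂((volume : Measure (V k)).toSphere) := by
          rw [lintegral_const_mul' _ _ hC]
      _ ≤ C * C' := by
          gcongr
          exact hsph y.1
  have h7 := tri (LL k R) (mm D) (fun θ x y => ‖G a θ x - G a θ y‖ₑ ^ (-(al + b))) hf (C * C') h3
  exact ne_top_of_le_ne_top (ENNReal.mul_ne_top (ENNReal.mul_ne_top hC hC')
    (measure_ne_top _ _)) h7

/-- For almost every matrix the dimension is at least `s`. -/
theorem ae_dim_ge (a : Sp k → V k) (ha : Measurable a) (D : Set (Sp k)) (hD : MeasurableSet D)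
    (hD0 : (volume : Measure (V k)).toSphere D ≠ 0) (al b : ℝ) (hal0 : 0 < al)
    (hal1 : al < 1) (hb0 : 0 < b) (hb : b < k) :
    ∀ᵐ θ : Fin (k + 1) → V k ∂volume,
      ENNReal.ofReal (al + b) ≤ dimH (G a θ '' (D ×ˢ Icc (0 : ℝ) 1)) := by
  have hmY : (mm D) (D ×ˢ Icc (0 : ℝ) 1)ᶜ = 0 := by
    unfold mm
    rw [Measure.prod_restrict, Measure.restrict_apply (hD.prod measurableSet_Icc).compl,
      compl_inter_self, measure_empty]
  have hm0 : mm D ≠ 0 := by
    intro h0
    have h1 : (mm D) univ = 0 := by rw [h0]; rfl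
    unfold mm at h1
    rw [← univ_prod_univ, Measure.prod_prod, mul_eq_zero] at h1
    rcases h1 with h1 | h1
    · rw [Measure.restrict_apply_univ] at h1
      exact hD0 h1
    · rw [Measure.restrict_apply_univ] at h1
      simp at h1
  have key : ∀ R : ℕ, ∀ᵐ θ : Fin (k + 1) → V k ∂volume,
      θ ∈ Set.pi univ (fun _ : Fin (k + 1) => ball (0 : V k) ((R : ℝ) + 1)) →
      ENNReal.ofReal (al + b) ≤ dimH (G a θ '' (D ×ˢ Icc (0 : ℝ) 1)) := by
    intro R
    have h1 := energy a ha D al b hal0 hal1 hb0 hb ((R : ℝ) + 1) (by positivity)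
    have hmeasG : ∀ θ, Measurable (G a θ) := fun θ =>
      (measurable_G2 ha).comp (measurable_const.prodMk measurable_id)
    have hmeas : Measurable (fun θ : Fin (k + 1) → V k =>
        ∫⁻ x, ∫⁻ y, ‖G a θ x - G a θ y‖ₑ ^ (-(al + b)) ∂(mm D) ∂(mm D)) :=
      meas3 (mm D) (fun θ x y => ‖G a θ x - G a θ y‖ₑ ^ (-(al + b))) (meas_f ha (al + b))
    have h2 := ae_lt_top hmeas h1
    have h3 : LL k ((R : ℝ) + 1) = (volume : Measure (Fin (k + 1) → V k)).restrict
        (Set.pi univ (fun _ : Fin (k + 1) => ball (0 : V k) ((R : ℝ) + 1))) := by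
      unfold LL
      rw [volume_pi, Measure.restrict_pi_pi]
    rw [h3, ae_restrict_iff' (MeasurableSet.univ_pi fun _ => measurableSet_ball)] at h2
    filter_upwards [h2] with θ hθ hmem
    exact Mass.dim_of_energy (mm D) hm0 (G a θ) (hmeasG θ) (al + b) (by linarith)
      (hθ hmem).ne _ hmY
  filter_upwards [ae_all_iff.2 key] with θ hθ
  obtain ⟨R, hR⟩ := exists_nat_gt (∑ j, ‖θ j‖)
  apply hθ R
  intro j _
  rw [mem_ball_zero_iff]
  have h4 : ‖θ j‖ ≤ ∑ j, ‖θ j‖ :=
    Finset.single_le_sum (f := fun j => ‖θ j‖) (fun i _ => norm_nonneg _) (Finset.mem_univ j)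
  linarith

/-- For almost every matrix the dimension is full. -/
theorem ae_dim (hk : 1 ≤ k) (a : Sp k → V k) (ha : Measurable a) (D : Set (Sp k))
    (hD : MeasurableSet D) (hD0 : (volume : Measure (V k)).toSphere D ≠ 0) :
    ∀ᵐ θ : Fin (k + 1) → V k ∂volume,
      dimH (G a θ '' (D ×ˢ Icc (0 : ℝ) 1)) = ((k + 1 : ℕ) : ℝ≥0∞) := by
  have hk' : (0 : ℝ) < k := by exact_mod_cast hk
  have key : ∀ i : ℕ, ∀ᵐ θ : Fin (k + 1) → V k ∂volume,
      ENNReal.ofReal (((k : ℝ) + 1) * (1 - 1 / ((i : ℝ) + 2))) ≤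
        dimH (G a θ '' (D ×ˢ Icc (0 : ℝ) 1)) := by
    intro i
    have hc0 : (0 : ℝ) < 1 - 1 / ((i : ℝ) + 2) := by
      have : (1 : ℝ) / ((i : ℝ) + 2) < 1 := by
        rw [div_lt_one (by positivity)]
        have : (0 : ℝ) ≤ i := Nat.cast_nonneg i
        linarith
      linarith
    have hc1 : 1 - 1 / ((i : ℝ) + 2) < (1 : ℝ) := by
      have : (0 : ℝ) < 1 / ((i : ℝ) + 2) := by positivity
      linarith
    have h1 := ae_dim_ge a ha D hD hD0 (1 - 1 / ((i : ℝ) + 2)) ((k : ℝ) * (1 - 1 / ((i : ℝ) + 2)))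
      hc0 hc1 (by positivity) (by nlinarith)
    filter_upwards [h1] with θ hθ
    refine le_trans (le_of_eq ?_) hθ
    congr 1; ring
  filter_upwards [ae_all_iff.2 key] with θ hθ
  apply le_antisymm
  · calc dimH (G a θ '' (D ×ˢ Icc (0 : ℝ) 1)) ≤ dimH (univ : Set (V k)) := dimH_mono (subset_univ _)
      _ = (finrank ℝ (V k) : ℝ≥0∞) := Real.dimH_univ_eq_finrank (V k)
      _ = ((k + 1 : ℕ) : ℝ≥0∞) := by simp
  · have hlim : Filter.Tendsto (fun i : ℕ => ENNReal.ofReal (((k : ℝ) + 1) *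
        (1 - 1 / ((i : ℝ) + 2)))) Filter.atTop (𝓝 (ENNReal.ofReal (((k : ℝ) + 1) * (1 - 0)))) := by
      apply ENNReal.tendsto_ofReal
      apply Filter.Tendsto.const_mul
      apply Filter.Tendsto.const_sub
      have h1 : Filter.Tendsto (fun i : ℕ => (i : ℝ) + 2) Filter.atTop Filter.atTop :=
        Filter.tendsto_atTop_add_const_right _ _ tendsto_natCast_atTop_atTop
      exact Filter.Tendsto.div_atTop tendsto_const_nhds h1
    have h2 := le_of_tendsto' hlim hθ
    refine le_trans (le_of_eq ?_) h2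
    rw [sub_zero, mul_one]
    have : ((k : ℝ) + 1) = ((k + 1 : ℕ) : ℝ) := by push_cast; ring
    rw [this, ENNReal.ofReal_natCast]

end Vale.Agent.P127.Gen
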