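import Vale.Agent.P127.Mass

open MeasureTheory Set Metric Module
open scoped NNReal ENNReal Topology

namespace Vale.Agent.P127.Mass2

variable {E : Type*} [NormedAddCommGroup E] [InnerProductSpace ℝ E] [FiniteDimensional ℝ E]
  [MeasurableSpace E] [BorelSpace E]

/-- A set of dimension below `s` is invisible to a map of finite `s`-energy. -/
theorem null_of_energy {X : Type*} [MeasurableSpace X] (m : Measure X) [IsFiniteMeasure m]
    (G : X → E) (hG : Measurable G) (s : ℝ) (hs : 0 < s)
    (hen : ∫⁻ x, ∫⁻ y, ‖G x - G y‖ₑ ^ (-s) ∂m ∂m ≠ ⊤) (K : Set E)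
    (hK : dimH K < ENNReal.ofReal s) : m (G ⁻¹' K) = 0 := by
  by_contra hcon
  obtain ⟨d, hd1, hd2⟩ := ENNReal.lt_iff_exists_nnreal_btwn.1 hK
  have h0 : (μH[d] : Measure E) K = 0 := hausdorffMeasure_of_dimH_lt hd1
  set K' : Set E := toMeasurable (μH[d] : Measure E) K with hK'
  have hK'm : MeasurableSet K' := measurableSet_toMeasurable _ _
  have hKK' : K ⊆ K' := subset_toMeasurable _ _
  have h1 : (μH[d] : Measure E) K' = 0 := by rw [hK', measure_toMeasurable, h0]
  have h2 : dimH K' ≤ d := dimH_le_of_hausdorffMeasure_ne_top (by rw [h1]; exact ENNReal.zero_ne_top)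
  set Y : Set X := G ⁻¹' K' with hY
  have hYm : MeasurableSet Y := hG hK'm
  have hmY : m Y ≠ 0 := by
    intro h
    exact hcon (measure_mono_null (preimage_mono hKK') h)
  have h3 : ENNReal.ofReal s ≤ dimH (G '' Y) := by
    apply Mass.dim_of_energy (m.restrict Y) _ G hG s hs _ Y _
    · intro h
      apply hmY
      rw [← Measure.restrict_apply_univ, h]
      rfl
    · apply ne_top_of_le_ne_top hen
      exact lintegral_mono' Measure.restrict_le_self
        (fun x => lintegral_mono' Measure.restrict_le_self le_rfl)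
    · rw [Measure.restrict_apply hYm.compl, compl_inter_self, measure_empty]
  have h4 : dimH (G '' Y) ≤ dimH K' := dimH_mono (image_preimage_subset G K')
  exact absurd (h3.trans (h4.trans h2)) (not_le.2 hd2)

end Vale.Agent.P127.Mass2
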