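import Vale.Agent.P127.Gen
import Vale.Agent.P127.Mass2

open MeasureTheory Set Metric Module
open scoped NNReal ENNReal Topology

namespace Vale.Agent.P127.Gen2

open Col Gen

variable {k : ℕ}

/-- For almost every matrix the energy is finite. -/
theorem ae_energy (a : Sp k → V k) (ha : Measurable a) (al b : ℝ) (hal0 : 0 < al)
    (hal1 : al < 1) (hb0 : 0 < b) (hb : b < k) :
    ∀ᵐ θ : Fin (k + 1) → V k ∂volume,
      ∫⁻ x, ∫⁻ y, ‖G a θ x - G a θ y‖ₑ ^ (-(al + b)) ∂(mm univ) ∂(mm univ) ≠ ⊤ := by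
  have key : ∀ R : ℕ, ∀ᵐ θ : Fin (k + 1) → V k ∂volume,
      θ ∈ Set.pi univ (fun _ : Fin (k + 1) => ball (0 : V k) ((R : ℝ) + 1)) →
      ∫⁻ x, ∫⁻ y, ‖G a θ x - G a θ y‖ₑ ^ (-(al + b)) ∂(mm univ) ∂(mm univ) ≠ ⊤ := by
    intro R
    have h1 := energy a ha univ al b hal0 hal1 hb0 hb ((R : ℝ) + 1) (by positivity)
    have hmeas : Measurable (fun θ : Fin (k + 1) → V k =>
        ∫⁻ x, ∫⁻ y, ‖G a θ x - G a θ y‖ₑ ^ (-(al + b)) ∂(mm univ) ∂(mm univ)) :=
      meas3 (mm univ) (fun θ x y => ‖G a θ x - G a θ y‖ₑ ^ (-(al + b))) (meas_f ha (al + b))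
    have h2 := ae_lt_top hmeas h1
    have h3 : LL k ((R : ℝ) + 1) = (volume : Measure (Fin (k + 1) → V k)).restrict
        (Set.pi univ (fun _ : Fin (k + 1) => ball (0 : V k) ((R : ℝ) + 1))) := by
      unfold LL
      rw [volume_pi, Measure.restrict_pi_pi]
    rw [h3, ae_restrict_iff' (MeasurableSet.univ_pi fun _ => measurableSet_ball)] at h2
    filter_upwards [h2] with θ hθ hmem
    exact (hθ hmem).ne
  filter_upwards [ae_all_iff.2 key] with θ hθ
  obtain ⟨R, hR⟩ := exists_nat_gt (∑ j, ‖θ j‖)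
  apply hθ R
  intro j _
  rw [mem_ball_zero_iff]
  have h4 : ‖θ j‖ ≤ ∑ j, ‖θ j‖ :=
    Finset.single_le_sum (f := fun j => ‖θ j‖) (fun i _ => norm_nonneg _) (Finset.mem_univ j)
  linarith

/-- For almost every matrix, every set of dimension less than `k + 1` meets almost every unit
segment in a null set. -/
theorem ae_null01 (hk : 1 ≤ k) (a : Sp k → V k) (ha : Measurable a) :
    ∀ᵐ θ : Fin (k + 1) → V k ∂volume, ∀ K : Set (V k), dimH K < ((k + 1 : ℕ) : ℝ≥0∞) →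
      ∀ᵐ e : Sp k ∂(volume : Measure (V k)).toSphere,
        (volume : Measure ℝ) ({t : ℝ | a e + lin θ (e : V k) + t • (e : V k) ∈ K} ∩ Icc 0 1)
          = 0 := by
  have hk' : (0 : ℝ) < k := by exact_mod_cast hk
  have hc0 : ∀ i : ℕ, (0 : ℝ) < 1 - 1 / ((i : ℝ) + 2) := by
    intro i
    have : (1 : ℝ) / ((i : ℝ) + 2) < 1 := by
      rw [div_lt_one (by positivity)]
      have : (0 : ℝ) ≤ i := Nat.cast_nonneg i
      linarith
    linarith
  have key : ∀ i : ℕ, ∀ᵐ θ : Fin (k + 1) → V k ∂volume,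
      ∫⁻ x, ∫⁻ y, ‖G a θ x - G a θ y‖ₑ ^ (-(((1 - 1 / ((i : ℝ) + 2))) +
        ((k : ℝ) * (1 - 1 / ((i : ℝ) + 2))))) ∂(mm univ) ∂(mm univ) ≠ ⊤ := by
    intro i
    have hc1 : 1 - 1 / ((i : ℝ) + 2) < (1 : ℝ) := by
      have : (0 : ℝ) < 1 / ((i : ℝ) + 2) := by positivity
      linarith
    have := hc0 i
    exact ae_energy a ha (1 - 1 / ((i : ℝ) + 2)) ((k : ℝ) * (1 - 1 / ((i : ℝ) + 2)))
      (hc0 i) hc1 (by positivity) (by nlinarith)
  filter_upwards [ae_all_iff.2 key] with θ hθ K hK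
  have hlim : Filter.Tendsto (fun i : ℕ => ENNReal.ofReal (((1 - 1 / ((i : ℝ) + 2))) +
        ((k : ℝ) * (1 - 1 / ((i : ℝ) + 2))))) Filter.atTop
        (𝓝 (ENNReal.ofReal ((1 - 0) + (k : ℝ) * (1 - 0)))) := by
    apply ENNReal.tendsto_ofReal
    have h1 : Filter.Tendsto (fun i : ℕ => (i : ℝ) + 2) Filter.atTop Filter.atTop :=
      Filter.tendsto_atTop_add_const_right _ _ tendsto_natCast_atTop_atTop
    have h2 : Filter.Tendsto (fun i : ℕ => 1 - 1 / ((i : ℝ) + 2)) Filter.atTop (𝓝 (1 - 0)) :=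
      (Filter.Tendsto.div_atTop tendsto_const_nhds h1).const_sub 1
    exact h2.add (h2.const_mul (k : ℝ))
  have hval : ENNReal.ofReal ((1 - 0) + (k : ℝ) * (1 - 0)) = ((k + 1 : ℕ) : ℝ≥0∞) := by
    have : ((1 : ℝ) - 0) + (k : ℝ) * (1 - 0) = ((k + 1 : ℕ) : ℝ) := by push_cast; ring
    rw [this, ENNReal.ofReal_natCast]
  rw [hval] at hlim
  obtain ⟨i, hi⟩ := (hlim.eventually (lt_mem_nhds hK)).exists
  have hmeasG : Measurable (G a θ) :=
    (measurable_G2 ha).comp (measurable_const.prodMk measurable_id)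
  have h5 : (mm univ) (G a θ ⁻¹' K) = 0 := by
    apply Mass2.null_of_energy (mm univ) (G a θ) hmeasG _ _ (hθ i) K hi
    have := hc0 i
    positivity
  have h6 := Measure.measure_ae_null_of_prod_null h5
  rw [Measure.restrict_univ] at h6
  filter_upwards [h6] with e he
  have h7 : ((volume : Measure ℝ).restrict (Icc 0 1)) (Prod.mk e ⁻¹' (G a θ ⁻¹' K)) = 0 := he
  rw [Measure.restrict_apply' measurableSet_Icc] at h7
  exact h7

/-- For almost every matrix, every set of dimension less than `k + 1` meets almost every line in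
a null set. -/
theorem ae_null (hk : 1 ≤ k) (a : Sp k → V k) (ha : Measurable a) :
    ∀ᵐ θ : Fin (k + 1) → V k ∂volume, ∀ K : Set (V k), dimH K < ((k + 1 : ℕ) : ℝ≥0∞) →
      ∀ᵐ e : Sp k ∂(volume : Measure (V k)).toSphere,
        (volume : Measure ℝ) {t : ℝ | a e + lin θ (e : V k) + t • (e : V k) ∈ K} = 0 := by
  have key : ∀ j : ℤ, ∀ᵐ θ : Fin (k + 1) → V k ∂volume, ∀ K : Set (V k),
      dimH K < ((k + 1 : ℕ) : ℝ≥0∞) →
      ∀ᵐ e : Sp k ∂(volume : Measure (V k)).toSphere,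
        (volume : Measure ℝ) ({t : ℝ | (a e + (j : ℝ) • (e : V k)) + lin θ (e : V k) +
          t • (e : V k) ∈ K} ∩ Icc 0 1) = 0 := by
    intro j
    exact ae_null01 hk (fun e => a e + (j : ℝ) • (e : V k))
      (ha.add (measurable_subtype_coe.const_smul (j : ℝ)))
  filter_upwards [ae_all_iff.2 key] with θ hθ K hK
  have h1 : ∀ j : ℤ, ∀ᵐ e : Sp k ∂(volume : Measure (V k)).toSphere,
        (volume : Measure ℝ) ({t : ℝ | (a e + (j : ℝ) • (e : V k)) + lin θ (e : V k) +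
          t • (e : V k) ∈ K} ∩ Icc 0 1) = 0 := fun j => hθ j K hK
  filter_upwards [ae_all_iff.2 h1] with e he
  have hsub : {t : ℝ | a e + lin θ (e : V k) + t • (e : V k) ∈ K} ⊆
      ⋃ j : ℤ, (fun t : ℝ => t + (-(j : ℝ))) ⁻¹' ({t : ℝ | (a e + (j : ℝ) • (e : V k)) +
        lin θ (e : V k) + t • (e : V k) ∈ K} ∩ Icc 0 1) := by
    intro t ht
    refine mem_iUnion.2 ⟨⌊t⌋, ?_, ?_, ?_⟩
    · show (a e + ((⌊t⌋ : ℤ) : ℝ) • (e : V k)) + lin θ (e : V k) +
        (t + (-((⌊t⌋ : ℤ) : ℝ))) • (e : V k) ∈ K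
      have : (a e + ((⌊t⌋ : ℤ) : ℝ) • (e : V k)) + lin θ (e : V k) +
        (t + (-((⌊t⌋ : ℤ) : ℝ))) • (e : V k) = a e + lin θ (e : V k) + t • (e : V k) := by
        rw [add_smul, neg_smul]; abel
      rw [this]
      exact ht
    · show 0 ≤ t + (-((⌊t⌋ : ℤ) : ℝ))
      have := Int.floor_le t
      linarith
    · show t + (-((⌊t⌋ : ℤ) : ℝ)) ≤ 1
      have := Int.lt_floor_add_one t
      linarith
  refine measure_mono_null hsub (measure_iUnion_null fun j => ?_)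
  rw [measure_preimage_add_right]
  exact he j

end Vale.Agent.P127.Gen2
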