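import Vale.Agent.P127.Schur

open MeasureTheory Set Metric Module
open scoped NNReal ENNReal Topology

namespace Vale.Agent.P127.Good

/-- A good set for countably many integrable functions. -/
theorem good_set {S' : Type*} [MeasurableSpace S'] (σ : Measure S') [IsFiniteMeasure σ]
    (Φ : ℕ → S' → ℝ≥0∞) (hΦ : ∀ i, Measurable (Φ i)) (hI : ∀ i, ∫⁻ e, Φ i e ∂σ ≠ ⊤)
    (η : ℝ≥0∞) (hη : η ≠ 0) :
    ∃ D : Set S', MeasurableSet D ∧ σ Dᶜ ≤ η ∧ ∃ M : ℕ → ℝ≥0∞, (∀ i, M i ≠ ⊤) ∧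
      ∀ i, ∀ e ∈ D, Φ i e ≤ M i := by
  obtain ⟨c, hc0, hcs⟩ := ENNReal.exists_pos_sum_of_countable' hη ℕ
  have h1 : ∀ i, ∃ M : ℝ≥0∞, M ≠ ⊤ ∧ σ {e | M < Φ i e} ≤ c i := by
    intro i
    by_cases hct : c i = ⊤
    · exact ⟨0, ENNReal.zero_ne_top, by rw [hct]; exact le_top⟩
    refine ⟨(∫⁻ e, Φ i e ∂σ) / c i, ENNReal.div_ne_top (hI i) (hc0 i).ne', ?_⟩
    by_cases hz : (∫⁻ e, Φ i e ∂σ) = 0
    · have h2 := (lintegral_eq_zero_iff (hΦ i)).1 hz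
      have h3 : σ {e | (∫⁻ e, Φ i e ∂σ) / c i < Φ i e} = 0 := by
        refine measure_mono_null ?_ h2
        intro e he h4
        have h5 : Φ i e = 0 := h4
        have h6 : (∫⁻ e, Φ i e ∂σ) / c i < Φ i e := he
        rw [h5] at h6
        exact absurd h6 not_lt_zero'
      rw [h3]; exact zero_le
    · have hne : (∫⁻ e, Φ i e ∂σ) / c i ≠ 0 := ENNReal.div_ne_zero.2 ⟨hz, hct⟩
      have h2 := meas_ge_le_lintegral_div (μ := σ) (hΦ i).aemeasurable hne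
        (ENNReal.div_ne_top (hI i) (hc0 i).ne')
      have hsub : {e | (∫⁻ e, Φ i e ∂σ) / c i < Φ i e} ⊆ {e | (∫⁻ e, Φ i e ∂σ) / c i ≤ Φ i e} :=
        fun e he => (show (∫⁻ e, Φ i e ∂σ) / c i < Φ i e from he).le
      refine (measure_mono hsub).trans (h2.trans (le_of_eq ?_))
      rw [ENNReal.div_div_cancel hz (hI i)]
  choose M hMt hM using h1
  refine ⟨⋂ i, {e | Φ i e ≤ M i}, MeasurableSet.iInter fun i =>
    measurableSet_le (hΦ i) measurable_const, ?_, M, hMt, ?_⟩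
  · rw [compl_iInter]
    calc σ (⋃ i, {e | Φ i e ≤ M i}ᶜ) ≤ ∑' i, σ ({e | Φ i e ≤ M i}ᶜ) := measure_iUnion_le _
      _ ≤ ∑' i, c i := by
          apply ENNReal.tsum_le_tsum
          intro i
          refine (measure_mono ?_).trans (hM i)
          intro e he
          have he' : ¬ (Φ i e ≤ M i) := he
          exact not_le.1 he'
      _ ≤ η := hcs.le
  · intro i e he
    exact mem_iInter.1 he i

open Col Gen

variable {k : ℕ}

theorem powers2 (n : ℕ) (s eps : ℝ) (hse : -eps ≤ s - n) (δ : ℝ) (hδ : 0 < δ)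
    (hδ2 : δ ≤ 1 / 2) (c B M F : ℝ≥0∞) (hc : c ≠ 0) :
    ((c * ENNReal.ofReal δ ^ n)⁻¹) ^ (2 : ℕ) * (F * ((ENNReal.ofReal ((2 * δ) ^ n) * B) *
      (ENNReal.ofReal (4 * δ) ^ s * M))) ≤
      ((c⁻¹ ^ (2 : ℕ)) * (ENNReal.ofReal (2 ^ n) * B * (ENNReal.ofReal 4 ^ s * M))) *
        ENNReal.ofReal δ ^ (-eps) * F := by
  set D : ℝ≥0∞ := ENNReal.ofReal δ with hD
  have hD0 : D ≠ 0 := by rw [hD, Ne, ENNReal.ofReal_eq_zero]; linarith
  have hDt : D ≠ ⊤ := ENNReal.ofReal_ne_top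
  have hD1 : D ≤ 1 := by
    rw [hD, ← ENNReal.ofReal_one]; exact ENNReal.ofReal_le_ofReal (by linarith)
  have h1 : ENNReal.ofReal ((2 * δ) ^ n) = ENNReal.ofReal (2 ^ n) * D ^ (n : ℝ) := by
    rw [mul_pow, ENNReal.ofReal_mul (by positivity), ENNReal.ofReal_pow hδ.le,
      ENNReal.rpow_natCast]
  have h2 : ENNReal.ofReal (4 * δ) ^ s = ENNReal.ofReal 4 ^ s * D ^ s := by
    rw [ENNReal.ofReal_mul (by norm_num), ENNReal.mul_rpow_of_ne_top ENNReal.ofReal_ne_top hDt]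
  have h3 : (c * D ^ n)⁻¹ = c⁻¹ * D ^ (-(n : ℝ)) := by
    rw [ENNReal.mul_inv (Or.inl hc) (Or.inr (pow_ne_zero _ hD0)), ENNReal.rpow_neg,
      ENNReal.rpow_natCast]
  rw [h1, h2, h3]
  calc (c⁻¹ * D ^ (-(n : ℝ))) ^ (2 : ℕ) * (F * ((ENNReal.ofReal (2 ^ n) * D ^ (n : ℝ) * B) *
        (ENNReal.ofReal 4 ^ s * D ^ s * M)))
      = ((c⁻¹ ^ (2 : ℕ)) * (ENNReal.ofReal (2 ^ n) * B * (ENNReal.ofReal 4 ^ s * M))) *
        (D ^ (-(n : ℝ)) * (D ^ (-(n : ℝ)) * (D ^ (n : ℝ) * D ^ s))) * F := by ring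
    _ = ((c⁻¹ ^ (2 : ℕ)) * (ENNReal.ofReal (2 ^ n) * B * (ENNReal.ofReal 4 ^ s * M))) *
        D ^ (s - n) * F := by
        rw [← ENNReal.rpow_add _ _ hD0 hDt, ← ENNReal.rpow_add _ _ hD0 hDt,
          ← ENNReal.rpow_add _ _ hD0 hDt]
        congr 3; ring
    _ ≤ _ := mul_le_mul' (mul_le_mul' le_rfl
        (ENNReal.rpow_le_rpow_of_exponent_ge hD1 hse)) le_rfl

/-- The maximal bound `L² → L²` outside a set of directions of small measure. -/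
theorem ae_max2 (hk : 1 ≤ k) (a : Sp k → V k) (ha : Measurable a) :
    ∀ᵐ θ : Fin (k + 1) → V k ∂volume, ∀ η : ℝ≥0∞, η ≠ 0 → ∃ D : Set (Sp k),
      MeasurableSet D ∧ (volume : Measure (V k)).toSphere Dᶜ ≤ η ∧
      ∀ eps : ℝ, 0 < eps → ∃ C : ℝ≥0∞, C ≠ ⊤ ∧
      ∀ δ : ℝ, 0 < δ → δ ≤ 1 / 2 → ∀ f : V k → ℝ≥0∞, Measurable f →
        ∫⁻ e in D, ((volume (Tube.tube (a e + lin θ (e : V k)) (e : V k) δ))⁻¹ *
          ∫⁻ y in Tube.tube (a e + lin θ (e : V k)) (e : V k) δ, f y) ^ (2 : ℕ)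
            ∂((volume : Measure (V k)).toSphere) ≤
          C * ENNReal.ofReal δ ^ (-eps) * (∫⁻ y, f y ^ (2 : ℝ)) := by
  have hk' : (0 : ℝ) < k := by exact_mod_cast hk
  have hc0 : ∀ i : ℕ, (0 : ℝ) < 1 - 1 / ((i : ℝ) + 2) := by
    intro i
    have : (1 : ℝ) / ((i : ℝ) + 2) < 1 := by
      rw [div_lt_one (by positivity)]
      have : (0 : ℝ) ≤ i := Nat.cast_nonneg i
      linarith
    linarith
  obtain ⟨a', haa, ha'm⟩ : ∃ a' : Sp k → V k, (∀ e, a' e = a e - (1 / 2 : ℝ) • (e : V k)) ∧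
      Measurable a' :=
    ⟨fun e : Sp k => a e - (1 / 2 : ℝ) • (e : V k), fun _ => rfl,
      ha.sub (measurable_subtype_coe.const_smul (1 / 2 : ℝ))⟩
  have key : ∀ i : ℕ, ∀ᵐ θ : Fin (k + 1) → V k ∂volume,
      ∫⁻ x, ∫⁻ y, ‖G a' θ x - G a' θ y‖ₑ ^ (-(((1 - 1 / ((i : ℝ) + 2))) +
        ((k : ℝ) * (1 - 1 / ((i : ℝ) + 2))))) ∂(mm univ) ∂(mm univ) ≠ ⊤ := by
    intro i
    have hc1 : 1 - 1 / ((i : ℝ) + 2) < (1 : ℝ) := by
      have : (0 : ℝ) < 1 / ((i : ℝ) + 2) := by positivity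
      linarith
    have := hc0 i
    exact Gen2.ae_energy a' ha'm (1 - 1 / ((i : ℝ) + 2)) ((k : ℝ) * (1 - 1 / ((i : ℝ) + 2)))
      (hc0 i) hc1 (by positivity) (by nlinarith)
  obtain ⟨c, hc, hvol⟩ := Tube.vol_tube (volume : Measure (V k))
  have hfr : finrank ℝ (V k) = k + 1 := by simp
  rw [hfr] at hvol
  filter_upwards [ae_all_iff.2 key] with θ hθ η hη
  have hHm := Max.meas_G a' ha'm θ
  have hcen := Max.center_eq a a' haa θ
  generalize G a' θ = H at hθ hHm hcen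
  have hq : ∀ s : ℝ, Measurable (fun p : (Sp k × ℝ) × (Sp k × ℝ) => ‖H p.1 - H p.2‖ₑ ^ (-s)) :=
    fun s => ((hHm.comp measurable_fst).sub (hHm.comp measurable_snd)).enorm.pow_const _
  have hphi : ∀ s : ℝ, Measurable (fun x => ∫⁻ y, ‖H x - H y‖ₑ ^ (-s) ∂(mm univ)) :=
    fun s => (hq s).lintegral_prod_right'
  obtain ⟨D, hD, hDη, M, hMt, hM⟩ := good_set (((volume : Measure (V k)).toSphere).restrict univ)
    (fun i e => ∫⁻ t in Icc (0 : ℝ) 1, (∫⁻ y, ‖H (e, t) - H y‖ₑ ^ (-(((1 - 1 / ((i : ℝ) + 2))) +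
        ((k : ℝ) * (1 - 1 / ((i : ℝ) + 2))))) ∂(mm univ)))
    (fun i => (hphi _).lintegral_prod_right' (ν := (volume : Measure ℝ).restrict (Icc 0 1)))
    (fun i => by
      have h1 := hθ i
      have h2 : ∫⁻ x, (∫⁻ y, ‖H x - H y‖ₑ ^ (-(((1 - 1 / ((i : ℝ) + 2))) +
          ((k : ℝ) * (1 - 1 / ((i : ℝ) + 2))))) ∂(mm univ)) ∂(mm univ) =
          ∫⁻ e, (∫⁻ t in Icc (0 : ℝ) 1, (∫⁻ y, ‖H (e, t) - H y‖ₑ ^ (-(((1 - 1 / ((i : ℝ) + 2))) +
          ((k : ℝ) * (1 - 1 / ((i : ℝ) + 2))))) ∂(mm univ)))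
            ∂(((volume : Measure (V k)).toSphere).restrict univ) :=
        lintegral_prod _ (hphi _).aemeasurable
      rw [h2] at h1
      exact h1) η hη
  rw [Measure.restrict_univ] at hDη
  refine ⟨D, hD, hDη, ?_⟩
  intro eps heps
  obtain ⟨i, hi⟩ := exists_nat_gt (((k : ℝ) + 1) / eps)
  set s : ℝ := ((1 - 1 / ((i : ℝ) + 2))) + ((k : ℝ) * (1 - 1 / ((i : ℝ) + 2))) with hs
  have hs0 : 0 < s := by
    have := hc0 i
    positivity
  have hse : -eps ≤ s - ((k + 1 : ℕ) : ℝ) := by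
    have h1 : s - ((k + 1 : ℕ) : ℝ) = -(((k : ℝ) + 1) / ((i : ℝ) + 2)) := by
      rw [hs]; push_cast; ring
    rw [h1]
    have h2 : ((k : ℝ) + 1) / ((i : ℝ) + 2) ≤ eps := by
      rw [div_le_iff₀ (by positivity)]
      rw [div_lt_iff₀ (by positivity)] at hi
      nlinarith
    linarith
  set B : ℝ≥0∞ := volume (ball (0 : V k) 1) with hB
  have hBt : B ≠ ⊤ := measure_ball_lt_top.ne
  refine ⟨(c⁻¹ ^ (2 : ℕ)) * (ENNReal.ofReal (2 ^ (k + 1)) * B * (ENNReal.ofReal 4 ^ s * M i)) + 1,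
    ?_, ?_⟩
  · apply ENNReal.add_ne_top.2 ⟨?_, ENNReal.one_ne_top⟩
    apply ENNReal.mul_ne_top (ENNReal.pow_ne_top (ENNReal.inv_ne_top.2 hc))
    exact ENNReal.mul_ne_top (ENNReal.mul_ne_top ENNReal.ofReal_ne_top hBt)
      (ENNReal.mul_ne_top (ENNReal.rpow_ne_top_of_nonneg hs0.le ENNReal.ofReal_ne_top) (hMt i))
  · intro δ hδ hδ2 f hf
    by_cases hf2 : ∫⁻ y, f y ^ (2 : ℝ) = ⊤
    · rw [hf2, ENNReal.mul_top]
      · exact le_top
      · apply mul_ne_zero (by simp)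
        rw [Ne, ENNReal.rpow_eq_zero_iff]
        push Not
        refine ⟨fun h => ?_, fun h => absurd h ENNReal.ofReal_ne_top⟩
        rw [ENNReal.ofReal_eq_zero] at h
        linarith
    have hτ : IsProbabilityMeasure ((volume : Measure ℝ).restrict (Icc (0 : ℝ) 1)) := ⟨by simp⟩
    have hgood := Schur.good (((volume : Measure (V k)).toSphere).restrict univ)
      ((volume : Measure ℝ).restrict (Icc 0 1)) H hHm D hD s hs0 (M i) (hM i) δ hδ f hf hf2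
    rw [Measure.restrict_univ] at hgood
    have hB2 : volume (closedBall (0 : V k) (2 * δ)) = ENNReal.ofReal ((2 * δ) ^ (k + 1)) * B := by
      rw [Measure.addHaar_closedBall _ _ (by positivity), hfr]
    rw [hB2] at hgood
    have hcD : ((c * ENNReal.ofReal δ ^ (k + 1))⁻¹) ^ (2 : ℕ) ≠ ⊤ := by
      apply ENNReal.pow_ne_top
      rw [ENNReal.inv_ne_top]
      refine mul_ne_zero hc (pow_ne_zero _ ?_)
      rw [Ne, ENNReal.ofReal_eq_zero]; linarith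
    have hpt : ∀ e : Sp k, ((volume (Tube.tube (a e + lin θ (e : V k)) (e : V k) δ))⁻¹ *
          ∫⁻ y in Tube.tube (a e + lin θ (e : V k)) (e : V k) δ, f y) ^ (2 : ℕ) ≤
        ((c * ENNReal.ofReal δ ^ (k + 1))⁻¹) ^ (2 : ℕ) *
          (∫⁻ t in Icc (0 : ℝ) 1, (∫⁻ y in closedBall (H (e, t)) (2 * δ), f y)) ^ (2 : ℕ) := by
      intro e
      rw [← mul_pow]
      apply pow_le_pow_left'
      refine (Max.one_tube (a e + lin θ (e : V k)) (e : V k) (norm_eq_of_mem_sphere e) c hvol δ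
        hδ hδ2 f hf).trans (le_of_eq ?_)
      congr 1
      apply lintegral_congr
      intro t
      rw [hcen e t]
    refine (lintegral_mono (fun e => hpt e)).trans ?_
    rw [lintegral_const_mul' _ _ hcD]
    refine (mul_le_mul' le_rfl hgood).trans ?_
    refine (powers2 (k + 1) s eps hse δ hδ hδ2 c B (M i) _ hc).trans ?_
    gcongr
    exact le_self_add

end Vale.Agent.P127.Good
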