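import Mathlib

open MeasureTheory Set Metric Module
open scoped NNReal ENNReal Topology Pointwise

namespace Vale.Agent.P127.Hom

variable {E : Type*} [NormedAddCommGroup E] [InnerProductSpace ℝ E] [FiniteDimensional ℝ E]
  [MeasurableSpace E] [BorelSpace E]

/-- An image under a map with invertible derivatives is not null. -/
theorem image_ne_zero (μ : Measure E) [μ.IsAddHaarMeasure] (f : E → E)
    (f' : E → E →L[ℝ] E) (T : Set E) (hT : μ T ≠ 0)
    (hf : ∀ x ∈ T, HasFDerivWithinAt f (f' x) T x) (hdet : ∀ x ∈ T, (f' x).det ≠ 0) :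
    μ (f '' T) ≠ 0 := by
  intro h0
  have hr : ∀ A : E →L[ℝ] E, ∃ δ : ℝ≥0, δ ≠ 0 ∧ (A.det ≠ 0 → ∀ (s : Set E) (g : E → E),
      ApproximatesLinearOn g A s δ → ((Real.toNNReal (|A.det| / 2) : ℝ≥0) : ℝ≥0∞) * μ s
        ≤ μ (g '' s)) := by
    intro A
    by_cases hA : A.det = 0
    · exact ⟨1, one_ne_zero, fun h => absurd hA h⟩
    · have hlt : ((Real.toNNReal (|A.det| / 2) : ℝ≥0) : ℝ≥0∞) < ENNReal.ofReal |A.det| := by
        have : 0 < |A.det| := abs_pos.2 hA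
        rw [ENNReal.ofReal, ENNReal.coe_lt_coe]
        exact (Real.toNNReal_lt_toNNReal_iff this).2 (by linarith)
      have := mul_le_addHaar_image_of_lt_det μ A hlt
      rcases (this.and self_mem_nhdsWithin).exists with ⟨δ, h1, h2⟩
      exact ⟨δ, (ne_of_gt h2), fun _ => h1⟩
  choose r hr0 hr1 using hr
  obtain ⟨t, A, -, -, hcov, happ, hA⟩ :=
    exists_partition_approximatesLinearOn_of_hasFDerivWithinAt f T f' hf r hr0
  have hne : T.Nonempty := by
    by_contra hcon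
    rw [not_nonempty_iff_eq_empty] at hcon
    exact hT (by rw [hcon, measure_empty])
  have hz : ∀ k, μ (T ∩ t k) = 0 := by
    intro k
    obtain ⟨y, hy, hAy⟩ := hA hne k
    have hd : (A k).det ≠ 0 := by rw [hAy]; exact hdet y hy
    have h1 := hr1 (A k) hd (T ∩ t k) f (happ k)
    have h2 : μ (f '' (T ∩ t k)) = 0 :=
      measure_mono_null (image_mono inter_subset_left) h0
    rw [h2, nonpos_iff_eq_zero, mul_eq_zero] at h1
    rcases h1 with h1 | h1
    · exfalso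
      have : 0 < |(A k).det| := abs_pos.2 hd
      rw [ENNReal.coe_eq_zero, Real.toNNReal_eq_zero] at h1
      linarith
    · exact h1
  apply hT
  have hsub : T ⊆ ⋃ k, (T ∩ t k) := by
    rw [← inter_iUnion]
    exact subset_inter le_rfl hcov
  exact measure_mono_null hsub (measure_iUnion_null hz)

/-- A measurable set which meets every open ray from the origin in a countable set is null. -/
theorem null_of_rays (μ : Measure E) [μ.IsAddHaarMeasure] (B : Set E) (hB : MeasurableSet B)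
    (h : ∀ x : E, {t : ℝ | 0 < t ∧ t • x ∈ B}.Countable) : μ B = 0 := by
  let S : Set (E × ℝ) := {p | 0 < p.2 ∧ p.2 • p.1 ∈ B}
  have hS : MeasurableSet S := by
    apply MeasurableSet.inter
    · exact measurableSet_lt measurable_const measurable_snd
    · exact (measurable_snd.smul measurable_fst) hB
  have h0 : (μ.prod (volume : Measure ℝ)) S = 0 := by
    rw [Measure.measure_prod_null hS]
    filter_upwards with x
    exact (h x).measure_zero _
  rw [Measure.prod_apply_symm hS, lintegral_eq_zero_iff (measurable_measure_prodMk_right hS)] at h0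
  have h1 : ∃ y : ℝ, 0 < y ∧ μ ((fun x => (x, y)) ⁻¹' S) = 0 := by
    by_contra hcon
    push Not at hcon
    have h2 : (volume : Measure ℝ) (Ioi 0) = 0 := by
      refine measure_mono_null ?_ h0
      intro y hy
      exact hcon y hy
    simp at h2
  obtain ⟨y, hy, hy0⟩ := h1
  have h3 : (fun x : E => (x, y)) ⁻¹' S = (fun x : E => y • x) ⁻¹' B := by
    ext x
    simp [S, hy]
  rw [h3, Measure.addHaar_preimage_smul μ hy.ne', mul_eq_zero] at hy0
  rcases hy0 with hy0 | hy0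
  · exfalso
    rw [ENNReal.ofReal_eq_zero] at hy0
    have : 0 < |(y ^ finrank ℝ E)⁻¹| := abs_pos.2 (inv_ne_zero (pow_ne_zero _ hy.ne'))
    linarith
  · exact hy0

/-- Derivative of a function which is homogeneous of degree zero. -/
theorem hom_fderiv {g : E → E} (hg : ∀ (t : ℝ) (x : E), 0 < t → g (t • x) = g x) {t : ℝ}
    (ht : 0 < t) {x : E} (hd : DifferentiableAt ℝ g (t • x)) :
    DifferentiableAt ℝ g x ∧ fderiv ℝ g x = t • fderiv ℝ g (t • x) := by
  have h1 : HasFDerivAt (fun y : E => t • y) (t • ContinuousLinearMap.id ℝ E) x :=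
    (hasFDerivAt_id x).const_smul t
  have h2 : HasFDerivAt (g ∘ fun y : E => t • y)
      ((fderiv ℝ g (t • x)).comp (t • ContinuousLinearMap.id ℝ E)) x :=
    HasFDerivAt.comp x hd.hasFDerivAt h1
  have h3 : (g ∘ fun y : E => t • y) = g := by
    funext y
    exact hg t y ht
  rw [h3] at h2
  refine ⟨h2.differentiableAt, ?_⟩
  rw [h2.fderiv]
  ext v
  simp

/-- The bad parameters on a ray are countable. -/
theorem bad_countable {g : E → E} (hg : ∀ (t : ℝ) (x : E), 0 < t → g (t • x) = g x) (x : E) :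
    {t : ℝ | 0 < t ∧ t • x ∈ {y | DifferentiableAt ℝ g y ∧
      ((1 : E →L[ℝ] E) + fderiv ℝ g y).det = 0}}.Countable := by
  have hfin : {s : ℝ | Module.End.HasEigenvalue ((fderiv ℝ g x : E →L[ℝ] E) : E →ₗ[ℝ] E) s}.Finite :=
    Module.End.finite_hasEigenvalue _
  refine (Finite.subset (hfin.preimage (f := fun t : ℝ => -t) (neg_injective.injOn)) ?_).countable
  rintro t ⟨ht, hd, hdet⟩
  obtain ⟨-, hL⟩ := hom_fderiv hg ht hd
  have h1 : ∃ v : E, v ≠ 0 ∧ ((1 : E →L[ℝ] E) + fderiv ℝ g (t • x)) v = 0 := by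
    have h2 : LinearMap.det (((1 : E →L[ℝ] E) + fderiv ℝ g (t • x) : E →L[ℝ] E) : E →ₗ[ℝ] E) = 0 :=
      hdet
    have h3 := LinearMap.bot_lt_ker_of_det_eq_zero h2
    obtain ⟨v, hv, hv0⟩ := Submodule.exists_mem_ne_zero_of_ne_bot h3.ne'
    exact ⟨v, hv0, hv⟩
  obtain ⟨v, hv0, hv⟩ := h1
  have h4 : fderiv ℝ g (t • x) v = -v := by
    have : v + fderiv ℝ g (t • x) v = 0 := by simpa using hv
    exact (neg_eq_of_add_eq_zero_right this).symm
  show Module.End.HasEigenvalue _ _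
  apply Module.End.hasEigenvalue_of_hasEigenvector (x := v)
  refine ⟨?_, hv0⟩
  rw [Module.End.mem_eigenspace_iff]
  show fderiv ℝ g x v = (-t) • v
  rw [hL]
  simp [h4]

/-- The set of points where `x ↦ x + g x` is differentiable with singular derivative is null. -/
theorem bad_null (μ : Measure E) [μ.IsAddHaarMeasure] {g : E → E}
    (hg : ∀ (t : ℝ) (x : E), 0 < t → g (t • x) = g x) :
    μ {y | DifferentiableAt ℝ g y ∧ ((1 : E →L[ℝ] E) + fderiv ℝ g y).det = 0} = 0 := by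
  refine null_of_rays μ _ ?_ (bad_countable hg)
  apply MeasurableSet.inter
  · exact measurableSet_of_differentiableAt ℝ g
  · have h1 : Measurable (fun y => ((1 : E →L[ℝ] E) + fderiv ℝ g y).det) := by
      have h2 : Measurable (fun y => (1 : E →L[ℝ] E) + fderiv ℝ g y) :=
        (measurable_fderiv ℝ g).const_add _
      exact ContinuousLinearMap.continuous_det.measurable.comp h2
    exact h1 (measurableSet_singleton 0)

/-- Normalisation is Lipschitz away from the origin. -/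
theorem lip_normalize {r : ℝ≥0} (hr : 0 < r) :
    LipschitzOnWith (2 / r) (fun x : E => ‖x‖⁻¹ • x) {x : E | (r : ℝ) < ‖x‖} := by
  apply LipschitzOnWith.of_dist_le_mul
  intro x hx y hy
  have hx' : (r : ℝ) < ‖x‖ := hx
  have hy' : (r : ℝ) < ‖y‖ := hy
  have hr' : (0 : ℝ) < r := by exact_mod_cast hr
  have hx0 : 0 < ‖x‖ := hr'.trans hx'
  have hy0 : 0 < ‖y‖ := hr'.trans hy'
  rw [dist_eq_norm, dist_eq_norm]
  have h1 : ‖x‖⁻¹ • x - ‖y‖⁻¹ • y = ‖x‖⁻¹ • (x - y) + (‖x‖⁻¹ - ‖y‖⁻¹) • y := by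
    rw [smul_sub, sub_smul]; abel
  have h2 : ‖(‖x‖⁻¹ - ‖y‖⁻¹) • y‖ ≤ ‖x‖⁻¹ * ‖x - y‖ := by
    rw [norm_smul, Real.norm_eq_abs]
    have h3 : (‖x‖⁻¹ - ‖y‖⁻¹) = ‖x‖⁻¹ * ((‖y‖ - ‖x‖) * ‖y‖⁻¹) := by
      field_simp
    rw [h3, abs_mul, abs_mul, abs_of_pos (inv_pos.2 hx0), abs_of_pos (inv_pos.2 hy0)]
    have h4 : |‖y‖ - ‖x‖| ≤ ‖x - y‖ := by
      rw [abs_sub_comm]; exact abs_norm_sub_norm_le x y
    calc ‖x‖⁻¹ * (|‖y‖ - ‖x‖| * ‖y‖⁻¹) * ‖y‖ = ‖x‖⁻¹ * |‖y‖ - ‖x‖| := by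
          field_simp
      _ ≤ ‖x‖⁻¹ * ‖x - y‖ := by gcongr
  have h5 : ‖x‖⁻¹ ≤ (r : ℝ)⁻¹ := by
    apply inv_anti₀ hr' hx'.le
  calc ‖‖x‖⁻¹ • x - ‖y‖⁻¹ • y‖ ≤ ‖‖x‖⁻¹ • (x - y)‖ + ‖(‖x‖⁻¹ - ‖y‖⁻¹) • y‖ := by
        rw [h1]; exact norm_add_le _ _
    _ ≤ ‖x‖⁻¹ * ‖x - y‖ + ‖x‖⁻¹ * ‖x - y‖ := by
        gcongr
        rw [norm_smul, Real.norm_eq_abs, abs_of_pos (inv_pos.2 hx0)]
    _ = 2 * ‖x‖⁻¹ * ‖x - y‖ := by ring
    _ ≤ 2 * (r : ℝ)⁻¹ * ‖x - y‖ := by gcongr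
    _ = ((2 / r : ℝ≥0) : ℝ) * ‖x - y‖ := by
        push_cast; ring

/-- `x ↦ b (x / |x|)` is differentiable at almost every nonzero point if `b` is Lipschitz. -/
theorem ae_diff (μ : Measure E) [μ.IsAddHaarMeasure] {b : E → E} {C : ℝ≥0}
    (hb : LipschitzWith C b) :
    ∀ᵐ x ∂μ, x ≠ 0 → DifferentiableAt ℝ (fun y : E => b (‖y‖⁻¹ • y)) x := by
  have h : ∀ k : ℕ, ∀ᵐ x ∂μ, (((k : ℝ≥0) + 1)⁻¹ : ℝ≥0) < ‖x‖ →
      DifferentiableAt ℝ (fun y : E => b (‖y‖⁻¹ • y)) x := by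
    intro k
    set r : ℝ≥0 := ((k : ℝ≥0) + 1)⁻¹ with hrdef
    have hr : 0 < r := by positivity
    have hl : LipschitzOnWith (C * (2 / r)) (fun y : E => b (‖y‖⁻¹ • y)) {x : E | (r : ℝ) < ‖x‖} :=
      hb.comp_lipschitzOnWith (lip_normalize hr)
    have ho : IsOpen {x : E | (r : ℝ) < ‖x‖} := isOpen_lt continuous_const continuous_norm
    filter_upwards [hl.ae_differentiableWithinAt_of_mem (μ := μ)] with x hx hxr
    exact (hx hxr).differentiableAt (ho.mem_nhds hxr)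
  filter_upwards [ae_all_iff.2 h] with x hx hx0
  obtain ⟨k, hk⟩ := exists_nat_one_div_lt (norm_pos_iff.2 hx0)
  apply hx k
  have : (((((k : ℝ≥0) + 1)⁻¹ : ℝ≥0) : ℝ)) = 1 / ((k : ℝ) + 1) := by push_cast; ring
  rw [this]
  exact hk

end Vale.Agent.P127.Hom
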