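import Mathlib

open MeasureTheory Set Metric Module
open scoped NNReal ENNReal Topology

namespace Vale.Agent.P127.Ker

variable {E : Type*} [NormedAddCommGroup E] [InnerProductSpace ℝ E] [FiniteDimensional ℝ E]
  [MeasurableSpace E] [BorelSpace E]

omit [FiniteDimensional ℝ E] [MeasurableSpace E] [BorelSpace E] in
theorem enorm_rpow_eq {x : E} (hx : x ≠ 0) (b : ℝ) :
    ‖x‖ₑ ^ (-b) = ENNReal.ofReal (‖x‖ ^ (-b)) := by
  rw [← ofReal_norm_eq_enorm, ENNReal.ofReal_rpow_of_pos (norm_pos_iff.2 hx)]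

theorem ball_fin (μ : Measure E) [μ.IsAddHaarMeasure] (b : ℝ) (hb0 : 0 ≤ b)
    (hb : b < finrank ℝ E) :
    ∫⁻ x in ball (0 : E) 1, ‖x‖ₑ ^ (-b) ∂μ ≠ ⊤ := by
  have hd : 1 ≤ finrank ℝ E := by
    by_contra hcon
    have : finrank ℝ E = 0 := by omega
    rw [this] at hb
    norm_num at hb
    linarith
  have : Nontrivial E := by
    apply Module.nontrivial_of_finrank_pos (R := ℝ)
    omega
  have h1 : IntegrableOn (fun x : E => ‖x‖ ^ (-b)) (ball 0 1) μ := by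
    apply integrableOn_ball_of_norm_le_rpow hd (C := 1) hb
    · filter_upwards with x
      rw [one_mul, Real.norm_eq_abs, abs_of_nonneg (Real.rpow_nonneg (norm_nonneg _) _)]
    · exact (measurable_norm.pow_const _).aestronglyMeasurable
  have h2 := h1.2
  rw [hasFiniteIntegral_iff_enorm] at h2
  refine ne_of_lt (lt_of_le_of_lt (le_of_eq ?_) h2)
  apply lintegral_congr_ae
  have h3 : ∀ᵐ x : E ∂μ.restrict (ball 0 1), x ≠ 0 := by
    apply ae_restrict_of_ae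
    exact Measure.ae_ne μ 0
  filter_upwards [h3] with x hx
  rw [enorm_rpow_eq hx, ← ofReal_norm_eq_enorm, Real.norm_eq_abs,
    abs_of_nonneg (Real.rpow_nonneg (norm_nonneg _) _)]

/-- ROW K (Ker.lean): kernel bound. -/
theorem ker_bound (μ : Measure E) [μ.IsAddHaarMeasure] (b : ℝ) (hb0 : 0 ≤ b)
    (hb : b < finrank ℝ E) :
    ∃ C : ℝ≥0∞, C ≠ ⊤ ∧ ∀ (q : E) (B : Set E), ∫⁻ x in B, ‖q + x‖ₑ ^ (-b) ∂μ ≤ C + μ B := by
  refine ⟨_, ball_fin μ b hb0 hb, ?_⟩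
  intro q B
  have hpt : ∀ z : E, ‖z‖ₑ ^ (-b) ≤ (ball (0 : E) 1).indicator (fun x => ‖x‖ₑ ^ (-b)) z + 1 := by
    intro z
    by_cases hz : z ∈ ball (0 : E) 1
    · rw [indicator_of_mem hz]; exact le_self_add
    · rw [indicator_of_notMem hz, zero_add]
      rw [mem_ball_zero_iff, not_lt] at hz
      have h1 : (1 : ℝ≥0∞) ≤ ‖z‖ₑ := by
        rw [← ofReal_norm_eq_enorm, ← ENNReal.ofReal_one]
        exact ENNReal.ofReal_le_ofReal hz
      rw [ENNReal.rpow_neg, ENNReal.inv_le_one]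
      rcases hb0.eq_or_lt with h0 | h0
      · rw [← h0, ENNReal.rpow_zero]
      · exact ENNReal.one_le_rpow h1 h0
  calc ∫⁻ x in B, ‖q + x‖ₑ ^ (-b) ∂μ
      ≤ ∫⁻ x in B, ((ball (0 : E) 1).indicator (fun x => ‖x‖ₑ ^ (-b)) (q + x) + 1) ∂μ :=
        lintegral_mono fun x => hpt (q + x)
    _ = ∫⁻ x in B, (ball (0 : E) 1).indicator (fun x => ‖x‖ₑ ^ (-b)) (q + x) ∂μ + μ B := by
        rw [lintegral_add_right _ measurable_const]
        simp
    _ ≤ ∫⁻ x, (ball (0 : E) 1).indicator (fun x => ‖x‖ₑ ^ (-b)) (q + x) ∂μ + μ B := by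
        gcongr
        exact Measure.restrict_le_self
    _ = ∫⁻ x, (ball (0 : E) 1).indicator (fun x => ‖x‖ₑ ^ (-b)) x ∂μ + μ B := by
        rw [lintegral_add_left_eq_self]
    _ = ∫⁻ x in ball (0 : E) 1, ‖x‖ₑ ^ (-b) ∂μ + μ B := by
        rw [lintegral_indicator measurableSet_ball]

end Vale.Agent.P127.Ker
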