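import Mathlib

open MeasureTheory Set Metric Module
open scoped NNReal ENNReal Topology

namespace Vale.Agent.P127.L2

variable {E : Type*} [NormedAddCommGroup E] [InnerProductSpace ℝ E] [FiniteDimensional ℝ E]
  [MeasurableSpace E] [BorelSpace E]

/-- the set of the pairs `(x, y)` with `y` in the ball of radius `r` about `G x` -/
def near {X : Type*} (G : X → E) (r : ℝ) : Set (X × E) := {p | dist p.2 (G p.1) ≤ r}

/-- ROW T3 (L2.lean). -/
theorem l2_bound {X : Type*} [MeasurableSpace X] (m : Measure X) [IsFiniteMeasure m]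
    (μ : Measure E) [μ.IsAddHaarMeasure] (G : X → E) (hG : Measurable G) (s : ℝ) (hs : 0 < s)
    (δ : ℝ) (hδ : 0 < δ) (f : E → ℝ≥0∞) (hf : Measurable f) :
    ∫⁻ x, ∫⁻ y in closedBall (G x) (2 * δ), f y ∂μ ∂m ≤
      (∫⁻ y, f y ^ (2 : ℝ) ∂μ) ^ (1 / 2 : ℝ) *
        (μ (closedBall 0 (2 * δ)) * (ENNReal.ofReal (4 * δ) ^ s *
          ∫⁻ x, ∫⁻ y, ‖G x - G y‖ₑ ^ (-s) ∂m ∂m)) ^ (1 / 2 : ℝ) := by
  classical
  set S : Set (X × E) := near G (2 * δ) with hSdef
  have hS : MeasurableSet S :=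
    measurableSet_le (measurable_snd.dist (hG.comp measurable_fst)) measurable_const
  set F : X × E → ℝ≥0∞ := S.indicator (fun _ => 1) with hF
  have hFm : Measurable F := measurable_const.indicator hS
  have hF1 : ∀ x y, dist y (G x) ≤ 2 * δ → F (x, y) = 1 := fun x y h =>
    indicator_of_mem (show (x, y) ∈ S from h) _
  have hF0 : ∀ x y, ¬ dist y (G x) ≤ 2 * δ → F (x, y) = 0 := fun x y h =>
    indicator_of_notMem (show (x, y) ∉ S from h) _
  set N : E → ℝ≥0∞ := fun y => ∫⁻ x, F (x, y) ∂m with hN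
  have hNm : Measurable N := hFm.lintegral_prod_left'
  have hx : ∀ x, Measurable fun y => F (x, y) := fun x => hFm.comp measurable_prodMk_left
  have hy : ∀ y, Measurable fun x => F (x, y) := fun y => hFm.comp measurable_prodMk_right
  -- the left side
  have h1 : ∀ x, ∫⁻ y in closedBall (G x) (2 * δ), f y ∂μ = ∫⁻ y, F (x, y) * f y ∂μ := by
    intro x
    rw [← lintegral_indicator measurableSet_closedBall]
    apply lintegral_congr
    intro y
    by_cases h : dist y (G x) ≤ 2 * δ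
    · rw [indicator_of_mem (mem_closedBall.2 h), hF1 x y h, one_mul]
    · rw [indicator_of_notMem (fun h' => h (mem_closedBall.1 h')), hF0 x y h, zero_mul]
  have h2 : ∫⁻ x, ∫⁻ y in closedBall (G x) (2 * δ), f y ∂μ ∂m = ∫⁻ y, (f * N) y ∂μ := by
    simp_rw [h1]
    rw [lintegral_lintegral_swap
      ((hFm.mul (hf.comp measurable_snd)).aemeasurable)]
    apply lintegral_congr
    intro y
    rw [lintegral_mul_const _ (hy y), Pi.mul_apply, mul_comm]
  -- the square of `N`
  have h3 : ∫⁻ y, N y ^ (2 : ℝ) ∂μ = ∫⁻ x, ∫⁻ x', ∫⁻ y, F (x, y) * F (x', y) ∂μ ∂m ∂m := by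
    have e1 : ∀ y, N y ^ (2 : ℝ) = ∫⁻ x, F (x, y) * N y ∂m := by
      intro y
      rw [lintegral_mul_const _ (hy y), ENNReal.rpow_two, sq]
    simp_rw [e1]
    rw [lintegral_lintegral_swap
      ((hFm.comp measurable_swap).mul (hNm.comp measurable_fst)).aemeasurable]
    apply lintegral_congr
    intro x
    have e2 : ∀ y, F (x, y) * N y = ∫⁻ x', F (x, y) * F (x', y) ∂m := by
      intro y
      rw [lintegral_const_mul _ (hy y)]
    simp_rw [e2]
    rw [lintegral_lintegral_swap
      ((((hx x).comp measurable_fst)).mul (hFm.comp measurable_swap)).aemeasurable]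
  have hD0 : ENNReal.ofReal (4 * δ) ≠ 0 := by
    simp only [ne_eq, ENNReal.ofReal_eq_zero, not_le]; linarith
  have h4 : ∀ x x', ∫⁻ y, F (x, y) * F (x', y) ∂μ ≤
      μ (closedBall 0 (2 * δ)) * (ENNReal.ofReal (4 * δ) ^ s * ‖G x - G x'‖ₑ ^ (-s)) := by
    intro x x'
    by_cases h : dist (G x) (G x') ≤ 4 * δ
    · have h5 : (1 : ℝ≥0∞) ≤ ENNReal.ofReal (4 * δ) ^ s * ‖G x - G x'‖ₑ ^ (-s) := by
        have h6 : ‖G x - G x'‖ₑ ≤ ENNReal.ofReal (4 * δ) := by
          rw [← ofReal_norm, ← dist_eq_norm]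
          exact ENNReal.ofReal_le_ofReal h
        rw [ENNReal.rpow_neg, ← div_eq_mul_inv,
          ENNReal.le_div_iff_mul_le (Or.inr (by positivity)) (Or.inr (by finiteness))]
        rw [one_mul]
        exact ENNReal.rpow_le_rpow h6 hs.le
      calc ∫⁻ y, F (x, y) * F (x', y) ∂μ
          ≤ ∫⁻ y, (closedBall (G x) (2 * δ)).indicator (fun _ => 1) y ∂μ := by
            apply lintegral_mono
            intro y
            dsimp only
            by_cases h7 : dist y (G x) ≤ 2 * δ
            · rw [indicator_of_mem (mem_closedBall.2 h7), hF1 x y h7, one_mul]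
              by_cases h8 : dist y (G x') ≤ 2 * δ
              · rw [hF1 x' y h8]
              · rw [hF0 x' y h8]; exact zero_le
            · rw [hF0 x y h7, zero_mul]; exact zero_le
        _ = μ (closedBall (G x) (2 * δ)) := by
            rw [lintegral_indicator measurableSet_closedBall, setLIntegral_const, one_mul]
        _ = μ (closedBall 0 (2 * δ)) := by
            rw [Measure.addHaar_closedBall_center]
        _ ≤ _ := le_mul_of_one_le_right (zero_le) h5
    · have h7 : ∀ y, F (x, y) * F (x', y) = 0 := by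
        intro y
        by_cases h8 : dist y (G x) ≤ 2 * δ
        · by_cases h9 : dist y (G x') ≤ 2 * δ
          · exfalso
            apply h
            have := dist_triangle_left (G x) (G x') y
            linarith
          · rw [hF0 x' y h9, mul_zero]
        · rw [hF0 x y h8, zero_mul]
      simp [h7]
  have h5 : ∫⁻ y, N y ^ (2 : ℝ) ∂μ ≤ μ (closedBall 0 (2 * δ)) * (ENNReal.ofReal (4 * δ) ^ s *
      ∫⁻ x, ∫⁻ y, ‖G x - G y‖ₑ ^ (-s) ∂m ∂m) := by
    rw [h3]
    have hB : μ (closedBall (0 : E) (2 * δ)) ≠ ⊤ := measure_closedBall_lt_top.ne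
    have hDt : ENNReal.ofReal (4 * δ) ^ s ≠ ⊤ :=
      ENNReal.rpow_ne_top_of_nonneg hs.le ENNReal.ofReal_ne_top
    calc ∫⁻ x, ∫⁻ x', ∫⁻ y, F (x, y) * F (x', y) ∂μ ∂m ∂m
        ≤ ∫⁻ x, ∫⁻ x', μ (closedBall 0 (2 * δ)) *
            (ENNReal.ofReal (4 * δ) ^ s * ‖G x - G x'‖ₑ ^ (-s)) ∂m ∂m :=
          lintegral_mono fun x => lintegral_mono fun x' => h4 x x'
      _ = _ := by
          simp_rw [lintegral_const_mul' _ _ hB, lintegral_const_mul' _ _ hDt]
  rw [h2]
  refine (ENNReal.lintegral_mul_le_Lp_mul_Lq μ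
    (Real.holderConjugate_iff.2 ⟨by norm_num, by norm_num⟩) hf.aemeasurable
    hNm.aemeasurable (p := 2) (q := 2)).trans ?_
  gcongr

end Vale.Agent.P127.L2
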