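import Vale.Agent.P127.Ker

open MeasureTheory Set Metric Module
open scoped NNReal ENNReal Topology

namespace Vale.Agent.P127.Lam

variable {E : Type*} [NormedAddCommGroup E] [InnerProductSpace ℝ E] [FiniteDimensional ℝ E]
  [MeasurableSpace E] [BorelSpace E]

theorem anti_rpow {x y : ℝ≥0∞} (h : x ≤ y) {a : ℝ} (ha : 0 ≤ a) : y ^ (-a) ≤ x ^ (-a) := by
  rw [ENNReal.rpow_neg, ENNReal.rpow_neg, ENNReal.inv_le_inv]
  exact ENNReal.rpow_le_rpow h ha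

/-- ROW A (Lam.lean): one perturbation parameter. -/
theorem one_param (μ : Measure E) [μ.IsAddHaarMeasure] (a b : ℝ) (ha : 0 < a) (hb0 : 0 < b)
    (hs : a + b < finrank ℝ E) (R : ℝ) (hR : 0 < R) :
    ∃ C : ℝ≥0∞, C ≠ ⊤ ∧ ∀ (q : E) (l : ℝ), l ≠ 0 →
      ∫⁻ x in ball (0 : E) R, ‖q + l • x‖ₑ ^ (-(a + b)) ∂μ ≤ C * ‖l‖ₑ ^ (-b) * ‖q‖ₑ ^ (-a) := by
  obtain ⟨C₁, hC₁, hker⟩ := Ker.ker_bound μ (a + b) (by linarith) hs
  set V : ℝ≥0∞ := μ (ball (0 : E) R) with hV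
  have hVt : V ≠ ⊤ := measure_ball_lt_top.ne
  set r₀ : ℝ≥0∞ := ENNReal.ofReal (2 * R) with hr₀
  have hr0 : r₀ ≠ 0 := by
    rw [hr₀, Ne, ENNReal.ofReal_eq_zero]; linarith
  have hrt : r₀ ≠ ⊤ := ENNReal.ofReal_ne_top
  refine ⟨(C₁ + V) * r₀ ^ a + V * (2 ^ (a + b) * r₀ ^ (-b)), ?_, ?_⟩
  · apply ENNReal.add_ne_top.2 ⟨?_, ?_⟩
    · exact ENNReal.mul_ne_top (ENNReal.add_ne_top.2 ⟨hC₁, hVt⟩)
        (ENNReal.rpow_ne_top_of_ne_zero hr0 hrt)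
    · exact ENNReal.mul_ne_top hVt (ENNReal.mul_ne_top
        (ENNReal.rpow_ne_top_of_ne_zero (by norm_num) (by norm_num))
        (ENNReal.rpow_ne_top_of_ne_zero hr0 hrt))
  · intro q l hl
    have hl0 : ‖l‖ₑ ≠ 0 := by rwa [Ne, enorm_eq_zero]
    have hlt : ‖l‖ₑ ≠ ⊤ := enorm_ne_top
    rcases le_or_gt ‖q‖ₑ (r₀ * ‖l‖ₑ) with hc | hc
    · -- first case
      have h1 : ∀ x : E, ‖q + l • x‖ₑ ^ (-(a + b)) =
          ‖l‖ₑ ^ (-(a + b)) * ‖l⁻¹ • q + x‖ₑ ^ (-(a + b)) := by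
        intro x
        have : q + l • x = l • (l⁻¹ • q + x) := by
          rw [smul_add, smul_smul, mul_inv_cancel₀ hl, one_smul]
        rw [this, enorm_smul, ENNReal.mul_rpow_of_ne_top enorm_ne_top enorm_ne_top]
      have h2 : ∫⁻ x in ball (0 : E) R, ‖q + l • x‖ₑ ^ (-(a + b)) ∂μ ≤
          ‖l‖ₑ ^ (-(a + b)) * (C₁ + V) := by
        rw [lintegral_congr h1, lintegral_const_mul' _ _
          (ENNReal.rpow_ne_top_of_ne_zero hl0 hlt)]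
        gcongr
        exact hker _ _
      have h3 : ‖l‖ₑ ^ (-(a + b)) = ‖l‖ₑ ^ (-b) * ‖l‖ₑ ^ (-a) := by
        rw [← ENNReal.rpow_add _ _ hl0 hlt]
        congr 1; ring
      have h4 : ‖l‖ₑ ^ (-a) ≤ r₀ ^ a * ‖q‖ₑ ^ (-a) := by
        have h5 := anti_rpow hc ha.le
        rw [ENNReal.mul_rpow_of_ne_top hrt hlt] at h5
        calc ‖l‖ₑ ^ (-a) = r₀ ^ a * (r₀ ^ (-a) * ‖l‖ₑ ^ (-a)) := by
              rw [← mul_assoc, ← ENNReal.rpow_add _ _ hr0 hrt, add_neg_cancel, ENNReal.rpow_zero,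
                one_mul]
          _ ≤ r₀ ^ a * ‖q‖ₑ ^ (-a) := by gcongr
      calc ∫⁻ x in ball (0 : E) R, ‖q + l • x‖ₑ ^ (-(a + b)) ∂μ
          ≤ ‖l‖ₑ ^ (-(a + b)) * (C₁ + V) := h2
        _ = ‖l‖ₑ ^ (-b) * ‖l‖ₑ ^ (-a) * (C₁ + V) := by rw [h3]
        _ ≤ ‖l‖ₑ ^ (-b) * (r₀ ^ a * ‖q‖ₑ ^ (-a)) * (C₁ + V) := by gcongr
        _ = ((C₁ + V) * r₀ ^ a) * ‖l‖ₑ ^ (-b) * ‖q‖ₑ ^ (-a) := by ring
        _ ≤ ((C₁ + V) * r₀ ^ a + V * (2 ^ (a + b) * r₀ ^ (-b))) * ‖l‖ₑ ^ (-b) * ‖q‖ₑ ^ (-a) := by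
            gcongr
            exact le_self_add
    · -- second case
      have hreal : 2 * R * |l| < ‖q‖ := by
        have h1 : ENNReal.ofReal (2 * R * |l|) < ENNReal.ofReal ‖q‖ := by
          rw [ENNReal.ofReal_mul (by positivity)]
          have h2 : ENNReal.ofReal |l| = ‖l‖ₑ := by
            rw [← Real.norm_eq_abs, ofReal_norm]
          have h3 : ENNReal.ofReal ‖q‖ = ‖q‖ₑ := by rw [ofReal_norm]
          rw [h2, h3]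
          exact hc
        exact (ENNReal.ofReal_lt_ofReal_iff_of_nonneg (by positivity)).1 h1
      have hq0 : ‖q‖ₑ ≠ 0 := (lt_of_le_of_lt zero_le' hc).ne'
      have hqt : ‖q‖ₑ ≠ ⊤ := enorm_ne_top
      have h1 : ∀ x ∈ ball (0 : E) R, ‖q + l • x‖ₑ ^ (-(a + b)) ≤
          2 ^ (a + b) * (‖q‖ₑ ^ (-b) * ‖q‖ₑ ^ (-a)) := by
        intro x hx
        rw [mem_ball_zero_iff] at hx
        have h2 : ‖q‖ / 2 ≤ ‖q + l • x‖ := by
          have h3 : ‖l • x‖ ≤ |l| * R := by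
            rw [norm_smul, Real.norm_eq_abs]
            gcongr
          have h4 : ‖q‖ ≤ ‖q + l • x‖ + ‖l • x‖ := by
            calc ‖q‖ = ‖(q + l • x) - l • x‖ := by rw [add_sub_cancel_right]
              _ ≤ _ := norm_sub_le _ _
          nlinarith
        have h5 : ‖q‖ₑ / 2 ≤ ‖q + l • x‖ₑ := by
          rw [← ofReal_norm, ← ofReal_norm]
          have : ENNReal.ofReal ‖q‖ / 2 = ENNReal.ofReal (‖q‖ / 2) := by
            rw [ENNReal.ofReal_div_of_pos two_pos, ENNReal.ofReal_ofNat]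
          rw [this]
          exact ENNReal.ofReal_le_ofReal h2
        calc ‖q + l • x‖ₑ ^ (-(a + b)) ≤ (‖q‖ₑ / 2) ^ (-(a + b)) := anti_rpow h5 (by linarith)
          _ = 2 ^ (a + b) * ‖q‖ₑ ^ (-(a + b)) := by
              rw [div_eq_mul_inv, ENNReal.mul_rpow_of_ne_top hqt (by norm_num),
                ENNReal.inv_rpow, ENNReal.rpow_neg 2, inv_inv, mul_comm]
          _ = 2 ^ (a + b) * (‖q‖ₑ ^ (-b) * ‖q‖ₑ ^ (-a)) := by
              rw [← ENNReal.rpow_add _ _ hq0 hqt]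
              congr 2; ring
      have h6 : ‖q‖ₑ ^ (-b) ≤ r₀ ^ (-b) * ‖l‖ₑ ^ (-b) := by
        have := anti_rpow hc.le hb0.le
        rwa [ENNReal.mul_rpow_of_ne_top hrt hlt] at this
      calc ∫⁻ x in ball (0 : E) R, ‖q + l • x‖ₑ ^ (-(a + b)) ∂μ
          ≤ ∫⁻ x in ball (0 : E) R, 2 ^ (a + b) * (‖q‖ₑ ^ (-b) * ‖q‖ₑ ^ (-a)) ∂μ :=
            setLIntegral_mono measurable_const h1
        _ = 2 ^ (a + b) * (‖q‖ₑ ^ (-b) * ‖q‖ₑ ^ (-a)) * V := by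
            rw [setLIntegral_const]
        _ ≤ 2 ^ (a + b) * ((r₀ ^ (-b) * ‖l‖ₑ ^ (-b)) * ‖q‖ₑ ^ (-a)) * V := by gcongr
        _ = (V * (2 ^ (a + b) * r₀ ^ (-b))) * ‖l‖ₑ ^ (-b) * ‖q‖ₑ ^ (-a) := by ring
        _ ≤ ((C₁ + V) * r₀ ^ a + V * (2 ^ (a + b) * r₀ ^ (-b))) * ‖l‖ₑ ^ (-b) * ‖q‖ₑ ^ (-a) := by
            gcongr
            exact le_add_self

end Vale.Agent.P127.Lam
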