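import Vale.Agent.P127.Tube

open MeasureTheory Set Metric Module
open scoped NNReal ENNReal Topology

namespace Vale.Agent.P127.Tube2

open Vale.Agent.P127

variable {E : Type*} [NormedAddCommGroup E] [InnerProductSpace ℝ E] [FiniteDimensional ℝ E]
  [MeasurableSpace E] [BorelSpace E]

/-- ROW T2 (Tube2.lean). -/
theorem tube_le (μ : Measure E) [μ.IsAddHaarMeasure] (a e : E) (δ : ℝ) (he : ‖e‖ = 1)
    (hδ : 0 < δ) (hδ2 : δ ≤ 1 / 2) (f : E → ℝ≥0∞) (hf : Measurable f) :
    ENNReal.ofReal δ * ∫⁻ y in Tube.tube a e δ, f y ∂μ ≤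
      ∫⁻ t in Icc (0 : ℝ) 1, ∫⁻ y in closedBall ((a - (1 / 2 : ℝ) • e) + t • e) (2 * δ), f y ∂μ := by
  classical
  set q : E := a - (1 / 2 : ℝ) • e with hq
  set S : Set (ℝ × E) := {p | dist p.2 (q + p.1 • e) ≤ 2 * δ} with hSdef
  have hS : MeasurableSet S :=
    measurableSet_le (measurable_snd.dist ((measurable_fst.smul_const e).const_add q))
      measurable_const
  set F : ℝ × E → ℝ≥0∞ := S.indicator (fun _ => 1) with hF
  have hFm : Measurable F := measurable_const.indicator hS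
  have hF1 : ∀ t y, dist y (q + t • e) ≤ 2 * δ → F (t, y) = 1 := fun t y h =>
    indicator_of_mem (show (t, y) ∈ S from h) _
  have hF0 : ∀ t y, ¬ dist y (q + t • e) ≤ 2 * δ → F (t, y) = 0 := fun t y h =>
    indicator_of_notMem (show (t, y) ∉ S from h) _
  set m : Measure ℝ := volume.restrict (Icc (0 : ℝ) 1) with hm
  set N : E → ℝ≥0∞ := fun y => ∫⁻ t, F (t, y) ∂m with hN
  have hNm : Measurable N := hFm.lintegral_prod_left'
  have hy : ∀ y, Measurable fun t => F (t, y) := fun y => hFm.comp measurable_prodMk_right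
  have h1 : ∀ t, ∫⁻ y in closedBall (q + t • e) (2 * δ), f y ∂μ = ∫⁻ y, F (t, y) * f y ∂μ := by
    intro t
    rw [← lintegral_indicator measurableSet_closedBall]
    apply lintegral_congr
    intro y
    by_cases h : dist y (q + t • e) ≤ 2 * δ
    · rw [indicator_of_mem (mem_closedBall.2 h), hF1 t y h, one_mul]
    · rw [indicator_of_notMem (fun h' => h (mem_closedBall.1 h')), hF0 t y h, zero_mul]
  have h2 : ∫⁻ t, ∫⁻ y in closedBall (q + t • e) (2 * δ), f y ∂μ ∂m = ∫⁻ y, N y * f y ∂μ := by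
    simp_rw [h1]
    rw [lintegral_lintegral_swap
      ((hFm.mul (hf.comp measurable_snd)).aemeasurable)]
    apply lintegral_congr
    intro y
    rw [lintegral_mul_const _ (hy y)]
  rw [h2]
  have h3 : Tube.tube a e δ ⊆ {y | ENNReal.ofReal δ ≤ N y} := by
    rintro y ⟨t0, u, ht0, -, hu, rfl⟩
    have ht := abs_le.1 ht0
    have key : ∀ c : ℝ, 0 ≤ c → c + δ ≤ 1 → c ≤ t0 + 1 / 2 → t0 + 1 / 2 ≤ c + δ →
        ENNReal.ofReal δ ≤ N (a + t0 • e + u) := by
      intro c hc0 hc1 hc2 hc3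
      have h4 : ∀ t ∈ Icc c (c + δ), F (t, a + t0 • e + u) = 1 := by
        intro t ht'
        apply hF1
        have e1 : a + t0 • e + u - (q + t • e) = (t0 + 1 / 2 - t) • e + u := by
          rw [hq, sub_smul, add_smul]; abel
        rw [dist_eq_norm, e1]
        calc ‖(t0 + 1 / 2 - t) • e + u‖ ≤ ‖(t0 + 1 / 2 - t) • e‖ + ‖u‖ := norm_add_le _ _
          _ ≤ δ + δ := by
              rw [norm_smul, he, mul_one, Real.norm_eq_abs]
              refine add_le_add (abs_le.2 ⟨?_, ?_⟩) hu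
              · linarith [ht'.2]
              · linarith [ht'.1]
          _ = 2 * δ := by ring
      calc ENNReal.ofReal δ = volume (Icc c (c + δ)) := by
            rw [Real.volume_Icc, add_sub_cancel_left]
        _ = ∫⁻ t in Icc c (c + δ), F (t, a + t0 • e + u) := by
            rw [setLIntegral_congr_fun measurableSet_Icc h4, setLIntegral_const, one_mul]
        _ ≤ ∫⁻ t in Icc (0 : ℝ) 1, F (t, a + t0 • e + u) :=
            lintegral_mono_set (Icc_subset_Icc hc0 hc1)
    rcases le_total t0 0 with h0 | h0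
    · exact key (t0 + 1 / 2) (by linarith) (by linarith) le_rfl (by linarith)
    · exact key (t0 + 1 / 2 - δ) (by linarith) (by linarith) (by linarith) (by linarith)
  have hT : MeasurableSet {y | ENNReal.ofReal δ ≤ N y} := measurableSet_le measurable_const hNm
  calc ENNReal.ofReal δ * ∫⁻ y in Tube.tube a e δ, f y ∂μ
      ≤ ENNReal.ofReal δ * ∫⁻ y in {y | ENNReal.ofReal δ ≤ N y}, f y ∂μ := by
        gcongr
    _ = ∫⁻ y in {y | ENNReal.ofReal δ ≤ N y}, ENNReal.ofReal δ * f y ∂μ := by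
        rw [lintegral_const_mul' _ _ ENNReal.ofReal_ne_top]
    _ ≤ ∫⁻ y in {y | ENNReal.ofReal δ ≤ N y}, N y * f y ∂μ := by
        apply setLIntegral_mono (hNm.mul hf)
        intro y hy'
        exact mul_le_mul' hy' le_rfl
    _ ≤ ∫⁻ y, N y * f y ∂μ := setLIntegral_le_lintegral _ _

end Vale.Agent.P127.Tube2
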