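import Vale.Agent.P127.Gen2
import Vale.Agent.P127.Tube2
import Vale.Agent.P127.L2

open MeasureTheory Set Metric Module
open scoped NNReal ENNReal Topology

namespace Vale.Agent.P127.Max

open Col Gen

variable {k : ℕ}

theorem meas_ball {X : Type*} [MeasurableSpace X] {G : X → V k} (hG : Measurable G) (r : ℝ)
    (f : V k → ℝ≥0∞) (hf : Measurable f) :
    Measurable (fun x : X => ∫⁻ y in closedBall (G x) r, f y) := by
  have h1 : (fun x : X => ∫⁻ y in closedBall (G x) r, f y) =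
      fun x : X => ∫⁻ y, ({p : X × V k | dist p.2 (G p.1) ≤ r}).indicator (fun p => f p.2) (x, y) := by
    funext x
    rw [← lintegral_indicator measurableSet_closedBall]
    apply lintegral_congr
    intro y
    by_cases hy : y ∈ closedBall (G x) r
    · rw [indicator_of_mem hy, indicator_of_mem]
      exact hy
    · rw [indicator_of_notMem hy, indicator_of_notMem]
      exact hy
  rw [h1]
  have hS : MeasurableSet {p : X × V k | dist p.2 (G p.1) ≤ r} :=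
    measurableSet_le (measurable_snd.dist (hG.comp measurable_fst)) measurable_const
  have h2 : Measurable (({p : X × V k | dist p.2 (G p.1) ≤ r}).indicator (fun p => f p.2)) :=
    (hf.comp measurable_snd).indicator hS
  exact h2.lintegral_prod_right'

/-- One tube. -/
theorem one_tube (b e : V k) (he : ‖e‖ = 1) (c : ℝ≥0∞)
    (hvol : ∀ (a e : V k) (δ : ℝ), ‖e‖ = 1 → 0 < δ → δ ≤ 1 / 2 →
      c * ENNReal.ofReal δ ^ (k + 1) ≤ ENNReal.ofReal δ * volume (Tube.tube a e δ))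
    (δ : ℝ) (hδ : 0 < δ) (hδ2 : δ ≤ 1 / 2) (f : V k → ℝ≥0∞) (hf : Measurable f) :
    (volume (Tube.tube b e δ))⁻¹ * ∫⁻ y in Tube.tube b e δ, f y ≤
      (c * ENNReal.ofReal δ ^ (k + 1))⁻¹ * ∫⁻ t in Icc (0 : ℝ) 1,
        (∫⁻ y in closedBall ((b - (1 / 2 : ℝ) • e) + t • e) (2 * δ), f y) := by
  have hD0 : ENNReal.ofReal δ ≠ 0 := by rw [Ne, ENNReal.ofReal_eq_zero]; linarith
  have hDt : ENNReal.ofReal δ ≠ ⊤ := ENNReal.ofReal_ne_top
  have h2 := hvol b e δ he hδ hδ2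
  have h5 := Tube2.tube_le (volume : Measure (V k)) b e δ he hδ hδ2 f hf
  generalize ENNReal.ofReal δ = D at h2 h5 hD0 hDt ⊢
  generalize volume (Tube.tube b e δ) = T at h2 ⊢
  generalize ∫⁻ y in Tube.tube b e δ, f y = J at h5 ⊢
  have h3 : T⁻¹ ≤ D * (c * D ^ (k + 1))⁻¹ := by
    have h4 := ENNReal.inv_le_inv.2 h2
    rw [ENNReal.mul_inv (Or.inl hD0) (Or.inl hDt)] at h4
    calc T⁻¹ = D * (D⁻¹ * T⁻¹) := by
          rw [← mul_assoc, ENNReal.mul_inv_cancel hD0 hDt, one_mul]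
      _ ≤ D * (c * D ^ (k + 1))⁻¹ := mul_le_mul' le_rfl h4
  calc T⁻¹ * J ≤ D * (c * D ^ (k + 1))⁻¹ * J := mul_le_mul' h3 le_rfl
    _ = (c * D ^ (k + 1))⁻¹ * (D * J) := by ring
    _ ≤ _ := mul_le_mul' le_rfl h5

theorem prod_eq (H : Sp k × ℝ → V k) (hH : Measurable H) (r : ℝ) (f : V k → ℝ≥0∞)
    (hf : Measurable f) :
    ∫⁻ e : Sp k, (∫⁻ t in Icc (0 : ℝ) 1, (∫⁻ y in closedBall (H (e, t)) r, f y))
      ∂((volume : Measure (V k)).toSphere) =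
      ∫⁻ x, (∫⁻ y in closedBall (H x) r, f y) ∂(mm univ) := by
  unfold mm
  rw [Measure.restrict_univ]
  exact (lintegral_prod _ (meas_ball hH r f hf).aemeasurable).symm

/-- One scale, one matrix, given the energy. -/
theorem one_scale (b : Sp k → V k) (H : Sp k × ℝ → V k) (hH : Measurable H)
    (hbH : ∀ (e : Sp k) (t : ℝ), (b e - (1 / 2 : ℝ) • (e : V k)) + t • (e : V k) = H (e, t))
    (s : ℝ) (hs : 0 < s) (c : ℝ≥0∞) (hc : c ≠ 0)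
    (hvol : ∀ (a e : V k) (δ : ℝ), ‖e‖ = 1 → 0 < δ → δ ≤ 1 / 2 →
      c * ENNReal.ofReal δ ^ (k + 1) ≤ ENNReal.ofReal δ * volume (Tube.tube a e δ))
    (δ : ℝ) (hδ : 0 < δ) (hδ2 : δ ≤ 1 / 2) (f : V k → ℝ≥0∞) (hf : Measurable f) :
    ∫⁻ e : Sp k, ((volume (Tube.tube (b e) (e : V k) δ))⁻¹ *
      ∫⁻ y in Tube.tube (b e) (e : V k) δ, f y) ∂((volume : Measure (V k)).toSphere) ≤
      (c * ENNReal.ofReal δ ^ (k + 1))⁻¹ * ((∫⁻ y, f y ^ (2 : ℝ)) ^ (1 / 2 : ℝ) *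
        (volume (closedBall (0 : V k) (2 * δ)) * (ENNReal.ofReal (4 * δ) ^ s *
          ∫⁻ x, ∫⁻ y, ‖H x - H y‖ₑ ^ (-s) ∂(mm univ) ∂(mm univ))) ^ (1 / 2 : ℝ)) := by
  have hD0 : ENNReal.ofReal δ ≠ 0 := by rw [Ne, ENNReal.ofReal_eq_zero]; linarith
  have hcD : (c * ENNReal.ofReal δ ^ (k + 1))⁻¹ ≠ ⊤ := by
    rw [ENNReal.inv_ne_top]
    exact mul_ne_zero hc (pow_ne_zero _ hD0)
  have h1 : ∀ e : Sp k, ((volume (Tube.tube (b e) (e : V k) δ))⁻¹ *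
      ∫⁻ y in Tube.tube (b e) (e : V k) δ, f y) ≤
      (c * ENNReal.ofReal δ ^ (k + 1))⁻¹ * ∫⁻ t in Icc (0 : ℝ) 1,
        (∫⁻ y in closedBall (H (e, t)) (2 * δ), f y) := by
    intro e
    refine (one_tube (b e) (e : V k) (norm_eq_of_mem_sphere e) c hvol δ hδ hδ2 f hf).trans
      (le_of_eq ?_)
    congr 1
    apply lintegral_congr
    intro t
    rw [hbH e t]
  have h2 := L2.l2_bound (mm univ) (volume : Measure (V k)) H hH s hs δ hδ f hf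
  refine (lintegral_mono h1).trans ?_
  rw [lintegral_const_mul' _ _ hcD, prod_eq H hH (2 * δ) f hf]
  exact mul_le_mul' le_rfl h2

/-- The powers of `δ`. -/
theorem powers (n : ℕ) (s eps : ℝ) (hse : -eps ≤ (s - n) / 2) (δ : ℝ) (hδ : 0 < δ)
    (hδ2 : δ ≤ 1 / 2) (c B I F : ℝ≥0∞) (hc : c ≠ 0) :
    (c * ENNReal.ofReal δ ^ n)⁻¹ * (F * ((ENNReal.ofReal ((2 * δ) ^ n) * B) *
      (ENNReal.ofReal (4 * δ) ^ s * I)) ^ (1 / 2 : ℝ)) ≤
      (c⁻¹ * (ENNReal.ofReal (2 ^ n) * B * (ENNReal.ofReal 4 ^ s * I)) ^ (1 / 2 : ℝ)) *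
        ENNReal.ofReal δ ^ (-eps) * F := by
  set D : ℝ≥0∞ := ENNReal.ofReal δ with hD
  have hD0 : D ≠ 0 := by rw [hD, Ne, ENNReal.ofReal_eq_zero]; linarith
  have hDt : D ≠ ⊤ := ENNReal.ofReal_ne_top
  have hD1 : D ≤ 1 := by
    rw [hD, ← ENNReal.ofReal_one]; exact ENNReal.ofReal_le_ofReal (by linarith)
  have h1 : ENNReal.ofReal ((2 * δ) ^ n) = ENNReal.ofReal (2 ^ n) * D ^ (n : ℝ) := by
    rw [mul_pow, ENNReal.ofReal_mul (by positivity), ENNReal.ofReal_pow hδ.le,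
      ENNReal.rpow_natCast]
  have h2 : ENNReal.ofReal (4 * δ) ^ s = ENNReal.ofReal 4 ^ s * D ^ s := by
    rw [ENNReal.ofReal_mul (by norm_num), ENNReal.mul_rpow_of_ne_top ENNReal.ofReal_ne_top hDt]
  have h3 : (c * D ^ n)⁻¹ = c⁻¹ * D ^ (-(n : ℝ)) := by
    rw [ENNReal.mul_inv (Or.inl hc) (Or.inr (pow_ne_zero _ hD0)), ENNReal.rpow_neg,
      ENNReal.rpow_natCast]
  have h4 : ((ENNReal.ofReal (2 ^ n) * D ^ (n : ℝ) * B) * (ENNReal.ofReal 4 ^ s * D ^ s * I)) ^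
      (1 / 2 : ℝ) = (ENNReal.ofReal (2 ^ n) * B * (ENNReal.ofReal 4 ^ s * I)) ^ (1 / 2 : ℝ) *
        D ^ (((n : ℝ) + s) / 2) := by
    have h5 : (ENNReal.ofReal (2 ^ n) * D ^ (n : ℝ) * B) * (ENNReal.ofReal 4 ^ s * D ^ s * I) =
        (ENNReal.ofReal (2 ^ n) * B * (ENNReal.ofReal 4 ^ s * I)) * (D ^ ((n : ℝ) + s)) := by
      rw [ENNReal.rpow_add _ _ hD0 hDt]; ring
    rw [h5, ENNReal.mul_rpow_of_nonneg _ _ (by norm_num), ← ENNReal.rpow_mul]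
    congr 2; ring
  rw [h1, h2, h3, h4]
  calc c⁻¹ * D ^ (-(n : ℝ)) * (F * ((ENNReal.ofReal (2 ^ n) * B * (ENNReal.ofReal 4 ^ s * I)) ^
        (1 / 2 : ℝ) * D ^ (((n : ℝ) + s) / 2)))
      = (c⁻¹ * (ENNReal.ofReal (2 ^ n) * B * (ENNReal.ofReal 4 ^ s * I)) ^ (1 / 2 : ℝ)) *
        (D ^ (-(n : ℝ)) * D ^ (((n : ℝ) + s) / 2)) * F := by ring
    _ = (c⁻¹ * (ENNReal.ofReal (2 ^ n) * B * (ENNReal.ofReal 4 ^ s * I)) ^ (1 / 2 : ℝ)) *
        D ^ ((s - n) / 2) * F := by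
        rw [← ENNReal.rpow_add _ _ hD0 hDt]
        congr 3; ring
    _ ≤ _ := mul_le_mul' (mul_le_mul' le_rfl
        (ENNReal.rpow_le_rpow_of_exponent_ge hD1 hse)) le_rfl

theorem meas_G (a : Sp k → V k) (ha : Measurable a) (θ : Fin (k + 1) → V k) :
    Measurable (G a θ) :=
  (measurable_G2 ha).comp (measurable_const.prodMk measurable_id)

theorem center_eq (a a' : Sp k → V k) (haa : ∀ e, a' e = a e - (1 / 2 : ℝ) • (e : V k))
    (θ : Fin (k + 1) → V k) (e : Sp k) (t : ℝ) :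
    (a e + lin θ (e : V k) - (1 / 2 : ℝ) • (e : V k)) + t • (e : V k) = G a' θ (e, t) := by
  unfold G
  rw [haa]
  abel

/-- The maximal estimate for almost every matrix. -/
theorem ae_max (hk : 1 ≤ k) (a : Sp k → V k) (ha : Measurable a) :
    ∀ᵐ θ : Fin (k + 1) → V k ∂volume, ∀ eps : ℝ, 0 < eps → ∃ C : ℝ≥0∞, C ≠ ⊤ ∧
      ∀ δ : ℝ, 0 < δ → δ ≤ 1 / 2 → ∀ f : V k → ℝ≥0∞, Measurable f →
        ∫⁻ e : Sp k, ((volume (Tube.tube (a e + lin θ (e : V k)) (e : V k) δ))⁻¹ *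
          ∫⁻ y in Tube.tube (a e + lin θ (e : V k)) (e : V k) δ, f y)
            ∂((volume : Measure (V k)).toSphere) ≤
          C * ENNReal.ofReal δ ^ (-eps) * (∫⁻ y, f y ^ (2 : ℝ)) ^ (1 / 2 : ℝ) := by
  have hk' : (0 : ℝ) < k := by exact_mod_cast hk
  have hc0 : ∀ i : ℕ, (0 : ℝ) < 1 - 1 / ((i : ℝ) + 2) := by
    intro i
    have : (1 : ℝ) / ((i : ℝ) + 2) < 1 := by
      rw [div_lt_one (by positivity)]
      have : (0 : ℝ) ≤ i := Nat.cast_nonneg i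
      linarith
    linarith
  obtain ⟨a', haa, ha'm⟩ : ∃ a' : Sp k → V k, (∀ e, a' e = a e - (1 / 2 : ℝ) • (e : V k)) ∧
      Measurable a' :=
    ⟨fun e : Sp k => a e - (1 / 2 : ℝ) • (e : V k), fun _ => rfl,
      ha.sub (measurable_subtype_coe.const_smul (1 / 2 : ℝ))⟩
  have key : ∀ i : ℕ, ∀ᵐ θ : Fin (k + 1) → V k ∂volume,
      ∫⁻ x, ∫⁻ y, ‖G a' θ x - G a' θ y‖ₑ ^ (-(((1 - 1 / ((i : ℝ) + 2))) +
        ((k : ℝ) * (1 - 1 / ((i : ℝ) + 2))))) ∂(mm univ) ∂(mm univ) ≠ ⊤ := by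
    intro i
    have hc1 : 1 - 1 / ((i : ℝ) + 2) < (1 : ℝ) := by
      have : (0 : ℝ) < 1 / ((i : ℝ) + 2) := by positivity
      linarith
    have := hc0 i
    exact Gen2.ae_energy a' ha'm (1 - 1 / ((i : ℝ) + 2)) ((k : ℝ) * (1 - 1 / ((i : ℝ) + 2)))
      (hc0 i) hc1 (by positivity) (by nlinarith)
  obtain ⟨c, hc, hvol⟩ := Tube.vol_tube (volume : Measure (V k))
  have hfr : finrank ℝ (V k) = k + 1 := by simp
  rw [hfr] at hvol
  filter_upwards [ae_all_iff.2 key] with θ hθ eps heps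
  obtain ⟨i, hi⟩ := exists_nat_gt (((k : ℝ) + 1) / (2 * eps))
  set s : ℝ := ((1 - 1 / ((i : ℝ) + 2))) + ((k : ℝ) * (1 - 1 / ((i : ℝ) + 2))) with hs
  have hs0 : 0 < s := by
    have := hc0 i
    positivity
  have hse : -eps ≤ (s - ((k + 1 : ℕ) : ℝ)) / 2 := by
    have h1 : s - ((k + 1 : ℕ) : ℝ) = -(((k : ℝ) + 1) / ((i : ℝ) + 2)) := by
      rw [hs]; push_cast; ring
    rw [h1]
    have h2 : ((k : ℝ) + 1) / ((i : ℝ) + 2) ≤ 2 * eps := by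
      rw [div_le_iff₀ (by positivity)]
      rw [div_lt_iff₀ (by positivity)] at hi
      nlinarith
    linarith
  set I : ℝ≥0∞ := ∫⁻ x, ∫⁻ y, ‖G a' θ x - G a' θ y‖ₑ ^ (-s) ∂(mm univ) ∂(mm univ) with hI
  have hIt : I ≠ ⊤ := hθ i
  set B : ℝ≥0∞ := volume (ball (0 : V k) 1) with hB
  have hBt : B ≠ ⊤ := measure_ball_lt_top.ne
  refine ⟨c⁻¹ * (ENNReal.ofReal (2 ^ (k + 1)) * B * (ENNReal.ofReal 4 ^ s * I)) ^ (1 / 2 : ℝ),
    ?_, ?_⟩
  · apply ENNReal.mul_ne_top (ENNReal.inv_ne_top.2 hc)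
    apply ENNReal.rpow_ne_top_of_nonneg (by norm_num)
    exact ENNReal.mul_ne_top (ENNReal.mul_ne_top ENNReal.ofReal_ne_top hBt)
      (ENNReal.mul_ne_top (ENNReal.rpow_ne_top_of_nonneg hs0.le ENNReal.ofReal_ne_top) hIt)
  · intro δ hδ hδ2 f hf
    have h1 := one_scale (fun e => a e + lin θ (e : V k)) (G a' θ) (meas_G a' ha'm θ)
      (center_eq a a' haa θ) s hs0 c hc hvol δ hδ hδ2 f hf
    have h2 : volume (closedBall (0 : V k) (2 * δ)) = ENNReal.ofReal ((2 * δ) ^ (k + 1)) * B := by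
      rw [Measure.addHaar_closedBall _ _ (by positivity), hfr]
    rw [h2] at h1
    exact h1.trans (powers (k + 1) s eps hse δ hδ hδ2 c B I _ hc)

end Vale.Agent.P127.Max
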