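import Vale.Agent.P127.Hom

open MeasureTheory Set Metric Module
open scoped NNReal ENNReal Topology Pointwise

namespace Vale.Agent.P127.Ray

variable {E : Type*} [NormedAddCommGroup E] [InnerProductSpace ℝ E] [FiniteDimensional ℝ E]
  [MeasurableSpace E] [BorelSpace E]

/-- The map `x ↦ b (x / |x|) + x` pulls null sets back to null sets. -/
theorem cone_null (μ : Measure E) [μ.IsAddHaarMeasure] {b : E → E} {C : ℝ≥0}
    (hb : LipschitzWith C b) {N : Set E} (hN : μ N = 0) :
    μ {x : E | x ≠ 0 ∧ b (‖x‖⁻¹ • x) + x ∈ N} = 0 := by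
  set g : E → E := fun y : E => b (‖y‖⁻¹ • y) with hg
  have hhom : ∀ (t : ℝ) (x : E), 0 < t → g (t • x) = g x := by
    intro t x ht
    simp only [hg]
    rw [norm_smul, Real.norm_eq_abs, abs_of_pos ht, smul_smul]
    congr 2
    field_simp
  have h1 := Hom.ae_diff μ hb
  have h2 := Hom.bad_null μ hhom
  set T : Set E := {x | (DifferentiableAt ℝ g x ∧ ((1 : E →L[ℝ] E) + fderiv ℝ g x).det ≠ 0) ∧
    g x + x ∈ N} with hT
  have h3 : μ T = 0 := by
    by_contra hcon
    apply Hom.image_ne_zero μ (fun x => g x + x) (fun x => (1 : E →L[ℝ] E) + fderiv ℝ g x) T hcon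
    · intro x hx
      have h4 : HasFDerivAt (fun x => g x + x) (fderiv ℝ g x + ContinuousLinearMap.id ℝ E) x :=
        hx.1.1.hasFDerivAt.add (hasFDerivAt_id x)
      have h5 : (1 : E →L[ℝ] E) + fderiv ℝ g x = fderiv ℝ g x + ContinuousLinearMap.id ℝ E := by
        rw [add_comm]; rfl
      rw [h5]
      exact h4.hasFDerivWithinAt
    · intro x hx
      exact hx.1.2
    · refine measure_mono_null ?_ hN
      rintro _ ⟨x, hx, rfl⟩
      exact hx.2
  have h6 : {x : E | x ≠ 0 ∧ b (‖x‖⁻¹ • x) + x ∈ N} ⊆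
      {x | ¬ (x ≠ 0 → DifferentiableAt ℝ g x)} ∪
      ({y | DifferentiableAt ℝ g y ∧ ((1 : E →L[ℝ] E) + fderiv ℝ g y).det = 0} ∪ T) := by
    rintro x ⟨hx0, hx⟩
    by_cases hd : DifferentiableAt ℝ g x
    · right
      by_cases hdet : ((1 : E →L[ℝ] E) + fderiv ℝ g x).det = 0
      · left; exact ⟨hd, hdet⟩
      · right; exact ⟨⟨hd, hdet⟩, hx⟩
    · left
      intro h
      exact hd (h hx0)
  exact measure_mono_null h6 (measure_union_null h1 (measure_union_null h2 h3))

/-- Almost every open ray `{b e + r e : r > 0}` meets a null set in a null set. -/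
theorem ray_null (μ : Measure E) [μ.IsAddHaarMeasure] {b : E → E} {C : ℝ≥0}
    (hb : LipschitzWith C b) {N : Set E} (hN : μ N = 0) :
    ∀ᵐ e : sphere (0 : E) 1 ∂μ.toSphere,
      (volume : Measure ℝ) {r : ℝ | 0 < r ∧ b e + r • (e : E) ∈ N} = 0 := by
  have h0 := cone_null μ hb hN
  obtain ⟨N', hN', hN'm, hN'0⟩ := exists_measurable_superset_of_null hN
  have h0' := cone_null μ hb hN'0
  have hmp := μ.measurePreserving_homeomorphUnitSphereProd
  let S : Set (sphere (0 : E) 1 × Ioi (0 : ℝ)) := {p | b p.1 + (p.2 : ℝ) • (p.1 : E) ∈ N'}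
  have hS : MeasurableSet S := by
    have hm : Measurable (fun p : sphere (0 : E) 1 × Ioi (0 : ℝ) =>
        b p.1 + (p.2 : ℝ) • (p.1 : E)) := by
      apply Measurable.add
      · exact hb.continuous.measurable.comp (measurable_subtype_coe.comp measurable_fst)
      · exact (measurable_subtype_coe.comp measurable_snd).smul
          (measurable_subtype_coe.comp measurable_fst)
    exact hm hN'm
  have h1 : (μ.toSphere.prod (Measure.volumeIoiPow (finrank ℝ E - 1))) S = 0 := by
    rw [← hmp.measure_preimage hS.nullMeasurableSet,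
      comap_subtype_coe_apply (measurableSet_singleton _).compl]
    refine measure_mono_null ?_ h0'
    rintro _ ⟨x, hx, rfl⟩
    refine ⟨x.2, ?_⟩
    have hx' : b ((homeomorphUnitSphereProd E x).1) + ((homeomorphUnitSphereProd E x).2 : ℝ) •
        ((homeomorphUnitSphereProd E x).1 : E) ∈ N' := hx
    rw [homeomorphUnitSphereProd_apply_fst_coe, homeomorphUnitSphereProd_apply_snd_coe] at hx'
    have hne : ‖(x : E)‖ ≠ 0 := norm_ne_zero_iff.2 x.2
    rwa [smul_smul, mul_inv_cancel₀ hne, one_smul] at hx'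
  rw [Measure.measure_prod_null hS] at h1
  filter_upwards [h1] with e he
  have h2 : (Measure.comap Subtype.val (volume : Measure ℝ)) (Prod.mk e ⁻¹' S) = 0 := by
    have hac : (Measure.comap Subtype.val (volume : Measure ℝ) : Measure (Ioi (0 : ℝ))) ≪
        Measure.volumeIoiPow (finrank ℝ E - 1) := by
      apply withDensity_absolutelyContinuous'
      · apply Measurable.aemeasurable
        exact (measurable_subtype_coe.pow_const _).ennreal_ofReal
      · filter_upwards with r
        have : 0 < (r.1 : ℝ) ^ (finrank ℝ E - 1) := pow_pos r.2 _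
        simp [this]
    exact hac he
  rw [comap_subtype_coe_apply measurableSet_Ioi] at h2
  refine measure_mono_null ?_ h2
  rintro r ⟨hr, hrN⟩
  exact ⟨⟨r, hr⟩, hN' hrN, rfl⟩

/-- Almost every line `{b e + r e}` meets a null set in a null set. -/
theorem line_null (μ : Measure E) [μ.IsAddHaarMeasure] {b : E → E} {C : ℝ≥0}
    (hb : LipschitzWith C b) {N : Set E} (hN : μ N = 0) :
    ∀ᵐ e : sphere (0 : E) 1 ∂μ.toSphere,
      (volume : Measure ℝ) {r : ℝ | b e + r • (e : E) ∈ N} = 0 := by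
  have h : ∀ k : ℕ, ∀ᵐ e : sphere (0 : E) 1 ∂μ.toSphere,
      (volume : Measure ℝ) {r : ℝ | 0 < r ∧ (b e - (k : ℝ) • (e : E)) + r • (e : E) ∈ N} = 0 := by
    intro k
    have hb' : LipschitzWith (C + ‖(k : ℝ)‖₊) (fun x : E => b x - (k : ℝ) • x) := by
      apply LipschitzWith.sub hb
      exact lipschitzWith_smul (k : ℝ)
    exact ray_null μ hb' hN
  filter_upwards [ae_all_iff.2 h] with e he
  have hsub : {r : ℝ | b e + r • (e : E) ∈ N} ⊆ ⋃ k : ℕ, (fun r : ℝ => r + k) ⁻¹'
      {r : ℝ | 0 < r ∧ (b e - (k : ℝ) • (e : E)) + r • (e : E) ∈ N} := by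
    intro r hr
    obtain ⟨k, hk⟩ := exists_nat_gt (-r)
    refine mem_iUnion.2 ⟨k, ?_, ?_⟩
    · show 0 < r + k
      linarith
    · show (b e - (k : ℝ) • (e : E)) + (r + k) • (e : E) ∈ N
      have : (b e - (k : ℝ) • (e : E)) + (r + k) • (e : E) = b e + r • (e : E) := by
        rw [add_smul]; abel
      rw [this]
      exact hr
  refine measure_mono_null hsub (measure_iUnion_null fun k => ?_)
  rw [measure_preimage_add_right]
  exact he k

/-- The version for a map on the sphere which is Lipschitz on countably many arbitrary sets. -/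
theorem sigma_null (μ : Measure E) [μ.IsAddHaarMeasure] (a : sphere (0 : E) 1 → E)
    (D : ℕ → Set (sphere (0 : E) 1)) (hL : ∀ i, ∃ C : ℝ≥0, LipschitzOnWith C a (D i))
    {N : Set E} (hN : μ N = 0) :
    ∀ᵐ e : sphere (0 : E) 1 ∂μ.toSphere, e ∈ ⋃ i, D i →
      (volume : Measure ℝ) {r : ℝ | a e + r • (e : E) ∈ N} = 0 := by
  have h : ∀ i, ∀ᵐ e : sphere (0 : E) 1 ∂μ.toSphere, e ∈ D i →
      (volume : Measure ℝ) {r : ℝ | a e + r • (e : E) ∈ N} = 0 := by
    intro i
    obtain ⟨C, hC⟩ := hL i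
    classical
    let f0 : E → E := fun x => if h : x ∈ sphere (0 : E) 1 then a ⟨x, h⟩ else 0
    have hf0 : ∀ e : sphere (0 : E) 1, f0 e = a e := by
      intro e
      simp only [f0]
      rw [dif_pos e.2]
    have hl : LipschitzOnWith C f0 (Subtype.val '' D i) := by
      rintro _ ⟨x, hx, rfl⟩ _ ⟨y, hy, rfl⟩
      rw [hf0, hf0]
      exact hC hx hy
    obtain ⟨b, hb, hbe⟩ := hl.extend_finite_dimension
    filter_upwards [line_null μ hb hN] with e he heD
    have : b e = a e := by rw [← hbe ⟨e, heD, rfl⟩, hf0]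
    rwa [this] at he
  filter_upwards [ae_all_iff.2 h] with e he heD
  obtain ⟨i, hi⟩ := mem_iUnion.1 heD
  exact he i hi

end Vale.Agent.P127.Ray
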