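import Vale.Agent.P127.Max

open MeasureTheory Set Metric Module
open scoped NNReal ENNReal Topology

namespace Vale.Agent.P127.Schur

open Col Gen

variable {k : ℕ}

/-- A weighted form of the energy. -/
theorem weighted {X : Type*} [MeasurableSpace X] (m : Measure X) [SFinite m] (q : X → X → ℝ≥0∞)
    (hq : Measurable (fun p : X × X => q p.1 p.2)) (hsymm : ∀ x y, q x y = q y x)
    (w : X → ℝ≥0∞) (hw : Measurable w) :
    ∫⁻ x, ∫⁻ y, w x * w y * q x y ∂m ∂m ≤ ∫⁻ x, w x ^ (2 : ℕ) * ∫⁻ y, q x y ∂m ∂m := by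
  have hpt : ∀ x y, w x * w y * q x y ≤
      2⁻¹ * (w x ^ (2 : ℕ) * q x y) + 2⁻¹ * (w y ^ (2 : ℕ) * q x y) := by
    intro x y
    have h1 : w x * w y ≤ 2⁻¹ * (w x ^ (2 : ℕ)) + 2⁻¹ * (w y ^ (2 : ℕ)) := by
      have h2 : 2 * (w x * w y) ≤ w x ^ (2 : ℕ) + w y ^ (2 : ℕ) := by
        rcases le_total (w x) (w y) with h | h
        · obtain ⟨d, hd⟩ := exists_add_of_le h
          rw [hd]
          calc 2 * (w x * (w x + d)) ≤ 2 * (w x * (w x + d)) + d * d := le_self_add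
            _ = w x ^ 2 + (w x + d) ^ 2 := by ring
        · obtain ⟨d, hd⟩ := exists_add_of_le h
          rw [hd]
          calc 2 * ((w y + d) * w y) ≤ 2 * ((w y + d) * w y) + d * d := le_self_add
            _ = (w y + d) ^ 2 + w y ^ 2 := by ring
      calc w x * w y = 2⁻¹ * (2 * (w x * w y)) := by
            rw [← mul_assoc, ENNReal.inv_mul_cancel (by norm_num) (by norm_num), one_mul]
        _ ≤ 2⁻¹ * (w x ^ (2 : ℕ) + w y ^ (2 : ℕ)) := mul_le_mul' le_rfl h2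
        _ = _ := by rw [mul_add]
    calc w x * w y * q x y ≤ (2⁻¹ * (w x ^ (2 : ℕ)) + 2⁻¹ * (w y ^ (2 : ℕ))) * q x y :=
          mul_le_mul' h1 le_rfl
      _ = _ := by ring
  have hA : Measurable (fun p : X × X => w p.1 ^ (2 : ℕ) * q p.1 p.2) :=
    ((hw.comp measurable_fst).pow_const 2).mul hq
  have hB : Measurable (fun p : X × X => w p.2 ^ (2 : ℕ) * q p.1 p.2) :=
    ((hw.comp measurable_snd).pow_const 2).mul hq
  have hAx : ∀ x, Measurable (fun y => w x ^ (2 : ℕ) * q x y) := fun x =>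
    hA.comp (measurable_const.prodMk measurable_id)
  have hBx : ∀ x, Measurable (fun y => w y ^ (2 : ℕ) * q x y) := fun x =>
    hB.comp (measurable_const.prodMk measurable_id)
  have hAI : ∫⁻ x, ∫⁻ y, w x ^ (2 : ℕ) * q x y ∂m ∂m =
      ∫⁻ x, w x ^ (2 : ℕ) * ∫⁻ y, q x y ∂m ∂m := by
    apply lintegral_congr
    intro x
    have hqx : Measurable (fun y => q x y) := hq.comp (measurable_const.prodMk measurable_id)
    rw [lintegral_const_mul _ hqx]
  have hBI : ∫⁻ x, ∫⁻ y, w y ^ (2 : ℕ) * q x y ∂m ∂m = ∫⁻ x, ∫⁻ y, w x ^ (2 : ℕ) * q x y ∂m ∂m := by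
    rw [lintegral_lintegral_swap (f := fun x y => w y ^ (2 : ℕ) * q x y) hB.aemeasurable]
    apply lintegral_congr
    intro x
    apply lintegral_congr
    intro y
    rw [hsymm]
  calc ∫⁻ x, ∫⁻ y, w x * w y * q x y ∂m ∂m
      ≤ ∫⁻ x, ∫⁻ y, (2⁻¹ * (w x ^ (2 : ℕ) * q x y) + 2⁻¹ * (w y ^ (2 : ℕ) * q x y)) ∂m ∂m :=
        lintegral_mono fun x => lintegral_mono fun y => hpt x y
    _ = ∫⁻ x, (2⁻¹ * ∫⁻ y, w x ^ (2 : ℕ) * q x y ∂m + 2⁻¹ * ∫⁻ y, w y ^ (2 : ℕ) * q x y ∂m) ∂m := by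
        apply lintegral_congr
        intro x
        rw [lintegral_add_left ((hAx x).const_mul _), lintegral_const_mul _ (hAx x),
          lintegral_const_mul _ (hBx x)]
    _ = 2⁻¹ * ∫⁻ x, ∫⁻ y, w x ^ (2 : ℕ) * q x y ∂m ∂m +
        2⁻¹ * ∫⁻ x, ∫⁻ y, w y ^ (2 : ℕ) * q x y ∂m ∂m := by
        have hm1 : Measurable (fun x => ∫⁻ y, w x ^ (2 : ℕ) * q x y ∂m) := hA.lintegral_prod_right'
        have hm2 : Measurable (fun x => ∫⁻ y, w y ^ (2 : ℕ) * q x y ∂m) := hB.lintegral_prod_right'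
        rw [lintegral_add_left (hm1.const_mul _), lintegral_const_mul _ hm1,
          lintegral_const_mul _ hm2]
    _ = ∫⁻ x, w x ^ (2 : ℕ) * ∫⁻ y, q x y ∂m ∂m := by
        rw [hBI, hAI, ← add_mul, ENNReal.inv_two_add_inv_two, one_mul]

/-- Absorption. -/
theorem absorb (J F X : ℝ≥0∞) (hJ : J ≠ ⊤) (h : J ≤ F ^ (1 / 2 : ℝ) * (X * J) ^ (1 / 2 : ℝ)) :
    J ≤ F * X := by
  by_cases hJ0 : J = 0
  · rw [hJ0]; exact zero_le
  have h1 : J * J ≤ (F * X) * J := by
    calc J * J ≤ (F ^ (1 / 2 : ℝ) * (X * J) ^ (1 / 2 : ℝ)) * (F ^ (1 / 2 : ℝ) *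
          (X * J) ^ (1 / 2 : ℝ)) := mul_le_mul' h h
      _ = (F ^ (1 / 2 : ℝ) * F ^ (1 / 2 : ℝ)) * ((X * J) ^ (1 / 2 : ℝ) *
          (X * J) ^ (1 / 2 : ℝ)) := by ring
      _ = F * (X * J) := by
          rw [← ENNReal.rpow_add_of_nonneg _ _ (by norm_num) (by norm_num),
            ← ENNReal.rpow_add_of_nonneg _ _ (by norm_num) (by norm_num)]
          norm_num
      _ = (F * X) * J := by ring
  exact (ENNReal.mul_le_mul_iff_left hJ0 hJ).1 h1

variable {S' : Type*} [MeasurableSpace S']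

theorem meas_ball2 {X : Type*} [MeasurableSpace X] {G : X → V k} (hG : Measurable G) (r : ℝ)
    (f : V k → ℝ≥0∞) (hf : Measurable f) :
    Measurable (fun x : X => ∫⁻ y in closedBall (G x) r, f y) := Max.meas_ball hG r f hf

theorem Fb_le (z : V k) (r : ℝ) (f : V k → ℝ≥0∞) :
    ∫⁻ y in closedBall z r, f y ≤ volume (closedBall (0 : V k) r) + ∫⁻ y, f y ^ (2 : ℝ) := by
  calc ∫⁻ y in closedBall z r, f y ≤ ∫⁻ y in closedBall z r, (1 + f y ^ (2 : ℝ)) := by
        apply lintegral_mono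
        intro y
        rcases le_total (f y) 1 with h | h
        · exact h.trans le_self_add
        · calc f y = f y ^ (1 : ℝ) := (ENNReal.rpow_one _).symm
            _ ≤ f y ^ (2 : ℝ) := ENNReal.rpow_le_rpow_of_exponent_le h (by norm_num)
            _ ≤ _ := le_add_self
    _ = volume (closedBall z r) + ∫⁻ y in closedBall z r, f y ^ (2 : ℝ) := by
        rw [lintegral_add_left measurable_const]
        simp
    _ ≤ volume (closedBall (0 : V k) r) + ∫⁻ y, f y ^ (2 : ℝ) := by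
        rw [Measure.addHaar_closedBall_center]
        gcongr
        exact Measure.restrict_le_self

/-- `J` as an integral with weight. -/
theorem J_eq (σ : Measure S') [IsFiniteMeasure σ] (τ : Measure ℝ) [IsFiniteMeasure τ]
    (F : S' × ℝ → ℝ≥0∞) (hF : Measurable F) (g : S' → ℝ≥0∞) (hg : Measurable g)
    (hgF : ∀ e, g e = ∫⁻ t, F (e, t) ∂τ) (D : Set S') (hD : MeasurableSet D) :
    ∫⁻ x, F x ∂((σ.prod τ).withDensity fun x => D.indicator g x.1) =
      ∫⁻ e in D, g e ^ (2 : ℕ) ∂σ := by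
  have hw : Measurable (fun x : S' × ℝ => D.indicator g x.1) :=
    (hg.indicator hD).comp measurable_fst
  rw [lintegral_withDensity_eq_lintegral_mul _ hw hF,
    lintegral_prod _ (hw.mul hF).aemeasurable, ← lintegral_indicator hD]
  apply lintegral_congr
  intro e
  show ∫⁻ t, D.indicator g e * F (e, t) ∂τ = _
  have hFe : Measurable (fun t : ℝ => F (e, t)) := hF.comp (measurable_const.prodMk measurable_id)
  rw [lintegral_const_mul _ hFe, ← hgF]
  by_cases he : e ∈ D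
  · rw [indicator_of_mem he, indicator_of_mem he, sq]
  · rw [indicator_of_notMem he, indicator_of_notMem he, zero_mul]

/-- The weighted energy. -/
theorem en_le (σ : Measure S') [IsFiniteMeasure σ] (τ : Measure ℝ) [IsFiniteMeasure τ]
    (q : S' × ℝ → S' × ℝ → ℝ≥0∞) (hq : Measurable (fun p : (S' × ℝ) × (S' × ℝ) => q p.1 p.2))
    (hsymm : ∀ x y, q x y = q y x) (g : S' → ℝ≥0∞) (hg : Measurable g) (D : Set S')
    (hD : MeasurableSet D) (M : ℝ≥0∞)
    (hM : ∀ e ∈ D, ∫⁻ t, (∫⁻ y, q (e, t) y ∂(σ.prod τ)) ∂τ ≤ M) :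
    ∫⁻ x, ∫⁻ y, q x y ∂((σ.prod τ).withDensity fun x => D.indicator g x.1)
      ∂((σ.prod τ).withDensity fun x => D.indicator g x.1) ≤
      M * ∫⁻ e in D, g e ^ (2 : ℕ) ∂σ := by
  have hw : Measurable (fun x : S' × ℝ => D.indicator g x.1) :=
    (hg.indicator hD).comp measurable_fst
  have hqx : ∀ x, Measurable (fun y => q x y) := fun x =>
    hq.comp (measurable_const.prodMk measurable_id)
  have hphi : Measurable (fun x => ∫⁻ y, q x y ∂(σ.prod τ)) := hq.lintegral_prod_right'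
  have hwq : Measurable (fun p : (S' × ℝ) × (S' × ℝ) => D.indicator g p.2.1 * q p.1 p.2) :=
    (hw.comp measurable_snd).mul hq
  have hm1 : Measurable (fun x => ∫⁻ y, D.indicator g y.1 * q x y ∂(σ.prod τ)) :=
    hwq.lintegral_prod_right'
  have h1 : ∀ x, ∫⁻ y, q x y ∂((σ.prod τ).withDensity fun x => D.indicator g x.1) =
      ∫⁻ y, D.indicator g y.1 * q x y ∂(σ.prod τ) := fun x =>
    lintegral_withDensity_eq_lintegral_mul _ hw (hqx x)
  rw [lintegral_congr h1, lintegral_withDensity_eq_lintegral_mul _ hw hm1]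
  have h2 : ∀ x : S' × ℝ, ((fun x : S' × ℝ => D.indicator g x.1) *
      fun x => ∫⁻ y, D.indicator g y.1 * q x y ∂(σ.prod τ)) x =
      ∫⁻ y, D.indicator g x.1 * D.indicator g y.1 * q x y ∂(σ.prod τ) := by
    intro x
    show D.indicator g x.1 * ∫⁻ y, D.indicator g y.1 * q x y ∂(σ.prod τ) = _
    have hwqx : Measurable (fun y : S' × ℝ => D.indicator g y.1 * q x y) := hw.mul (hqx x)
    rw [← lintegral_const_mul _ hwqx]
    apply lintegral_congr
    intro y
    rw [mul_assoc]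
  rw [lintegral_congr h2]
  refine (weighted (σ.prod τ) q hq hsymm (fun x => D.indicator g x.1) hw).trans ?_
  have hW2 : Measurable (fun x : S' × ℝ => D.indicator g x.1 ^ (2 : ℕ) *
      ∫⁻ y, q x y ∂(σ.prod τ)) := (hw.pow_const 2).mul hphi
  rw [lintegral_prod _ hW2.aemeasurable, ← lintegral_indicator hD,
    ← lintegral_const_mul _ ((hg.pow_const 2).indicator hD)]
  apply lintegral_mono
  intro e
  show ∫⁻ t, (D.indicator g e) ^ (2 : ℕ) * (∫⁻ y, q (e, t) y ∂(σ.prod τ)) ∂τ ≤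
    M * D.indicator (fun x => g x ^ (2 : ℕ)) e
  have hpe : Measurable (fun t : ℝ => ∫⁻ y, q (e, t) y ∂(σ.prod τ)) :=
    hphi.comp (measurable_const.prodMk measurable_id)
  rw [lintegral_const_mul _ hpe]
  by_cases he : e ∈ D
  · rw [indicator_of_mem he, indicator_of_mem he, mul_comm]
    exact mul_le_mul' (hM e he) le_rfl
  · rw [indicator_of_notMem he, indicator_of_notMem he]
    simp

/-- The weighted bound on a good set of directions. -/
theorem good (σ : Measure S') [IsFiniteMeasure σ] (τ : Measure ℝ) [IsProbabilityMeasure τ]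
    (H : S' × ℝ → V k) (hH : Measurable H) (D : Set S') (hD : MeasurableSet D)
    (s : ℝ) (hs : 0 < s) (M : ℝ≥0∞)
    (hM : ∀ e ∈ D, ∫⁻ t, (∫⁻ y, ‖H (e, t) - H y‖ₑ ^ (-s) ∂(σ.prod τ)) ∂τ ≤ M)
    (δ : ℝ) (hδ : 0 < δ) (f : V k → ℝ≥0∞) (hf : Measurable f)
    (hf2 : ∫⁻ y, f y ^ (2 : ℝ) ≠ ⊤) :
    ∫⁻ e in D, (∫⁻ t, (∫⁻ y in closedBall (H (e, t)) (2 * δ), f y) ∂τ) ^ (2 : ℕ) ∂σ ≤
      (∫⁻ y, f y ^ (2 : ℝ)) * (volume (closedBall (0 : V k) (2 * δ)) *
        (ENNReal.ofReal (4 * δ) ^ s * M)) := by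
  have hFm := meas_ball2 hH (2 * δ) f hf
  have hgm : Measurable (fun e : S' => ∫⁻ t, (∫⁻ y in closedBall (H (e, t)) (2 * δ), f y) ∂τ) :=
    hFm.lintegral_prod_right'
  have hBt : volume (closedBall (0 : V k) (2 * δ)) ≠ ⊤ := measure_closedBall_lt_top.ne
  have hc0 := ENNReal.add_ne_top.2 ⟨hBt, hf2⟩
  have hg : ∀ e : S', ∫⁻ t, (∫⁻ y in closedBall (H (e, t)) (2 * δ), f y) ∂τ ≤
      volume (closedBall (0 : V k) (2 * δ)) + ∫⁻ y, f y ^ (2 : ℝ) := by
    intro e
    refine (lintegral_mono fun t => Fb_le (H (e, t)) (2 * δ) f).trans ?_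
    simp
  have hT3 : ∀ m : Measure (S' × ℝ), IsFiniteMeasure m → _ := fun m hm =>
    L2.l2_bound m (volume : Measure (V k)) H hH s hs δ hδ f hf
  generalize hgg : (fun e : S' => ∫⁻ t, (∫⁻ y in closedBall (H (e, t)) (2 * δ), f y) ∂τ) = g
    at hgm
  have hge : ∀ e, ∫⁻ t, (∫⁻ y in closedBall (H (e, t)) (2 * δ), f y) ∂τ = g e := fun e => by
    rw [← hgg]
  simp only [hge] at hg ⊢
  have hJeq := J_eq σ τ _ hFm g hgm (fun e => (hge e).symm) D hD
  have hq : Measurable (fun p : (S' × ℝ) × (S' × ℝ) => ‖H p.1 - H p.2‖ₑ ^ (-s)) :=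
    ((hH.comp measurable_fst).sub (hH.comp measurable_snd)).enorm.pow_const _
  have hen := en_le σ τ (fun x y => ‖H x - H y‖ₑ ^ (-s)) hq
    (fun x y => by
      show ‖H x - H y‖ₑ ^ (-s) = ‖H y - H x‖ₑ ^ (-s)
      rw [enorm_sub_rev]) g hgm D hD M hM
  have hwfin : IsFiniteMeasure ((σ.prod τ).withDensity fun x => D.indicator g x.1) := by
    apply isFiniteMeasure_withDensity
    apply ne_top_of_le_ne_top _ (lintegral_mono (μ := σ.prod τ)
      (g := fun _ => volume (closedBall (0 : V k) (2 * δ)) + ∫⁻ y, f y ^ (2 : ℝ))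
      (fun x => (indicator_le_self' (fun _ _ => zero_le) x.1).trans (hg x.1)))
    rw [lintegral_const]
    exact ENNReal.mul_ne_top hc0 (measure_ne_top _ _)
  have hJt : ∫⁻ e in D, g e ^ (2 : ℕ) ∂σ ≠ ⊤ := by
    apply ne_top_of_le_ne_top _ (lintegral_mono (μ := σ.restrict D)
      (fun e => pow_le_pow_left' (hg e) 2))
    rw [lintegral_const]
    exact ENNReal.mul_ne_top (ENNReal.pow_ne_top hc0) (measure_ne_top _ _)
  have h3 := hT3 ((σ.prod τ).withDensity fun x => D.indicator g x.1) hwfin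
  rw [hJeq] at h3
  generalize ∫⁻ e in D, g e ^ (2 : ℕ) ∂σ = J at h3 hen hJt ⊢
  apply absorb J _ _ hJt
  refine h3.trans (mul_le_mul' le_rfl (ENNReal.rpow_le_rpow ?_ (by norm_num)))
  refine (mul_le_mul' le_rfl (mul_le_mul' le_rfl hen)).trans (le_of_eq ?_)
  ring

end Vale.Agent.P127.Schur
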