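import Mathlib

/-!
P127, row T1: the volume of a tube of length one and radius `δ`.
-/

open MeasureTheory Set Metric Module
open scoped NNReal ENNReal Topology

namespace Vale.Agent.P127

variable {E : Type*} [NormedAddCommGroup E] [InnerProductSpace ℝ E] [FiniteDimensional ℝ E]
  [MeasurableSpace E] [BorelSpace E]

/-- The tube `T_δ(a, e)` of length one and radius `δ` about the line through `a` with
direction `e`. -/
def Tube.tube (a e : E) (δ : ℝ) : Set E :=
  {x | ∃ t : ℝ, ∃ u : E, |t| ≤ 1 / 2 ∧ inner ℝ u e = 0 ∧ ‖u‖ ≤ δ ∧ x = a + t • e + u}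

omit [FiniteDimensional ℝ E] [MeasurableSpace E] [BorelSpace E] in
theorem Tube.mem_of_ball {a e : E} {δ : ℝ} (he : ‖e‖ = 1) {t : ℝ} (ht : |t| ≤ 1 / 2 - δ / 2)
    {y : E} (hy : ‖y - (a + t • e)‖ ≤ δ / 2) : y ∈ Tube.tube a e δ := by
  set v : E := y - (a + t • e) with hv
  have h1 : |inner ℝ v e| ≤ δ / 2 := by
    have h := abs_real_inner_le_norm v e
    rw [he, mul_one] at h
    exact h.trans hy
  refine ⟨t + inner ℝ v e, v - (inner ℝ v e : ℝ) • e, ?_, ?_, ?_, ?_⟩
  · exact (abs_add_le _ _).trans (by linarith)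
  · rw [inner_sub_left, real_inner_smul_left, real_inner_self_eq_norm_sq, he]
    ring
  · have h2 : ‖(inner ℝ v e : ℝ) • e‖ ≤ δ / 2 := by
      rw [norm_smul, he, mul_one, Real.norm_eq_abs]
      exact h1
    calc ‖v - (inner ℝ v e : ℝ) • e‖ ≤ ‖v‖ + ‖(inner ℝ v e : ℝ) • e‖ := norm_sub_le _ _
      _ ≤ δ / 2 + δ / 2 := add_le_add hy h2
      _ = δ := by ring
  · generalize (inner ℝ v e : ℝ) = c
    rw [hv]
    module

/-- ROW T1 (Tube.lean). -/
theorem Tube.vol_tube (μ : Measure E) [μ.IsAddHaarMeasure] :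
    ∃ c : ℝ≥0∞, c ≠ 0 ∧ ∀ (a e : E) (δ : ℝ), ‖e‖ = 1 → 0 < δ → δ ≤ 1 / 2 →
      c * ENNReal.ofReal δ ^ (finrank ℝ E) ≤ ENNReal.ofReal δ * μ (Tube.tube a e δ) := by
  refine ⟨ENNReal.ofReal (1 / 2) * (ENNReal.ofReal (1 / 2) ^ (finrank ℝ E) * μ (ball 0 1)),
    ?_, ?_⟩
  · refine mul_ne_zero ?_ (mul_ne_zero (pow_ne_zero _ ?_) (measure_ball_pos μ 0 one_pos).ne')
    · exact (ENNReal.ofReal_pos.2 (by norm_num)).ne'
    · exact (ENNReal.ofReal_pos.2 (by norm_num)).ne'
  · intro a e δ he hδ hδ2
    have hball : ∀ x : E, μ (ball x (δ / 2)) =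
        ENNReal.ofReal (δ / 2) ^ (finrank ℝ E) * μ (ball 0 1) := by
      intro x
      rw [Measure.addHaar_ball_of_pos μ x (by positivity : 0 < δ / 2),
        ENNReal.ofReal_pow (by positivity)]
    set I : Set ℝ := Icc (-(1 / 2 - δ / 2)) (1 / 2 - δ / 2) with hI
    have hS : MeasurableSet {p : ℝ × E | p.2 ∈ ball (a + p.1 • e) (δ / 2)} := by
      apply IsOpen.measurableSet
      simp only [mem_ball]
      exact isOpen_lt (by fun_prop) continuous_const
    have h1 : ((volume.restrict I).prod μ) {p : ℝ × E | p.2 ∈ ball (a + p.1 • e) (δ / 2)} =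
        (ENNReal.ofReal (δ / 2) ^ (finrank ℝ E) * μ (ball 0 1)) * ENNReal.ofReal (1 - δ) := by
      rw [Measure.prod_apply hS]
      have h : ∀ x : ℝ, μ (Prod.mk x ⁻¹' {p : ℝ × E | p.2 ∈ ball (a + p.1 • e) (δ / 2)}) =
          ENNReal.ofReal (δ / 2) ^ (finrank ℝ E) * μ (ball 0 1) := by
        intro x
        rw [← hball (a + x • e)]
        rfl
      simp_rw [h]
      rw [lintegral_const, Measure.restrict_apply MeasurableSet.univ, univ_inter,
        Real.volume_Icc]
      congr 2
      ring
    have h2 : ((volume.restrict I).prod μ) {p : ℝ × E | p.2 ∈ ball (a + p.1 • e) (δ / 2)} ≤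
        ENNReal.ofReal δ * μ (Tube.tube a e δ) := by
      rw [Measure.prod_apply_symm hS]
      calc ∫⁻ y, (volume.restrict I)
            ((fun x => (x, y)) ⁻¹' {p : ℝ × E | p.2 ∈ ball (a + p.1 • e) (δ / 2)}) ∂μ
          ≤ ∫⁻ y, (Tube.tube a e δ).indicator (fun _ => ENNReal.ofReal δ) y ∂μ := by
            refine lintegral_mono fun y => ?_
            have hset : ((fun x : ℝ => (x, y)) ⁻¹'
                {p : ℝ × E | p.2 ∈ ball (a + p.1 • e) (δ / 2)}) =
                {t : ℝ | y ∈ ball (a + t • e) (δ / 2)} := rfl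
            rw [hset, Measure.restrict_apply' measurableSet_Icc]
            by_cases hy : y ∈ Tube.tube a e δ
            · rw [indicator_of_mem hy]
              refine (Real.volume_le_diam _).trans (Metric.ediam_le ?_)
              rintro s ⟨hs, -⟩ t ⟨ht, -⟩
              rw [edist_dist]
              apply ENNReal.ofReal_le_ofReal
              simp only [mem_ofPred_eq, mem_ball] at hs ht
              have h3 : dist (a + s • e) (a + t • e) = dist s t := by
                rw [dist_add_left, dist_eq_norm, ← sub_smul, norm_smul, he, mul_one,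
                  dist_eq_norm]
              rw [← h3]
              have h4 := dist_triangle_left (a + s • e) (a + t • e) y
              linarith
            · rw [indicator_of_notMem hy]
              have h5 : {t : ℝ | y ∈ ball (a + t • e) (δ / 2)} ∩ I = ∅ := by
                ext t
                simp only [mem_inter_iff, mem_ofPred_eq, mem_empty_iff_false, iff_false, not_and]
                intro h6 h7
                apply hy
                refine Tube.mem_of_ball he (t := t) (abs_le.2 ⟨h7.1, h7.2⟩) ?_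
                rw [← dist_eq_norm]
                exact (mem_ball.1 h6).le
              rw [h5, measure_empty]
        _ ≤ ENNReal.ofReal δ * μ (Tube.tube a e δ) := lintegral_indicator_const_le _ _
    calc ENNReal.ofReal (1 / 2) * (ENNReal.ofReal (1 / 2) ^ (finrank ℝ E) * μ (ball 0 1)) *
          ENNReal.ofReal δ ^ (finrank ℝ E)
        = (ENNReal.ofReal (δ / 2) ^ (finrank ℝ E) * μ (ball 0 1)) * ENNReal.ofReal (1 / 2) := by
          rw [show δ / 2 = 1 / 2 * δ by ring, ENNReal.ofReal_mul (by norm_num), mul_pow]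
          ring
      _ ≤ (ENNReal.ofReal (δ / 2) ^ (finrank ℝ E) * μ (ball 0 1)) * ENNReal.ofReal (1 - δ) := by
          gcongr
          linarith
      _ ≤ ENNReal.ofReal δ * μ (Tube.tube a e δ) := h1 ▸ h2

end Vale.Agent.P127
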